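import Crest.Agent.R225B.Defs

/-! Row 225 (S0348): independent coins, conditioning and the Harris inequality. -/

set_option autoImplicit false
open Finset MeasureTheory
open scoped Classical

namespace Crest.Agent.R225B
noncomputable section

variable {Ω : Type} [Fintype Ω] [DecidableEq Ω] {p : Ω → ℝ}

theorem pw_nonneg (h0 : ∀ a, 0 ≤ p a) (h1 : ∀ a, p a ≤ 1) (ω : Finset Ω) : 0 ≤ pw p ω := by
  refine prod_nonneg fun a _ => ?_
  split_ifs
  · exact h0 a
  · exact sub_nonneg.2 (h1 a)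

/-- `Finset.prod_add` or `Finset.prod_one_add`-type expansion of `∏ a, (p a + (1 - p a))`. -/
theorem sum_pw (p : Ω → ℝ) : ∑ ω, pw p ω = 1 := by
  have h := prod_add p (fun a => 1 - p a) univ
  simp only [add_sub_cancel, prod_const_one, powerset_univ] at h
  rw [h]
  refine sum_congr rfl fun ω _ => ?_
  unfold pw
  rw [prod_ite, filter_mem_eq_inter, univ_inter, filter_not, filter_mem_eq_inter, univ_inter]

theorem ProbX.ex_const (p : Ω → ℝ) (c : ℝ) : ex p (fun _ => c) = c := by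
  unfold ex
  rw [← sum_mul, sum_pw, one_mul]

theorem ProbX.ex_one (p : Ω → ℝ) (a : Ω) (F : Finset Ω → ℝ) :
    ex p (fun ω => if a ∈ ω then F ω else 0) = p a * ex p (fun ω => F (insert a ω)) := by
  have split : ∀ G : Finset Ω → ℝ,
      ∑ ω, G ω = ∑ t ∈ (univ.erase a).powerset, (G t + G (insert a t)) := fun G => by
    rw [sum_add_distrib, ← sum_powerset_insert (notMem_erase a univ), insert_erase (mem_univ a),
      powerset_univ]
  unfold ex
  rw [split, split, mul_sum]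
  refine sum_congr rfl fun t ht => ?_
  have ha : a ∉ t := fun h => notMem_erase a univ (mem_powerset.1 ht h)
  have e1 : pw p t = (1 - p a) * ∏ b ∈ univ.erase a, if b ∈ t then p b else 1 - p b := by
    unfold pw
    rw [← mul_prod_erase univ _ (mem_univ a), if_neg ha]
  have e2 : pw p (insert a t) = p a * ∏ b ∈ univ.erase a, if b ∈ t then p b else 1 - p b := by
    unfold pw
    rw [← mul_prod_erase univ _ (mem_univ a), if_pos (mem_insert_self a t)]
    congr 1
    refine prod_congr rfl fun b hb => ?_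
    simp only [mem_insert, ne_of_mem_erase hb, false_or]
  beta_reduce
  rw [if_neg ha, if_pos (mem_insert_self a t), insert_idem, e1, e2]
  ring

/-- Induction on `A`; for one point `a` pair `ω ∌ a` with `insert a ω`:
`pw (insert a ω) = p a * q ω`, `pw ω = (1 - p a) * q ω`. -/
theorem ex_cond (p : Ω → ℝ) (A : Finset Ω) (F : Finset Ω → ℝ) :
    ex p (fun ω => if A ⊆ ω then F ω else 0) = pp p A * ex p (fun ω => F (ω ∪ A)) := by
  induction A using Finset.induction_on generalizing F with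
  | empty => simp [pp]
  | insert a A ha ih =>
    have e1 : (fun ω => if insert a A ⊆ ω then F ω else 0) =
        fun ω => if A ⊆ ω then (if a ∈ ω then F ω else 0) else 0 := by
      funext ω
      by_cases h1 : a ∈ ω <;> by_cases h2 : A ⊆ ω <;> simp [insert_subset_iff, h1, h2]
    have e2 : (fun ω => if a ∈ ω ∪ A then F (ω ∪ A) else 0) =
        fun ω => if a ∈ ω then F (ω ∪ A) else 0 := by
      funext ω
      simp [ha]
    rw [e1, ih, e2, ProbX.ex_one p a fun ω => F (ω ∪ A)]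
    unfold pp
    rw [prod_insert ha]
    simp only [insert_union, union_insert]
    ring

theorem ex_sub (p : Ω → ℝ) (A : Finset Ω) : ex p (fun ω => if A ⊆ ω then 1 else 0) = pp p A := by
  rw [ex_cond p A fun _ => 1, ProbX.ex_const, mul_one]

/-- Mathlib's `fkg` (`pw ω * pw ω' = pw (ω ∩ ω') * pw (ω ∪ ω')`) for `f ∅ - f`, `g ∅ - g`. -/
theorem harris (h0 : ∀ a, 0 ≤ p a) (h1 : ∀ a, p a ≤ 1) {f g : Finset Ω → ℝ} (hf : Antitone f)
    (hg : Antitone g) : ex p f * ex p g ≤ ex p (fun ω => f ω * g ω) := by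
  have h := fkg (μ := pw p) (f := fun ω => f ∅ - f ω) (g := fun ω => g ∅ - g ω)
    (fun ω => pw_nonneg h0 h1 ω) (fun ω => sub_nonneg.2 (hf (empty_subset ω)))
    (fun ω => sub_nonneg.2 (hg (empty_subset ω))) (fun _ _ h => sub_le_sub_left (hf h) _)
    (fun _ _ h => sub_le_sub_left (hg h) _) fun ω ω' => le_of_eq (by
      unfold pw
      rw [← prod_mul_distrib, ← prod_mul_distrib]
      refine prod_congr rfl fun a _ => ?_
      by_cases h1 : a ∈ ω <;> by_cases h2 : a ∈ ω' <;> simp [h1, h2, mul_comm])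
  have e1 : ∀ (c : ℝ) (f : Finset Ω → ℝ), ∑ ω, pw p ω * (c - f ω) = c - ex p f := fun c f => by
    simp only [mul_sub, sum_sub_distrib, ← sum_mul, sum_pw, one_mul, ex]
  have e2 : ∑ ω, pw p ω * ((f ∅ - f ω) * (g ∅ - g ω)) =
      f ∅ * g ∅ - f ∅ * ex p g - g ∅ * ex p f + ex p fun ω => f ω * g ω := by
    unfold ex
    rw [← ProbX.ex_const p (f ∅ * g ∅), ex, mul_sum, mul_sum, ← sum_sub_distrib,
      ← sum_sub_distrib, ← sum_add_distrib]
    exact sum_congr rfl fun ω _ => by ring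
  rw [e1, e1, e2, sum_pw] at h
  linarith

/-- conditional Harris inequality: `g` does not depend on the coins in `A`.  Use `ex_cond` twice and
`harris` for `ω ↦ f (ω ∪ A)` and `g`. -/
theorem harris_cond (h0 : ∀ a, 0 ≤ p a) (h1 : ∀ a, p a ≤ 1) (A : Finset Ω) {f g : Finset Ω → ℝ}
    (hf : Antitone f) (hg : Antitone g) (hA : ∀ ω, g (ω ∪ A) = g ω) :
    ex p (fun ω => if A ⊆ ω then f ω else 0) * ex p g ≤
      ex p (fun ω => if A ⊆ ω then f ω * g ω else 0) := by
  rw [ex_cond, ex_cond p A fun ω => f ω * g ω, mul_assoc]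
  simp only [hA]
  exact mul_le_mul_of_nonneg_left
    (harris h0 h1 (f := fun ω => f (ω ∪ A)) (fun _ _ h => hf (union_subset_union_left h)) hg)
    (prod_nonneg fun a _ => h0 a)

theorem ex_mono (h0 : ∀ a, 0 ≤ p a) (h1 : ∀ a, p a ≤ 1) {f g : Finset Ω → ℝ} (h : ∀ ω, f ω ≤ g ω) :
    ex p f ≤ ex p g := by
  exact sum_le_sum fun ω _ => mul_le_mul_of_nonneg_left (h ω) (pw_nonneg h0 h1 ω)

theorem pr_mono (h0 : ∀ a, 0 ≤ p a) (h1 : ∀ a, p a ≤ 1) {E E' : Finset Ω → Prop}
    (h : ∀ ω, E ω → E' ω) : pr p E ≤ pr p E' := by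
  refine sum_le_sum fun ω _ => ?_
  by_cases hE : E ω
  · rw [if_pos hE, if_pos (h ω hE)]
  · rw [if_neg hE]
    split_ifs
    · exact pw_nonneg h0 h1 ω
    · exact le_rfl

theorem pr_le_ex (h0 : ∀ a, 0 ≤ p a) (h1 : ∀ a, p a ≤ 1) {E : Finset Ω → Prop} {f : Finset Ω → ℝ}
    (hf : ∀ ω, 0 ≤ f ω) (h : ∀ ω, E ω → 1 ≤ f ω) : pr p E ≤ ex p f := by
  refine sum_le_sum fun ω _ => ?_
  split_ifs with hE
  · exact le_mul_of_one_le_right (pw_nonneg h0 h1 ω) (h ω hE)
  · exact mul_nonneg (pw_nonneg h0 h1 ω) (hf ω)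

/-- expected value of an additive function -/
theorem ex_sum (p : Ω → ℝ) (m : Ω → ℝ) : ex p (fun ω => ∑ a ∈ ω, m a) = ∑ a, p a * m a := by
  have e : ∀ ω : Finset Ω, pw p ω * ∑ a ∈ ω, m a =
      ∑ a, pw p ω * if a ∈ ω then m a else 0 := fun ω => by
    rw [← mul_sum, sum_ite_mem, univ_inter]
  unfold ex
  simp only [e]
  rw [sum_comm]
  refine sum_congr rfl fun a _ => ?_
  have := ProbX.ex_one p a fun _ => m a
  rwa [ProbX.ex_const] at this

/-- union bound -/
theorem exists_avoid (h0 : ∀ a, 0 ≤ p a) (h1 : ∀ a, p a ≤ 1) {ι : Type} (I : Finset ι)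
    (E0 : Finset Ω → Prop) (E : ι → Finset Ω → Prop) (h : pr p E0 + ∑ i ∈ I, pr p (E i) < 1) :
    ∃ ω, ¬ E0 ω ∧ ∀ i ∈ I, ¬ E i ω := by
  by_contra hc
  refine absurd h (not_lt.2 ?_)
  unfold pr
  rw [← sum_pw p, sum_comm, ← sum_add_distrib]
  refine sum_le_sum fun ω _ => ?_
  have w0 := pw_nonneg h0 h1 ω
  have n0 : ∀ i ∈ I, 0 ≤ if E i ω then pw p ω else 0 := fun i _ => by
    split_ifs
    · exact w0
    · exact le_rfl
  by_cases h2 : E0 ω
  · rw [if_pos h2]
    exact le_add_of_nonneg_right (sum_nonneg n0)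
  · rw [if_neg h2, zero_add]
    obtain ⟨i, hi, h3⟩ : ∃ i ∈ I, E i ω := by
      by_contra h3
      exact hc ⟨ω, h2, fun i hi h4 => h3 ⟨i, hi, h4⟩⟩
    refine le_trans (le_of_eq ?_) (single_le_sum n0 hi)
    rw [if_pos h3]

end
end Crest.Agent.R225B
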