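import Crest.Agent.R225B.Geo
import Crest.Agent.R225B.Prob

/-! Row 225 (S0348): the random body. -/

set_option autoImplicit false
open Finset MeasureTheory
open scoped Classical

namespace Crest.Agent.R225B
noncomputable section

open scoped Pointwise

variable {n : ℕ} {Ω : Type} [Fintype Ω] [DecidableEq Ω] {r : ℝ} {v : Ω → V n} {τ p : Ω → ℝ}

theorem body_compact (v : Ω → V n) (τ : Ω → ℝ) (ω : Finset Ω) : IsCompact (body v τ ω) := by
  refine (isCompact_Bl (0 : V n) 1).of_isClosed_subset ?_ fun z hz => mem_B.2 hz.1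
  have : body v τ ω = {z | nr z ≤ 1} ∩ ⋂ a ∈ ω, {z | |ip (v a) z| ≤ τ a} := by
    ext z; simp [body]
  rw [this]
  exact (isClosed_le continuous_nr continuous_const).inter (isClosed_biInter fun a _ =>
    isClosed_le (continuous_ip (v a)).abs continuous_const)

theorem body_convex (v : Ω → V n) (τ : Ω → ℝ) (ω : Finset Ω) : Convex ℝ (body v τ ω) := by
  intro x hx y hy s t hs ht hst
  refine ⟨(nr_add_le _ _).trans ?_, fun a ha => ?_⟩
  · rw [nr_smul, nr_smul, abs_of_nonneg hs, abs_of_nonneg ht]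
    have := mul_le_mul_of_nonneg_left hx.1 hs
    have := mul_le_mul_of_nonneg_left hy.1 ht
    linarith
  · rw [ip_add, ip_smul, ip_smul]
    refine (abs_add_le _ _).trans ?_
    rw [abs_mul, abs_mul, abs_of_nonneg hs, abs_of_nonneg ht]
    have := mul_le_mul_of_nonneg_left (hx.2 a ha) hs
    have := mul_le_mul_of_nonneg_left (hy.2 a ha) ht
    have : s * τ a + t * τ a = τ a := by rw [← add_mul, hst, one_mul]
    linarith

theorem body_neg {ω : Finset Ω} {z : V n} (hz : z ∈ body v τ ω) : -z ∈ body v τ ω :=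
  ⟨by rw [nr_neg]; exact hz.1, fun a ha => by rw [ip_neg, abs_neg]; exact hz.2 a ha⟩

/-- `nr_le_of_abs`, `abs_ip_le`, `Md.l1`, `Md.tau`. -/
theorem cube_sub_body (hn : 0 < n) (hr : 1 ≤ r) (hM : Md r v τ p) (ω : Finset Ω) {z : V n}
    (hz : ∀ i, |z i| ≤ 1 / (n * r ^ 2)) : z ∈ body v τ ω := by
  have hn1 : (1 : ℝ) ≤ n := Nat.one_le_cast.2 hn
  have hr2 : 1 ≤ r ^ 2 := one_le_pow₀ hr
  have hp : 0 < (n : ℝ) * r ^ 2 := by positivity
  refine ⟨(nr_le_of_abs (by positivity) hz).trans ?_, fun a _ => (abs_ip_le _ hz).trans ?_⟩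
  · rw [mul_one_div, div_le_one hp]
    have : √(n : ℝ) ≤ n := Real.sqrt_le_iff.2 ⟨by linarith, by nlinarith⟩
    nlinarith
  · refine le_trans ?_ (hM.tau a)
    rw [mul_one_div, div_le_one hp]
    exact hM.l1 a

theorem BodyX.quarter (hn : 4 ≤ n) : (1 : ℝ) ≤ 4 * (1 - 1 / (n : ℝ)) ^ n := by
  have hn4 : (4 : ℝ) ≤ n := by exact_mod_cast hn
  have h1 : Real.exp (-(1 / (n - 1 : ℝ))) ≤ 1 - 1 / (n : ℝ) := by
    have h := Real.add_one_le_exp (1 / (n - 1 : ℝ))
    have e : 1 - 1 / (n : ℝ) = (1 / (n - 1 : ℝ) + 1)⁻¹ := by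
      have : (n : ℝ) - 1 ≠ 0 := by linarith
      have : (n : ℝ) ≠ 0 := by linarith
      rw [div_add_one (by assumption), inv_div, add_sub_cancel]
      field_simp
    rw [Real.exp_neg, e]
    exact inv_anti₀ (by have : 0 < 1 / (n - 1 : ℝ) := by apply one_div_pos.2; linarith
                        linarith) h
  have h2 := pow_le_pow_left₀ (Real.exp_pos _).le h1 n
  rw [← Real.exp_nat_mul] at h2
  have h3 : Real.exp (-(2 * Real.log 2)) ≤ Real.exp (n * -(1 / (n - 1 : ℝ))) := by
    refine Real.exp_le_exp.2 ?_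
    have : (n : ℝ) * (1 / (n - 1)) ≤ 4 / 3 := by
      rw [mul_one_div, div_le_iff₀ (by linarith)]; linarith
    have := Real.log_two_gt_d9
    linarith
  have h4 : Real.exp (-(2 * Real.log 2)) = 1 / 4 := by
    rw [Real.exp_neg, two_mul, Real.exp_add, Real.exp_log (by norm_num)]; norm_num
  linarith

/-- the shrunk body: `w + e = (1 - 1/n) • k + (1/n) • (n • e)`; `(1 - 1/n)^n ≥ 1/4`;
`Measure.addHaar_smul_of_nonneg`. -/
theorem shrink (hn : 4 ≤ n) (hr : 1 ≤ r) (hM : Md r v τ p) (ω : Finset Ω) :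
    ∃ K : Set (V n), IsCompact K ∧ Convex ℝ K ∧ (interior K).Nonempty ∧ (∀ x ∈ K, -x ∈ K) ∧
      (∀ x ∈ K, nr x ≤ 1) ∧ volume (body v τ ω) ≤ 4 * volume K ∧
      ∀ w ∈ K, ∀ e : V n, (∀ i, |e i| ≤ 1 / ((n : ℝ) ^ 2 * r ^ 2)) → w + e ∈ body v τ ω := by
  have hn4 : (4 : ℝ) ≤ n := by exact_mod_cast hn
  have hn0 : (0 : ℝ) < n := by linarith
  have hr0 : 0 < r := by linarith
  have hi : 1 / (n : ℝ) ≤ 1 / 4 := one_div_le_one_div_of_le (by norm_num) hn4
  have hi0 : 0 < 1 / (n : ℝ) := by positivity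
  set c : ℝ := 1 - 1 / n with hc
  have hc0 : 0 < c := by linarith
  refine ⟨c • body v τ ω, (body_compact v τ ω).smul c, (body_convex v τ ω).smul c, ⟨0, ?_⟩, ?_, ?_,
    ?_, ?_⟩
  · refine mem_interior_iff_mem_nhds.2 (Filter.mem_of_superset
      (Metric.closedBall_mem_nhds (0 : V n) (ε := c * (1 / (n * r ^ 2))) (by positivity)) ?_)
    intro z hz
    rw [mem_closedBall_zero_iff, pi_norm_le_iff_of_nonneg (by positivity)] at hz
    refine ⟨c⁻¹ • z, cube_sub_body (by omega) hr hM ω fun i => ?_, smul_inv_smul₀ hc0.ne' z⟩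
    rw [Pi.smul_apply, smul_eq_mul, abs_mul, abs_of_pos (inv_pos.2 hc0), inv_mul_le_iff₀ hc0]
    exact hz i
  · rintro _ ⟨k, hk, rfl⟩
    exact ⟨-k, body_neg hk, smul_neg c k⟩
  · rintro _ ⟨k, hk, rfl⟩
    change nr (c • k) ≤ 1
    rw [nr_smul, abs_of_pos hc0]
    exact mul_le_one₀ (by linarith) (nr_nonneg k) hk.1
  · rw [Measure.addHaar_smul_of_nonneg _ hc0.le, Module.finrank_fin_fun, ← mul_assoc]
    refine le_mul_of_one_le_left' ?_
    rw [← ENNReal.ofReal_ofNat 4, ← ENNReal.ofReal_mul (by norm_num), ENNReal.one_le_ofReal]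
    exact BodyX.quarter hn
  · rintro _ ⟨k, hk, rfl⟩ e he
    have h1 : (n : ℝ) • e ∈ body v τ ω := cube_sub_body (by omega) hr hM ω fun i => by
      rw [Pi.smul_apply, smul_eq_mul, abs_mul, abs_of_pos hn0]
      refine (mul_le_mul_of_nonneg_left (he i) hn0.le).trans (le_of_eq ?_)
      field_simp
    have h2 := body_convex v τ ω hk h1 hc0.le hi0.le (by rw [hc]; ring)
    rwa [smul_smul, one_div_mul_cancel hn0.ne', one_smul] at h2

/-- Markov.  With `m a = vol {z ∈ B | τ a < |ip (v a) z|}` we have `vB ≤ vol (body ω) + ∑ a ∈ ω, m a`,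
and `∑ a, p a * m a = ∫_B (∑ a, p a 1[..]) ≤ ∫_B (ms (cap z) + ms (cap (-z))) ≤ vB / 2`;
`ex_sum`, `pr_le_ex` with `f ω = (∑ a ∈ ω, m a) / (3/4 * vB)`. -/
theorem body_vol (hM : Md r v τ p) :
    pr p (fun ω => 4 * (volume (body v τ ω)).toReal < vB n) ≤ 2 / 3 := by
  have h0 : ∀ a, 0 ≤ p a := fun a => (hM.pos a).le
  set μ : Measure (V n) := volume.restrict (Bl (0 : V n) 1) with hμ
  have : IsFiniteMeasure μ := isFiniteMeasure_restrict.2 vol_B_ne_top
  set S : Ω → Set (V n) := fun a => {z | τ a < |ip (v a) z|} with hS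
  have hSm : ∀ a, MeasurableSet (S a) := fun a =>
    (isOpen_lt continuous_const (continuous_ip (v a)).abs).measurableSet
  have hv := vB_pos n
  have hB : μ.real (Bl (0 : V n) 1) = vB n := by
    rw [hμ, Measure.real, Measure.restrict_apply_self]; rfl
  have hU : μ.real Set.univ = vB n := by
    rw [hμ, Measure.real, Measure.restrict_apply_univ]; rfl
  have h1 : ∀ ω : Finset Ω, vB n ≤ (volume (body v τ ω)).toReal + ∑ a ∈ ω, μ.real (S a) := by
    intro ω
    have hsub : Bl (0 : V n) 1 ⊆ body v τ ω ∪ ⋃ a ∈ ω, S a := fun z hz => by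
      by_cases h : ∀ a ∈ ω, |ip (v a) z| ≤ τ a
      · exact Or.inl ⟨mem_B.1 hz, h⟩
      · push Not at h
        obtain ⟨a, ha, h⟩ := h
        exact Or.inr (Set.mem_biUnion ha h)
    rw [← hB]
    refine (measureReal_mono hsub).trans ((measureReal_union_le _ _).trans (add_le_add ?_
      (measureReal_biUnion_finset_le _ _)))
    exact ENNReal.toReal_mono (body_compact v τ ω).measure_lt_top.ne (Measure.restrict_le_self _)
  have h2 : ∑ a, p a * μ.real (S a) ≤ vB n / 2 := by
    have hint : ∀ a, Integrable (fun z => p a * (S a).indicator (1 : V n → ℝ) z) μ := fun a =>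
      ((integrable_const (1 : ℝ)).indicator (hSm a)).const_mul _
    calc _ = ∫ z, ∑ a, p a * (S a).indicator (1 : V n → ℝ) z ∂μ := by
          rw [integral_finsetSum _ fun a _ => hint a]
          exact sum_congr rfl fun a _ => by rw [integral_const_mul, integral_indicator_one (hSm a)]
      _ ≤ ∫ _z, (1 / 2 : ℝ) ∂μ := by
          refine integral_mono_ae (integrable_finsetSum _ fun a _ => hint a) (integrable_const _) ?_
          filter_upwards [ae_restrict_mem (measurableSet_Bl (0 : V n) 1)] with z hz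
          have a1 := hM.up z (mem_B.1 hz)
          have a2 := hM.up (-z) (by rw [nr_neg]; exact mem_B.1 hz)
          refine le_trans ?_ ((add_le_add a1 a2).trans (by norm_num))
          rw [ms, ms, cap, cap, sum_filter, sum_filter, ← sum_add_distrib]
          refine sum_le_sum fun a _ => ?_
          have := h0 a
          by_cases h : z ∈ S a
          · rw [Set.indicator_of_mem h, Pi.one_apply, mul_one, ip_neg]
            rcases lt_abs.1 (show τ a < |ip (v a) z| from h) with h | h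
            · rw [if_pos h]; split_ifs <;> linarith
            · rw [if_pos h]; split_ifs <;> linarith
          · rw [Set.indicator_of_notMem h, mul_zero]; split_ifs <;> linarith
      _ = _ := by rw [integral_const, hU, smul_eq_mul]; ring
  refine (pr_le_ex h0 hM.le (f := fun ω => ∑ a ∈ ω, μ.real (S a) / (3 / 4 * vB n))
    (fun ω => sum_nonneg fun a _ => by positivity) fun ω h => ?_).trans ?_
  · rw [← sum_div, one_le_div (by positivity)]
    have := h1 ω
    linarith
  · rw [ex_sum]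
    simp only [← mul_div_assoc, ← sum_div]
    rw [div_le_iff₀ (by positivity)]
    linarith

end
end Crest.Agent.R225B
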