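import Crest.Agent.R225B.Defs

/-! Row 225 (S0348): Euclidean norm and balls. -/

set_option autoImplicit false
open Finset MeasureTheory
open scoped Classical

namespace Crest.Agent.R225B
noncomputable section

variable {n : ℕ}

theorem nr_nonneg (z : V n) : 0 ≤ nr z := Real.sqrt_nonneg _

theorem nr_sq (z : V n) : nr z ^ 2 = ∑ i, z i ^ 2 :=
  Real.sq_sqrt (sum_nonneg fun _ _ => sq_nonneg _)

theorem nr_eq (z : V n) : nr z = ‖(WithLp.toLp 2 z : EuclideanSpace ℝ (Fin n))‖ := by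
  rw [EuclideanSpace.norm_eq, nr]
  simp

theorem nr_zero : nr (0 : V n) = 0 := by simp [nr]

theorem nr_neg (z : V n) : nr (-z) = nr z := by simp [nr]

theorem nr_sub_comm (z w : V n) : nr (z - w) = nr (w - z) := by rw [← nr_neg, neg_sub]

theorem nr_add_le (z w : V n) : nr (z + w) ≤ nr z + nr w := by
  rw [nr_eq, nr_eq, nr_eq, WithLp.toLp_add]
  exact norm_add_le _ _

theorem nr_smul (c : ℝ) (z : V n) : nr (c • z) = |c| * nr z := by
  rw [nr_eq, nr_eq, WithLp.toLp_smul, norm_smul, Real.norm_eq_abs]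

theorem abs_le_nr (z : V n) (i : Fin n) : |z i| ≤ nr z :=
  Real.abs_le_sqrt (single_le_sum (f := fun i => z i ^ 2) (fun _ _ => sq_nonneg _) (mem_univ i))

theorem nr_le_of_abs {z : V n} {h : ℝ} (h0 : 0 ≤ h) (hz : ∀ i, |z i| ≤ h) : nr z ≤ √n * h := by
  rw [nr, Real.sqrt_le_left (by positivity), mul_pow, Real.sq_sqrt (Nat.cast_nonneg n)]
  calc _ ≤ ∑ _i : Fin n, h ^ 2 := sum_le_sum fun i _ => by
        rw [← sq_abs]; exact pow_le_pow_left₀ (abs_nonneg _) (hz i) 2
    _ = _ := by simp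

theorem continuous_nr : Continuous (nr : V n → ℝ) := by unfold nr; fun_prop

theorem ip_add (u z w : V n) : ip u (z + w) = ip u z + ip u w := by
  simp [ip, mul_add, sum_add_distrib]

theorem ip_smul (u : V n) (c : ℝ) (z : V n) : ip u (c • z) = c * ip u z := by
  simp [ip, mul_sum, mul_left_comm]

theorem ip_neg (u z : V n) : ip u (-z) = -ip u z := by simp [ip]

theorem abs_ip_le (u : V n) {z : V n} {h : ℝ} (hz : ∀ i, |z i| ≤ h) :
    |ip u z| ≤ (∑ i, |u i|) * h := by
  rw [sum_mul]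
  exact (abs_sum_le_sum_abs _ _).trans (sum_le_sum fun i _ => by
    rw [abs_mul]; exact mul_le_mul_of_nonneg_left (hz i) (abs_nonneg _))

theorem continuous_ip (u : V n) : Continuous (ip u) := by unfold ip; fun_prop

theorem mem_Bl {w y : V n} {ρ : ℝ} : y ∈ Bl w ρ ↔ nr (y - w) ≤ ρ := Iff.rfl

theorem mem_B {y : V n} : y ∈ Bl (0 : V n) 1 ↔ nr y ≤ 1 := by rw [mem_Bl, sub_zero]

theorem isClosed_Bl (w : V n) (ρ : ℝ) : IsClosed (Bl w ρ) :=
  isClosed_le (continuous_nr.comp (by fun_prop)) continuous_const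

theorem measurableSet_Bl (w : V n) (ρ : ℝ) : MeasurableSet (Bl w ρ) := (isClosed_Bl w ρ).measurableSet

theorem isCompact_Bl (w : V n) (ρ : ℝ) : IsCompact (Bl w ρ) := by
  refine (isCompact_closedBall w |ρ|).of_isClosed_subset (isClosed_Bl w ρ) fun y hy => ?_
  rw [mem_closedBall_iff_norm, pi_norm_le_iff_of_nonneg (abs_nonneg _)]
  exact fun i => (abs_le_nr (y - w) i).trans (le_trans hy (le_abs_self _))

theorem vol_B_ne_top : volume (Bl (0 : V n) 1) ≠ ⊤ := (isCompact_Bl _ _).measure_lt_top.ne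

theorem vol_B_pos : 0 < volume (Bl (0 : V n) 1) := by
  refine (IsOpen.measure_pos volume (isOpen_lt (continuous_nr (n := n)) (continuous_const (y := 1)))
    ⟨0, by simp [nr_zero]⟩).trans_le (measure_mono fun y hy => mem_B.2 (le_of_lt hy))

theorem vB_pos (n : ℕ) : 0 < vB n := ENNReal.toReal_pos vol_B_pos.ne' vol_B_ne_top

theorem vol_B_eq (n : ℕ) : volume (Bl (0 : V n) 1) = ENNReal.ofReal (vB n) :=
  (ENNReal.ofReal_toReal vol_B_ne_top).symm

theorem fr_nonneg (w : V n) (ρ : ℝ) : 0 ≤ fr w ρ := div_nonneg ENNReal.toReal_nonneg (vB_pos n).le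

end
end Crest.Agent.R225B
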