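import Crest.Agent.R225B.Kill
import Crest.Agent.R225B.Geo

/-! Row 225 (S0348): a configuration with good test points is unlikely to cover them. -/

set_option autoImplicit false
open Finset MeasureTheory
open scoped Classical

namespace Crest.Agent.R225B
noncomputable section

variable {n : ℕ} {Ω : Type} [Fintype Ω] [DecidableEq Ω]

theorem cfg_count (hn : 0 < n) (k0 : ℕ) {x : ℝ} (hx1 : x ≤ 1) (hx : 1 - (k0 : ℝ) / n < x) :
    (1 : ℝ) ≤ ∑ k ∈ range k0, (if x ≤ 1 - (k : ℝ) / n then (1 : ℝ) else 0) ∧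
      (n : ℝ) * (1 - x) ≤ ∑ k ∈ range k0, (if x ≤ 1 - (k : ℝ) / n then (1 : ℝ) else 0) := by
  have hn' : (0 : ℝ) < n := by exact_mod_cast hn
  have hd0 : 0 ≤ (n : ℝ) * (1 - x) := mul_nonneg hn'.le (by linarith)
  have hdk : (n : ℝ) * (1 - x) < k0 := by
    have h1 : 1 - x < (k0 : ℝ) / n := by linarith
    rw [lt_div_iff₀ hn'] at h1
    linarith
  set m := ⌊(n : ℝ) * (1 - x)⌋₊ with hm
  have hmk : m < k0 := (Nat.floor_lt hd0).2 hdk
  have hsum : ((m : ℝ) + 1) ≤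
      ∑ k ∈ range k0, (if x ≤ 1 - (k : ℝ) / n then (1 : ℝ) else 0) := by
    calc ((m : ℝ) + 1) = ∑ _k ∈ range (m + 1), (1 : ℝ) := by simp
      _ = ∑ k ∈ range (m + 1), (if x ≤ 1 - (k : ℝ) / n then (1 : ℝ) else 0) := by
        refine sum_congr rfl fun k hk => ?_
        rw [if_pos]
        have hk' : k ≤ m := Nat.lt_succ_iff.1 (mem_range.1 hk)
        have h2 : (k : ℝ) ≤ n * (1 - x) :=
          (Nat.cast_le.2 hk').trans (Nat.floor_le hd0)
        have h3 : (k : ℝ) / n ≤ 1 - x := by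
          rw [div_le_iff₀ hn']
          linarith
        linarith
      _ ≤ _ := by
        refine sum_le_sum_of_subset_of_nonneg (range_mono (Nat.succ_le_of_lt hmk)) ?_
        intro k _ _
        split_ifs <;> norm_num
  have h4 : (n : ℝ) * (1 - x) < m + 1 := Nat.lt_floor_add_one _
  have h5 : (0 : ℝ) ≤ m := Nat.cast_nonneg m
  exact ⟨by linarith, by linarith⟩

theorem cfg_sum_Nk (Z : Finset (V n)) (y : V n) (k0 : ℕ) :
    ∑ z ∈ Z.filter (fun z => nr (y - z) ≤ 1),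
        ∑ k ∈ range k0, (if nr (y - z) ≤ 1 - (k : ℝ) / n then (1 : ℝ) else 0) ≤
      ∑ k ∈ range k0, (Nk Z y (1 - (k : ℝ) / n) : ℝ) := by
  have h1 : ∑ k ∈ range k0, (Nk Z y (1 - (k : ℝ) / n) : ℝ) =
      ∑ z ∈ Z, ∑ k ∈ range k0, (if nr (y - z) ≤ 1 - (k : ℝ) / n then (1 : ℝ) else 0) := by
    rw [sum_comm]
    refine sum_congr rfl fun k _ => ?_
    unfold Nk
    rw [card_filter]
    push_cast
    rfl
  rw [h1]
  refine sum_le_sum_of_subset_of_nonneg (filter_subset _ _) fun z _ _ => ?_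
  refine sum_nonneg fun k _ => ?_
  split_ifs <;> norm_num

/-- a point at depth `< k0 / n` is counted once for every `k < k0` with `k / n ≤` depth; this number
`m` satisfies `1 ≤ m` and `n * depth ≤ m`. -/
theorem energy_le (hn : 0 < n) (Z : Finset (V n)) (y : V n) (k0 : ℕ) {a : ℝ} (ha : 0 ≤ a)
    (h : ∀ z ∈ Z, 1 - (k0 : ℝ) / n < nr (y - z)) :
    (((Z.filter fun z => nr (y - z) ≤ 1).card : ℕ) : ℝ) ≤
        ∑ k ∈ range k0, (Nk Z y (1 - (k : ℝ) / n) : ℝ) ∧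
      ∑ z ∈ Z.filter (fun z => nr (y - z) ≤ 1), (8 + a * n * (1 - nr (y - z))) ≤
        (8 + a) * ∑ k ∈ range k0, (Nk Z y (1 - (k : ℝ) / n) : ℝ) := by
  have key := cfg_sum_Nk Z y k0
  constructor
  · refine le_trans ?_ key
    rw [card_eq_sum_ones]
    push_cast
    refine sum_le_sum fun z hz => ?_
    rw [mem_filter] at hz
    exact (cfg_count hn k0 hz.2 (h z hz.1)).1
  · refine le_trans ?_ (mul_le_mul_of_nonneg_left key (by linarith))
    rw [mul_sum]
    refine sum_le_sum fun z hz => ?_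
    rw [mem_filter] at hz
    obtain ⟨h1, h2⟩ := cfg_count hn k0 hz.2 (h z hz.1)
    have h3 := mul_le_mul_of_nonneg_left h2 ha
    rw [add_mul, mul_assoc]
    linarith

theorem cfg_ms_nonneg {p : Ω → ℝ} (hp : ∀ a, 0 < p a) (C : Finset Ω) : 0 ≤ ms p C :=
  sum_nonneg fun a _ => (hp a).le

theorem cfg_inv_le {r : ℝ} {v : Ω → V n} {τ p : Ω → ℝ} (hM : Md r v τ p) {z : V n}
    (h1 : 1 / 2 ≤ nr z) (h2 : nr z ≤ 1) :
    0 < ms p (cap v τ z) ∧ (ms p (cap v τ z))⁻¹ ≤ Real.exp (6 + r * (1 - nr z)) := by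
  have h := hM.lo z h1 h2
  have hpos := Real.exp_pos (-6 - r * (1 - nr z))
  refine ⟨hpos.trans_le h, ?_⟩
  calc (ms p (cap v τ z))⁻¹ ≤ (Real.exp (-6 - r * (1 - nr z)))⁻¹ := inv_anti₀ hpos h
    _ = _ := by
      rw [← Real.exp_neg]
      congr 1
      ring

theorem cfg_term {r : ℝ} (hr : 0 ≤ r) {v : Ω → V n} {τ p : Ω → ℝ} (hM : Md r v τ p) {z z' : V n}
    {η γ : ℝ} (hη : η ≤ 1 / 2) (h1 : 1 - η < nr z) (h2 : nr z ≤ 1) (h1' : 1 - η < nr z')
    (h2' : nr z' ≤ 1) (hγ : 0 ≤ γ) (hd : γ ≤ nr (z - z')) :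
    ms p (cap v τ z ∩ cap v τ z') / (ms p (cap v τ z) * ms p (cap v τ z')) ≤
      Real.exp (12 + 2 * r * η - r * γ ^ 2 / 8) := by
  obtain ⟨a0, a1⟩ := cfg_inv_le hM (z := z) (by linarith) h2
  obtain ⟨b0, b1⟩ := cfg_inv_le hM (z := z') (by linarith) h2'
  have c1 := hM.ov z z' h2 h2'
  have c0 := cfg_ms_nonneg hM.pos (cap v τ z ∩ cap v τ z')
  rw [div_eq_mul_inv, mul_inv]
  calc _ ≤ Real.exp (-(r * nr (z - z') ^ 2 / 8)) *
        (Real.exp (6 + r * (1 - nr z)) * Real.exp (6 + r * (1 - nr z'))) := by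
        refine mul_le_mul c1 (mul_le_mul a1 b1 (inv_nonneg.2 b0.le) (Real.exp_pos _).le)
          (mul_nonneg (inv_nonneg.2 a0.le) (inv_nonneg.2 b0.le)) (Real.exp_pos _).le
    _ ≤ _ := by
      rw [← Real.exp_add, ← Real.exp_add]
      refine Real.exp_le_exp.2 ?_
      have e1 : r * (1 - nr z) ≤ r * η := mul_le_mul_of_nonneg_left (by linarith) hr
      have e2 : r * (1 - nr z') ≤ r * η := mul_le_mul_of_nonneg_left (by linarith) hr
      have e3 : r * γ ^ 2 ≤ r * nr (z - z') ^ 2 :=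
        mul_le_mul_of_nonneg_left (pow_le_pow_left₀ hγ hd 2) hr
      linarith

theorem cfg_dsum {κ : Type} (I I' : Finset κ) (f : κ → κ → ℝ) {N X : ℝ} (hX : 0 ≤ X)
    (hI : ((I.card : ℕ) : ℝ) ≤ N) (hI' : ((I'.card : ℕ) : ℝ) ≤ N)
    (hf : ∀ i ∈ I, ∀ j ∈ I', f i j ≤ X) : ∑ i ∈ I, ∑ j ∈ I', f i j ≤ N ^ 2 * X := by
  have hN : 0 ≤ N := (Nat.cast_nonneg _).trans hI
  calc _ ≤ ∑ _i ∈ I, ∑ _j ∈ I', X := sum_le_sum fun i hi => sum_le_sum fun j hj => hf i hi j hj
    _ = ((I.card : ℕ) : ℝ) * ((I'.card : ℕ) : ℝ) * X := by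
      simp only [sum_const, nsmul_eq_mul]
      ring
    _ ≤ N * N * X :=
      mul_le_mul_of_nonneg_right (mul_le_mul hI hI' (Nat.cast_nonneg _) hN) hX
    _ = _ := by ring

/-- `kill` with `I t = {z ∈ Z | nr (y t - z) ≤ 1}`, `C t z = cap v τ (y t - z)`, `D = exp E`
(`ms ≤ 1`, so `2 (1 + 1 / ms) ≤ 4 / ms ≤ exp (8 + r (1 - nr))`), `R t t' = 1` for near pairs and
`N² exp (12 + 2 r η - r β² / 8)` for the others (`Md.ov`, `Md.lo`). -/
theorem cfg_bound {r : ℝ} (hr : 0 ≤ r) {v : Ω → V n} {τ p : Ω → ℝ} (hM : Md r v τ p)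
    (Z : Finset (V n)) {T : ℕ} (y : Fin T → V n) {N E η δ β Pn Δ : ℝ} (hη : η ≤ 1 / 2)
    (hδ : 0 ≤ δ) (hδβ : δ ≤ β)
    (hN : ∀ t, (((Z.filter fun z => nr (y t - z) ≤ 1).card : ℕ) : ℝ) ≤ N)
    (hE : ∀ t, ∑ z ∈ Z.filter (fun z => nr (y t - z) ≤ 1), (8 + r * (1 - nr (y t - z))) ≤ E)
    (hdeep : ∀ t, ∀ z ∈ Z, 1 - η < nr (y t - z))
    (hsep : ∀ t t', t ≠ t' → ∀ z ∈ Z, ∀ z' ∈ Z, δ < nr (y t - z - (y t' - z')))
    (hPn : ((((univ : Finset (Fin T × Fin T)).filter fun q => q.1 ≠ q.2 ∧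
      ∃ z ∈ Z, ∃ z' ∈ Z, nr (y q.1 - z - (y q.2 - z')) ≤ β).card : ℕ) : ℝ) ≤ Pn)
    (hnear : N ^ 2 * Real.exp (12 + 2 * r * η - r * δ ^ 2 / 8) ≤ 1) (hΔ0 : 0 < Δ)
    (hΔ : T * Real.exp E + 2 * Pn +
      2 * (T : ℝ) ^ 2 * (N ^ 2 * Real.exp (12 + 2 * r * η - r * β ^ 2 / 8)) ≤ Δ) :
    pr p (fun ω => ∀ t, ∃ z ∈ Z, y t - z ∈ body v τ ω) ≤ Real.exp (-((T : ℝ) ^ 2 / (2 * Δ))) := by
  set I : Fin T → Finset (V n) := fun t => Z.filter fun z => nr (y t - z) ≤ 1 with hI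
  set C : Fin T → V n → Finset Ω := fun t z => cap v τ (y t - z) with hC
  set X : ℝ := N ^ 2 * Real.exp (12 + 2 * r * η - r * β ^ 2 / 8) with hX
  set near : Fin T → Fin T → Prop := fun t t' =>
    ∃ z ∈ Z, ∃ z' ∈ Z, nr (y t - z - (y t' - z')) ≤ β with hnr
  set R : Fin T → Fin T → ℝ := fun t t' => if near t t' then 1 else X with hR
  have hX0 : 0 ≤ X := mul_nonneg (sq_nonneg _) (Real.exp_pos _).le
  have hX1 : X ≤ 1 := by
    refine le_trans (mul_le_mul_of_nonneg_left (Real.exp_le_exp.2 ?_) (sq_nonneg _)) hnear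
    have e3 : r * δ ^ 2 ≤ r * β ^ 2 := mul_le_mul_of_nonneg_left (pow_le_pow_left₀ hδ hδβ 2) hr
    linarith
  have hmem : ∀ t, ∀ z ∈ I t, z ∈ Z ∧ nr (y t - z) ≤ 1 := fun t z hz => mem_filter.1 hz
  have hk := kill hM.pos hM.le I C (D := Real.exp E) (Δ := Δ) ?_ R ?_ ?_ ?_ hΔ0 ?_
  · refine le_trans (pr_mono (fun a => (hM.pos a).le) hM.le ?_) hk
    intro ω hω t
    obtain ⟨z, hz, hb⟩ := hω t
    refine ⟨z, mem_filter.2 ⟨hz, hb.1⟩, ?_⟩
    rw [disjoint_left]
    intro a ha haω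
    have h1 : τ a < ip (v a) (y t - z) := (mem_filter.1 ha).2
    have h2 := hb.2 a haω
    linarith [le_abs_self (ip (v a) (y t - z))]
  · intro t z hz
    obtain ⟨hz1, hz2⟩ := hmem t z hz
    exact (cfg_inv_le hM (by linarith [hdeep t z hz1]) hz2).1
  · intro t
    refine le_trans ?_ (Real.exp_le_exp.2 (hE t))
    rw [Real.exp_sum, ← prod_const, ← prod_mul_distrib]
    refine prod_le_prod (fun z hz => ?_) fun z hz => ?_
    · have := inv_nonneg.2 (cfg_ms_nonneg hM.pos (C t z))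
      positivity
    · obtain ⟨hz1, hz2⟩ := hmem t z hz
      obtain ⟨a0, a1⟩ := cfg_inv_le hM (z := y t - z) (by linarith [hdeep t z hz1]) hz2
      have a2 := hM.up _ hz2
      have a3 : 1 ≤ (ms p (cap v τ (y t - z)))⁻¹ := (one_le_inv₀ a0).2 (by linarith)
      have a4 : (4 : ℝ) ≤ Real.exp 2 := by
        have := Real.add_one_le_exp (1 : ℝ)
        have h2 : Real.exp 2 = Real.exp 1 * Real.exp 1 := by
          rw [← Real.exp_add]; norm_num
        rw [h2]
        nlinarith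
      have a5 : Real.exp (8 + r * (1 - nr (y t - z))) =
          Real.exp 2 * Real.exp (6 + r * (1 - nr (y t - z))) := by
        rw [← Real.exp_add]
        congr 1
        ring
      rw [a5]
      calc 2 * (1 + (ms p (C t z))⁻¹) ≤ 4 * (ms p (cap v τ (y t - z)))⁻¹ := by
            simp only [hC]
            linarith
        _ ≤ _ := mul_le_mul a4 a1 (by linarith) (Real.exp_pos _).le
  · intro t t' htt
    by_cases hn : near t t'
    · simp only [hR, if_pos hn]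
      refine le_trans (cfg_dsum _ _ _ (Real.exp_pos _).le (hN t) (hN t') ?_) hnear
      intro z hz z' hz'
      obtain ⟨hz1, hz2⟩ := hmem t z hz
      obtain ⟨hz1', hz2'⟩ := hmem t' z' hz'
      exact cfg_term hr hM hη (hdeep t z hz1) hz2 (hdeep t' z' hz1') hz2' hδ
        (hsep t t' htt z hz1 z' hz1').le
    · simp only [hR, if_neg hn]
      refine cfg_dsum _ _ _ (Real.exp_pos _).le (hN t) (hN t') ?_
      intro z hz z' hz'
      obtain ⟨hz1, hz2⟩ := hmem t z hz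
      obtain ⟨hz1', hz2'⟩ := hmem t' z' hz'
      refine cfg_term hr hM hη (hdeep t z hz1) hz2 (hdeep t' z' hz1') hz2' (hδ.trans hδβ) ?_
      by_contra hlt
      exact hn ⟨z, hz1, z', hz1', (not_le.1 hlt).le⟩
  · intro t t' _
    simp only [hR]
    split_ifs
    · exact le_rfl
    · exact hX1
  · refine le_trans ?_ hΔ
    have h1 : ∑ t, ∑ t', (if t = t' then 0 else R t t') ≤ Pn + (T : ℝ) ^ 2 * X := by
      calc ∑ t, ∑ t', (if t = t' then 0 else R t t')
          ≤ ∑ t : Fin T, ∑ t' : Fin T, ((if t ≠ t' ∧ near t t' then (1 : ℝ) else 0) + X) := by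
            refine sum_le_sum fun t _ => sum_le_sum fun t' _ => ?_
            by_cases h : t = t'
            · rw [if_pos h, if_neg (fun h' => h'.1 h)]
              linarith
            · rw [if_neg h]
              simp only [hR]
              by_cases hn : near t t'
              · rw [if_pos hn, if_pos ⟨h, hn⟩]
                linarith
              · rw [if_neg hn, if_neg (fun h' => hn h'.2)]
                linarith
        _ = ∑ q : Fin T × Fin T, (if q.1 ≠ q.2 ∧ near q.1 q.2 then (1 : ℝ) else 0) +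
              (T : ℝ) ^ 2 * X := by
            rw [Fintype.sum_prod_type]
            simp only [sum_add_distrib, sum_const, card_univ, Fintype.card_fin, nsmul_eq_mul]
            ring
        _ ≤ _ := by
            refine add_le_add ?_ le_rfl
            refine le_trans (le_of_eq ?_) hPn
            rw [card_filter]
            push_cast
            refine sum_congr rfl fun q _ => ?_
            simp only [hnr]
    linarith

end
end Crest.Agent.R225B
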