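import Mathlib

/-! Row 225, S0348 (translative covering density `≥ c n log n`): definitions.

Plan.  `K` = Euclidean unit ball cut by random symmetric slabs `|⟨v a, z⟩| ≤ τ a` (`a ∈ ω`, each `a`
of a finite set `Ω` is put in `ω` independently with probability `p a`; `Md` lists what is needed of
the model).  For a finite configuration `Z` of centres of small local density (`Adm`) choose `T` test
points `y t` (`Test`); for each of them plant slabs sequentially that kill all `y t - z` (`Plant`);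
Janson's inequality (`Janson`, `Kill`, `Cfg`) shows that all test points are covered only with
probability `exp (-20^n/2)`; union bound over the grid configurations (`Round`); a covering of small
density has an admissible window (`Win`, `Adm`). -/

set_option autoImplicit false
open Finset MeasureTheory
open scoped Classical

namespace Crest.Agent.R225B
noncomputable section

abbrev V (n : ℕ) : Type := Fin n → ℝ

section Geo
variable {n : ℕ}

/-- Euclidean norm -/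
def nr (z : V n) : ℝ := √(∑ i, z i ^ 2)
/-- inner product -/
def ip (u z : V n) : ℝ := ∑ i, u i * z i
/-- Euclidean ball -/
def Bl (w : V n) (ρ : ℝ) : Set (V n) := {y | nr (y - w) ≤ ρ}
/-- volume of the unit ball -/
def vB (n : ℕ) : ℝ := (volume (Bl (0 : V n) 1)).toReal
/-- fraction of the unit ball inside the ball `Bl w ρ` -/
def fr (w : V n) (ρ : ℝ) : ℝ := (volume (Bl (0 : V n) 1 ∩ Bl w ρ)).toReal / vB n
/-- number of centres within distance `ρ` of `y` -/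
def Nk (Z : Finset (V n)) (y : V n) (ρ : ℝ) : ℕ := (Z.filter fun z => nr (y - z) ≤ ρ).card
/-- rounding to the grid `ℤ^n / J` -/
def rd (J : ℕ) (z : V n) : V n := fun i => (⌊(J : ℝ) * z i⌋ : ℝ) / J
/-- grid points in `[-4, 4]^n` -/
def Gd (n J : ℕ) : Finset (V n) :=
  (Fintype.piFinset fun _ : Fin n => Icc (-(4 * J : ℤ)) (4 * J)).image fun k i => (k i : ℝ) / J
/-- admissible configurations of centres -/
def Adm (k0 : ℕ) (G : ℝ) (Z : Finset (V n)) : Prop :=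
  Z.card ≤ 4 ^ n ∧ ∑ z ∈ Z, ∑ k ∈ range k0, fr z (1 - (k : ℝ) / n) ≤ G ∧
    ∑ z ∈ Z, fr z (1 - (k0 : ℝ) / n) ≤ 1 / 8

end Geo

section Prob
variable {Ω : Type} [Fintype Ω] [DecidableEq Ω]

/-- weight of `ω` under independent coins -/
def pw (p : Ω → ℝ) (ω : Finset Ω) : ℝ := ∏ a, if a ∈ ω then p a else 1 - p a
/-- expectation -/
def ex (p : Ω → ℝ) (f : Finset Ω → ℝ) : ℝ := ∑ ω, pw p ω * f ω
/-- probability -/
def pr (p : Ω → ℝ) (E : Finset Ω → Prop) : ℝ := ∑ ω, if E ω then pw p ω else 0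
/-- probability of `A ⊆ ω` -/
def pp (p : Ω → ℝ) (A : Finset Ω) : ℝ := ∏ a ∈ A, p a
/-- expected size of `C ∩ ω` -/
def ms (p : Ω → ℝ) (C : Finset Ω) : ℝ := ∑ a ∈ C, p a

/-- the law `ν` of a sequentially planted set hitting all `C i`, `i ∈ I` -/
structure Pl {κ : Type} (p : Ω → ℝ) (I : Finset κ) (C : κ → Finset Ω) (ν : Finset Ω → ℝ) :
    Prop where
  nonneg : ∀ A, 0 ≤ ν A
  sum_one : ∑ A, ν A = 1
  hit : ∀ A, 0 < ν A → ∀ i ∈ I, (A ∩ C i).Nonempty
  card : ∀ A, 0 < ν A → A.card ≤ I.card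
  sp1 : ∀ S, ∑ A, (if S ⊆ A then ν A else 0) ≤ pp p S * ∏ i ∈ I, (1 + (ms p (C i))⁻¹)
  sp2 : ∀ S, ∑ A, (if S ⊆ A then ν A else 0) ≤
    pp p S * ∏ a ∈ S, ∑ i ∈ I, if a ∈ C i then (ms p (C i))⁻¹ else 0
  prd : ∀ w : Ω → ℝ, (∀ a, 0 ≤ w a) → ∑ A, ν A * ∏ a ∈ A, (1 + w a) ≤
    ∏ i ∈ I, (1 + (∑ a ∈ C i, p a * w a) / ms p (C i))

/-- the overlap term of two planted laws -/
def Dl (p : Ω → ℝ) (ν ν' : Finset Ω → ℝ) : ℝ :=
  ∑ A, ∑ A', if (A ∩ A').Nonempty then ν A * ν' A' / pp p (A ∩ A') else 0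

variable {n : ℕ}

/-- the slabs killing `z` on the positive side -/
def cap (v : Ω → V n) (τ : Ω → ℝ) (z : V n) : Finset Ω := univ.filter fun a => τ a < ip (v a) z

/-- the slab model -/
structure Md (r : ℝ) (v : Ω → V n) (τ p : Ω → ℝ) : Prop where
  pos : ∀ a, 0 < p a
  le : ∀ a, p a ≤ 1
  tau : ∀ a, 1 ≤ τ a
  l1 : ∀ a, ∑ i, |v a i| ≤ n * r ^ 2
  up : ∀ z, nr z ≤ 1 → ms p (cap v τ z) ≤ 1 / 4
  lo : ∀ z, 1 / 2 ≤ nr z → nr z ≤ 1 → Real.exp (-6 - r * (1 - nr z)) ≤ ms p (cap v τ z)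
  ov : ∀ z z', nr z ≤ 1 → nr z' ≤ 1 →
    ms p (cap v τ z ∩ cap v τ z') ≤ Real.exp (-(r * nr (z - z') ^ 2 / 8))

/-- the random body -/
def body (v : Ω → V n) (τ : Ω → ℝ) (ω : Finset Ω) : Set (V n) :=
  {z | nr z ≤ 1 ∧ ∀ a ∈ ω, |ip (v a) z| ≤ τ a}

end Prob

/-- normal vectors of the concrete model: scaled sums of `r^3` sign vectors -/
def vv (n r : ℕ) (σ : Fin n × Fin (r ^ 3) → Bool) : V n :=
  fun i => (∑ k : Fin (r ^ 3), if σ (i, k) then (1 : ℝ) else -1) / r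

/-! ### parameters -/

@[irreducible] def aa : ℕ := 40000000
theorem aa_eq : aa = 40000000 := by unfold aa; rfl

def cc : ℝ := 1 / (32000 * aa)
def th (n : ℕ) : ℝ := cc * n * Real.log n
def k0 (n : ℕ) : ℕ := ⌈3 * Real.log n⌉₊
def TT (n : ℕ) : ℕ := ⌈Real.exp (n * Real.log n / 8)⌉₊
def dl (n : ℕ) : ℝ := Real.exp (-(Real.log n / 4))
def JJ (n : ℕ) : ℕ := aa ^ 2 * n ^ 4

end
end Crest.Agent.R225B
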