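import Crest.Agent.R225B.Prob

/-! Row 225 (S0348): the weighted Janson inequality. -/

set_option autoImplicit false
open Finset MeasureTheory
open scoped Classical

namespace Crest.Agent.R225B
noncomputable section

variable {Ω : Type} [Fintype Ω] [DecidableEq Ω] {p : Ω → ℝ}

theorem Janson_fsum {ι : Type} [Fintype ι] (f : ι → Finset Ω → ℝ) :
    ex p (fun ω => ∑ i, f i ω) = ∑ i, ex p (f i) := by
  simp only [ex, mul_sum]
  rw [sum_comm]

theorem Janson_mul (c : ℝ) (f : Finset Ω → ℝ) : ex p (fun ω => c * f ω) = c * ex p f := by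
  simp only [ex, mul_sum, mul_left_comm]

theorem Janson_sub (f g : Finset Ω → ℝ) : ex p (fun ω => f ω - g ω) = ex p f - ex p g := by
  simp only [ex, mul_sub, sum_sub_distrib]

theorem Janson_nonneg (h0 : ∀ a, 0 ≤ p a) (h1 : ∀ a, p a ≤ 1) {f : Finset Ω → ℝ}
    (hf : ∀ ω, 0 ≤ f ω) : 0 ≤ ex p f :=
  sum_nonneg fun ω _ => mul_nonneg (pw_nonneg h0 h1 ω) (hf ω)

theorem Janson_anti {ι : Type} [Fintype ι] (A : ι → Finset Ω) (c : ι → ℝ) (hc : ∀ i, 0 ≤ c i)
    {s : ℝ} (hs : 0 ≤ s) :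
    Antitone fun ω => Real.exp (-(s * ∑ i, if A i ⊆ ω then c i else 0)) := fun ω ω' h => by
  refine Real.exp_le_exp.2 (neg_le_neg (mul_le_mul_of_nonneg_left (sum_le_sum fun i _ => ?_) hs))
  split_ifs with a b
  exacts [le_rfl, absurd (a.trans h) b, hc i, le_rfl]

theorem Janson_one (h0 : ∀ a, 0 ≤ p a) (h1 : ∀ a, p a ≤ 1) {ι : Type} [Fintype ι]
    (A : ι → Finset Ω) (c : ι → ℝ) (hc : ∀ i, 0 ≤ c i) {s : ℝ} (hs : 0 ≤ s) (B : Finset Ω) :
    (pp p B - s * ∑ j, if (B ∩ A j).Nonempty then c j * pp p (B ∪ A j) else 0) *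
      ex p (fun ω => Real.exp (-(s * ∑ i, if A i ⊆ ω then c i else 0))) ≤
    ex p (fun ω => if B ⊆ ω then Real.exp (-(s * ∑ i, if A i ⊆ ω then c i else 0)) else 0) := by
  obtain ⟨y, hy⟩ : ∃ y : ι → ℝ, y = fun j => if (B ∩ A j).Nonempty then c j else 0 := ⟨_, rfl⟩
  obtain ⟨z, hz⟩ : ∃ z : ι → ℝ, z = fun j => if (B ∩ A j).Nonempty then 0 else c j := ⟨_, rfl⟩
  have y0 : ∀ j, 0 ≤ y j := fun j => by rw [hy]; dsimp only; split_ifs; exacts [hc j, le_rfl]
  have z0 : ∀ j, 0 ≤ z j := fun j => by rw [hz]; dsimp only; split_ifs; exacts [le_rfl, hc j]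
  have e : ∀ ω, (∑ i, if A i ⊆ ω then c i else 0) =
      (∑ i, if A i ⊆ ω then y i else 0) + ∑ i, if A i ⊆ ω then z i else 0 := fun ω => by
    rw [← sum_add_distrib, hy, hz]
    refine sum_congr rfl fun i _ => ?_
    dsimp only
    split_ifs <;> simp
  have H := harris_cond h0 h1 B (Janson_anti A y y0 hs) (Janson_anti A z z0 hs) fun ω => by
    congr 3
    refine sum_congr rfl fun j _ => ?_
    by_cases h : (B ∩ A j).Nonempty
    · simp [hz, h]
    · refine if_congr ⟨fun a x hx => (mem_union.1 (a hx)).resolve_right fun b =>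
        h ⟨x, mem_inter.2 ⟨b, hx⟩⟩, fun a => a.trans subset_union_left⟩ rfl rfl
  have H1 : ex p (fun ω => Real.exp (-(s * ∑ i, if A i ⊆ ω then c i else 0))) ≤
      ex p (fun ω => Real.exp (-(s * ∑ i, if A i ⊆ ω then z i else 0))) :=
    ex_mono h0 h1 fun ω => Real.exp_le_exp.2 (neg_le_neg (mul_le_mul_of_nonneg_left (by
      rw [e]
      refine le_add_of_nonneg_left (sum_nonneg fun i _ => ?_)
      split_ifs
      exacts [y0 i, le_rfl]) hs))
  have H2 : (pp p B - s * ∑ j, if (B ∩ A j).Nonempty then c j * pp p (B ∪ A j) else 0) ≤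
      ex p (fun ω => if B ⊆ ω then Real.exp (-(s * ∑ i, if A i ⊆ ω then y i else 0)) else 0) := by
    have e2 : (∑ j, if (B ∩ A j).Nonempty then c j * pp p (B ∪ A j) else 0) =
        ex p fun ω => ∑ j, y j * if B ∪ A j ⊆ ω then 1 else 0 := by
      rw [Janson_fsum]
      refine sum_congr rfl fun j _ => ?_
      rw [Janson_mul, ex_sub, hy, ite_mul, zero_mul]
    rw [e2, ← ex_sub p B, ← Janson_mul, ← Janson_sub]
    refine ex_mono h0 h1 fun ω => ?_
    by_cases h : B ⊆ ω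
    · have := Real.add_one_le_exp (-(s * ∑ i, if A i ⊆ ω then y i else 0))
      simp only [union_subset_iff, h, true_and, if_true, mul_ite, mul_one, mul_zero]
      linarith
    · simp [union_subset_iff, h]
  refine (mul_le_mul_of_nonneg_right H2 (Janson_nonneg h0 h1 fun ω => (Real.exp_pos _).le)).trans
    ((mul_le_mul_of_nonneg_left H1 (Janson_nonneg h0 h1 fun ω => ?_)).trans (H.trans_eq ?_))
  · split_ifs
    exacts [(Real.exp_pos _).le, le_rfl]
  · simp only [e, ← Real.exp_add, mul_add, neg_add]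

/-- `X ω = ∑ i, if A i ⊆ ω then c i else 0`, `Ψ s = ex p (exp (-s X))`.  For fixed `i` split
`X = Y + Z` (`Y`: the `j` with `A i ∩ A j` nonempty, `Z`: the others, `Z (ω ∪ A i) = Z ω`).
`harris_cond` gives `E[1_i e^(-sX)] ≥ E[1_i e^(-sY)] E[e^(-sZ)] ≥ E[1_i (1 - sY)] Ψ s` for `s ≥ 0`, and
`E[1_i 1_j] = pp (A i ∪ A j)` (`ex_sub`).  So `-Ψ' s ≥ (μ' - s Δ') Ψ s`. -/
theorem janson_deriv (h0 : ∀ a, 0 ≤ p a) (h1 : ∀ a, p a ≤ 1) {ι : Type} [Fintype ι]
    (A : ι → Finset Ω) (c : ι → ℝ) (hc : ∀ i, 0 ≤ c i) {s : ℝ} (hs : 0 ≤ s) :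
    ((∑ i, c i * pp p (A i)) - s * ∑ i, ∑ j,
        if (A i ∩ A j).Nonempty then c i * c j * pp p (A i ∪ A j) else 0) *
      ex p (fun ω => Real.exp (-(s * ∑ i, if A i ⊆ ω then c i else 0))) ≤
    ex p (fun ω => (∑ i, if A i ⊆ ω then c i else 0) *
      Real.exp (-(s * ∑ i, if A i ⊆ ω then c i else 0))) := by
  have e : ex p (fun ω => (∑ i, if A i ⊆ ω then c i else 0) *
      Real.exp (-(s * ∑ i, if A i ⊆ ω then c i else 0))) = ∑ i, c i * ex p (fun ω =>
        if A i ⊆ ω then Real.exp (-(s * ∑ i, if A i ⊆ ω then c i else 0)) else 0) := by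
    simp only [← Janson_mul]
    rw [← Janson_fsum]
    simp only [sum_mul, ite_mul, zero_mul, mul_ite, mul_zero]
  rw [e, mul_sum, ← sum_sub_distrib, sum_mul]
  refine sum_le_sum fun i _ => le_trans (le_of_eq ?_)
    (mul_le_mul_of_nonneg_left (Janson_one h0 h1 A c hc hs (A i)) (hc i))
  rw [← mul_assoc, mul_sub, mul_left_comm (c i) s]
  simp only [mul_sum, mul_ite, mul_zero, mul_assoc]

/-- `s ↦ Ψ s * exp (μ' s - Δ' s² / 2)` has derivative `≤ 0` on `[0, ∞)` by `janson_deriv`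
(`antitoneOn_of_deriv_nonpos`), equals `1` at `0` (`sum_pw`); take `s = μ / Δ` and `pr_le_ex`. -/
theorem janson (h0 : ∀ a, 0 ≤ p a) (h1 : ∀ a, p a ≤ 1) {ι : Type} [Fintype ι]
    (A : ι → Finset Ω) (c : ι → ℝ) (hc : ∀ i, 0 ≤ c i) {μ Δ : ℝ} (hμ0 : 0 ≤ μ) (hΔ0 : 0 < Δ)
    (hμ : μ ≤ ∑ i, c i * pp p (A i))
    (hΔ : ∑ i, ∑ j, (if (A i ∩ A j).Nonempty then c i * c j * pp p (A i ∪ A j) else 0) ≤ Δ) :
    pr p (fun ω => ∀ i, 0 < c i → ¬ A i ⊆ ω) ≤ Real.exp (-(μ ^ 2 / (2 * Δ))) := by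
  obtain ⟨m, hm⟩ : ∃ m, m = ∑ i, c i * pp p (A i) := ⟨_, rfl⟩
  obtain ⟨D, hD⟩ : ∃ D, D = ∑ i, ∑ j,
    (if (A i ∩ A j).Nonempty then c i * c j * pp p (A i ∪ A j) else 0) := ⟨_, rfl⟩
  obtain ⟨X, hX⟩ : ∃ X : Finset Ω → ℝ, X = fun ω => ∑ i, if A i ⊆ ω then c i else 0 := ⟨_, rfl⟩
  have hd : ∀ s, 0 ≤ s → (m - s * D) * ex p (fun ω => Real.exp (-(s * X ω))) ≤
      ex p (fun ω => X ω * Real.exp (-(s * X ω))) := fun s hs => by
    rw [hm, hD, hX]; exact janson_deriv h0 h1 A c hc hs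
  have d1 : ∀ s, HasDerivAt (fun s => ex p (fun ω => Real.exp (-(s * X ω))))
      (-ex p (fun ω => X ω * Real.exp (-(s * X ω)))) s := fun s => by
    have := HasDerivAt.fun_sum (u := univ) fun ω _ =>
      (((hasDerivAt_mul_const (X ω) (x := s)).neg).exp).const_mul (pw p ω)
    refine this.congr_deriv ?_
    rw [ex, ← sum_neg_distrib]
    exact sum_congr rfl fun ω _ => by simp only [Pi.neg_apply]; ring
  have d2 : ∀ s : ℝ, HasDerivAt (fun s => Real.exp (m * s - D * s ^ 2 / 2))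
      (Real.exp (m * s - D * s ^ 2 / 2) * (m - s * D)) s := fun s => by
    have := (((hasDerivAt_id' s).const_mul m).fun_sub
      ((((hasDerivAt_id' s).fun_pow 2).const_mul D).div_const 2)).exp
    convert this using 2
    norm_num
    ring
  have d3 := fun s => (d1 s).fun_mul (d2 s)
  have ha := antitoneOn_of_deriv_nonpos (convex_Ici 0)
    (fun s _ => (d3 s).continuousAt.continuousWithinAt)
    (fun s _ => (d3 s).differentiableAt.differentiableWithinAt) fun s hs => by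
      have a := mul_le_mul_of_nonneg_right (hd s (interior_subset hs))
        (Real.exp_pos (m * s - D * s ^ 2 / 2)).le
      rw [(d3 s).deriv]
      linarith
  have s0 : 0 ≤ μ / Δ := div_nonneg hμ0 hΔ0.le
  have h2 := ha (Set.mem_Ici.2 le_rfl) (Set.mem_Ici.2 s0) s0
  have h3 : ex p (fun _ => 1) = 1 := by simp [ex, sum_pw]
  simp only [zero_mul, neg_zero, Real.exp_zero, h3, mul_zero, ne_eq, OfNat.ofNat_ne_zero,
    not_false_eq_true, zero_pow, zero_div, sub_self, mul_one] at h2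
  refine (pr_le_ex h0 h1 (f := fun ω => Real.exp (-(μ / Δ * X ω))) (fun ω => (Real.exp_pos _).le)
    fun ω h => ?_).trans ?_
  · have : X ω = 0 := by
      rw [hX]
      refine sum_eq_zero fun i _ => ?_
      split_ifs with a
      · exact le_antisymm (not_lt.1 fun b => h i b a) (hc i)
      · rfl
    simp [this]
  · rw [← le_div_iff₀ (Real.exp_pos _), one_div, ← Real.exp_neg] at h2
    refine h2.trans (Real.exp_le_exp.2 (neg_le_neg ?_))
    have a1 := mul_le_mul_of_nonneg_right (hm ▸ hμ) s0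
    have a2 := mul_le_mul_of_nonneg_right (hD ▸ hΔ) (sq_nonneg (μ / Δ))
    have a3 : μ ^ 2 / (2 * Δ) = μ * (μ / Δ) - Δ * (μ / Δ) ^ 2 / 2 := by field_simp; ring
    linarith

end
end Crest.Agent.R225B
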