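import Crest.Agent.R225B.Defs

/-! Row 225 (S0348): sequential planting. -/

set_option autoImplicit false
open Finset MeasureTheory
open scoped Classical

namespace Crest.Agent.R225B
noncomputable section

variable {Ω : Type} [Fintype Ω] [DecidableEq Ω] {p : Ω → ℝ}

/-- One planting step.  Put `ν' A = ∑ P, ν P * K P A` with `K P A = 1[A = P]` if `P ∩ C` is nonempty and
`K P A = ∑ a ∈ C, p a / ms p C * 1[A = insert a P]` otherwise. -/
theorem plant_step (hp : ∀ a, 0 < p a) (C : Finset Ω) (ν : Finset Ω → ℝ) (hν : ∀ A, 0 ≤ ν A) :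
    ∃ ν' : Finset Ω → ℝ, (∀ A, 0 ≤ ν' A) ∧
      (∀ A, 0 < ν' A → ∃ P, 0 < ν P ∧ P ⊆ A ∧ A.card ≤ P.card + 1 ∧ (A ∩ C).Nonempty) ∧
      ∀ f : Finset Ω → ℝ, ∑ A, ν' A * f A = ∑ P, ν P *
        (if (P ∩ C).Nonempty then f P else ∑ a ∈ C, p a / ms p C * f (insert a P)) := by
  have hΛ : 0 ≤ ms p C := sum_nonneg fun a _ => (hp a).le
  set K : Finset Ω → Finset Ω → ℝ := fun P A => if (P ∩ C).Nonempty then (if A = P then 1 else 0)
    else ∑ a ∈ C, p a / ms p C * (if A = insert a P then 1 else 0) with hK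
  have t0 : ∀ (P A : Finset Ω) (a : Ω), 0 ≤ p a / ms p C * (if A = insert a P then (1 : ℝ) else 0) := fun P A a => by
    have := hp a
    split_ifs <;> positivity
  have K0 : ∀ P A, 0 ≤ K P A := fun P A => by
    simp only [hK]
    split_ifs
    · norm_num
    · exact le_rfl
    · exact sum_nonneg fun a _ => t0 P A a
  refine ⟨fun A => ∑ P, ν P * K P A, fun A => sum_nonneg fun P _ => mul_nonneg (hν P) (K0 P A),
    fun A hA => ?_, fun f => ?_⟩
  · obtain ⟨P, -, hP⟩ := exists_ne_zero_of_sum_ne_zero hA.ne'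
    obtain ⟨h1, h2⟩ := mul_ne_zero_iff.1 hP
    refine ⟨P, (hν P).lt_of_ne' h1, ?_⟩
    simp only [hK] at h2
    split_ifs at h2 with c1 c2
    · subst c2
      exact ⟨subset_rfl, Nat.le_succ _, c1⟩
    · exact absurd rfl h2
    · obtain ⟨a, ha, h3⟩ := exists_ne_zero_of_sum_ne_zero h2
      have h4 : A = insert a P := by
        by_contra c
        exact h3 (by rw [if_neg c, mul_zero])
      subst h4
      exact ⟨subset_insert _ _, card_insert_le _ _, a, mem_inter.2 ⟨mem_insert_self _ _, ha⟩⟩
  · simp only [sum_mul]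
    rw [sum_comm]
    refine sum_congr rfl fun P _ => ?_
    simp only [mul_assoc]
    rw [← mul_sum]
    congr 1
    simp only [hK]
    split_ifs
    · simp
    · simp only [sum_mul]
      rw [sum_comm]
      refine sum_congr rfl fun a _ => ?_
      simp [mul_assoc, ← mul_sum]

omit [Fintype Ω] in
theorem Plant.prod_add_ge (S : Finset Ω) (x y : Ω → ℝ) (hx : ∀ a, 0 ≤ x a) (hy : ∀ a, 0 ≤ y a) :
    ∏ a ∈ S, x a + ∑ a ∈ S, y a * ∏ b ∈ S.erase a, x b ≤ ∏ a ∈ S, (x a + y a) := by
  induction S using Finset.induction_on with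
  | empty => simp
  | insert c S hc ih =>
      rw [prod_insert hc, prod_insert hc, sum_insert hc, erase_insert hc]
      have e : ∑ a ∈ S, y a * ∏ b ∈ (insert c S).erase a, x b =
          x c * ∑ a ∈ S, y a * ∏ b ∈ S.erase a, x b := by
        rw [mul_sum]
        refine sum_congr rfl fun a ha => ?_
        rw [erase_insert_of_ne (by rintro rfl; exact hc ha),
          prod_insert fun h => hc (mem_of_mem_erase h)]
        ring
      have h1 : 0 ≤ ∑ a ∈ S, y a * ∏ b ∈ S.erase a, x b :=
        sum_nonneg fun a _ => mul_nonneg (hy a) (prod_nonneg fun b _ => hx b)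
      have h2 := mul_le_mul_of_nonneg_left ih (add_nonneg (hx c) (hy c))
      have h3 := mul_nonneg (hy c) h1
      rw [e]
      linarith

omit [Fintype Ω] [DecidableEq Ω] in
theorem Plant.sum_div {C : Finset Ω} (h : 0 < ms p C) : ∑ a ∈ C, p a / ms p C = 1 := by
  rw [← Finset.sum_div]
  exact div_self h.ne'

omit [Fintype Ω] in
theorem Plant.g2 (hp : ∀ a, 0 < p a) {C : Finset Ω} (h : 0 < ms p C) (S P : Finset Ω) :
    (if (P ∩ C).Nonempty then (if S ⊆ P then (1 : ℝ) else 0) else
      ∑ a ∈ C, p a / ms p C * (if S ⊆ insert a P then 1 else 0)) ≤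
    (if S ⊆ P then 1 else 0) + ∑ a ∈ S, (if a ∈ C then (ms p C)⁻¹ else 0) *
      (p a * if S.erase a ⊆ P then 1 else 0) := by
  have h0 : ∀ a, 0 ≤ (if a ∈ C then (ms p C)⁻¹ else 0) *
      (p a * if S.erase a ⊆ P then (1 : ℝ) else 0) := fun a => by
    have := hp a
    split_ifs <;> positivity
  have h1 := sum_nonneg fun a (_ : a ∈ S) => h0 a
  by_cases c1 : (P ∩ C).Nonempty
  · rw [if_pos c1]
    linarith
  rw [if_neg c1]
  by_cases c2 : S ⊆ P
  · rw [if_pos c2, sum_congr rfl (g := fun a => p a / ms p C) fun a _ => by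
      rw [if_pos (c2.trans (subset_insert _ _)), mul_one], Plant.sum_div h]
    linarith
  rw [if_neg c2, zero_add, ← sum_subset (s₁ := C ∩ S) inter_subset_left fun a ha ha' => by
    rw [if_neg fun c => c2 ((subset_insert_iff_of_notMem
      fun c' => ha' (mem_inter.2 ⟨ha, c'⟩)).1 c), mul_zero]]
  refine le_trans (le_of_eq (sum_congr rfl fun a ha => ?_))
    (sum_le_sum_of_subset_of_nonneg inter_subset_right fun a _ _ => h0 a)
  rw [if_pos (mem_inter.1 ha).1]
  simp only [subset_insert_iff]
  ring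

omit [Fintype Ω] in
theorem Plant.g1 (hp : ∀ a, 0 < p a) {C : Finset Ω} (h : 0 < ms p C) (S P : Finset Ω) {a₀ : Ω}
    (h1 : a₀ ∈ S) (h2 : a₀ ∈ C) :
    (if (P ∩ C).Nonempty then (if S ⊆ P then (1 : ℝ) else 0) else
      ∑ a ∈ C, p a / ms p C * (if S ⊆ insert a P then 1 else 0)) ≤
    (if S ⊆ P then 1 else 0) + (ms p C)⁻¹ * (p a₀ * if S.erase a₀ ⊆ P then 1 else 0) := by
  have h0 : 0 ≤ (ms p C)⁻¹ * (p a₀ * if S.erase a₀ ⊆ P then (1 : ℝ) else 0) := by
    have := hp a₀
    split_ifs <;> positivity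
  by_cases c1 : (P ∩ C).Nonempty
  · rw [if_pos c1]
    linarith
  rw [if_neg c1, sum_eq_single_of_mem a₀ h2 fun a _ ha => by
    rw [if_neg fun c => (mem_insert.1 (c h1)).elim (fun e => ha e.symm)
      fun e => c1 ⟨a₀, mem_inter.2 ⟨e, h2⟩⟩, mul_zero]]
  simp only [subset_insert_iff]
  have : (0 : ℝ) ≤ if S ⊆ P then 1 else 0 := by split_ifs <;> norm_num
  rw [div_eq_inv_mul, mul_assoc]
  linarith

/-- Induction on `I` (the inserted index is the LAST step), start with the point mass at `∅`.
With `g P` the bracket of `plant_step` for `f = 1[S ⊆ ·]`: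
`g P ≤ 1[S ⊆ P] + ∑ a ∈ S ∩ C, p a / Λ * 1[S.erase a ⊆ P]` gives `sp2`
(`∏ (x a + y a) ≥ ∏ x a + ∑ a, y a * ∏ b ≠ a, x b`).  For `sp1`: if `P ∩ C = ∅`, `¬ S ⊆ P` and
`S ⊆ insert a P` then `S ∩ C = {a}`; so only the case `S ∩ C = {a₀}` contributes the single term
`p a₀ / Λ * 1[S.erase a₀ ⊆ P]`.  For `prd`: `∏ (insert a P) ≤ (1 + w a) * ∏ P`. -/
theorem exists_pl (hp : ∀ a, 0 < p a) {κ : Type} (I : Finset κ) (C : κ → Finset Ω)
    (hC : ∀ i ∈ I, 0 < ms p (C i)) : ∃ ν, Pl p I C ν := by
  have hpp : ∀ S, 0 ≤ pp p S := fun S => prod_nonneg fun a _ => (hp a).le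
  have hms : ∀ C, 0 ≤ ms p C := fun C => sum_nonneg fun a _ => (hp a).le
  induction I using Finset.induction_on with
  | empty =>
      have e : ∀ S : Finset Ω, ∑ A : Finset Ω, (if S ⊆ A then (if A = ∅ then (1 : ℝ) else 0) else 0) =
          if S = ∅ then 1 else 0 := fun S => by
        rw [sum_eq_single_of_mem ∅ (mem_univ _) fun A _ hA => by simp [hA]]
        simp
      refine ⟨fun A => if A = ∅ then 1 else 0, fun A => by split_ifs <;> norm_num, by simp,
        by simp, fun A hA => ?_, fun S => ?_, fun S => ?_, fun w _ => by simp⟩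
      · split_ifs at hA with c
        · simp [c]
        · exact absurd hA (lt_irrefl _)
      · rw [e]
        split_ifs with c
        · simp [c, pp]
        · simpa using hpp S
      · rw [e]
        split_ifs with c
        · simp [c, pp]
        · exact mul_nonneg (hpp S) (prod_nonneg fun a _ => by simp)
  | insert i I hi ih =>
      obtain ⟨ν, hν⟩ := ih fun j hj => hC j (mem_insert_of_mem hj)
      obtain ⟨ν', h0, h1, h2⟩ := plant_step hp (C i) ν hν.nonneg
      have hΛ := hC i (mem_insert_self _ _)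
      have ind : ∀ (μ : Finset Ω → ℝ) (S : Finset Ω), ∑ A, (if S ⊆ A then μ A else 0) =
          ∑ A, μ A * if S ⊆ A then 1 else 0 := fun μ S => by simp
      have hx : ∀ a, 0 ≤ ∑ j ∈ I, if a ∈ C j then (ms p (C j))⁻¹ else 0 := fun a =>
        sum_nonneg fun j _ => by
          have := hms (C j)
          split_ifs <;> positivity
      have hy : ∀ a, 0 ≤ if a ∈ C i then (ms p (C i))⁻¹ else 0 := fun a => by
        split_ifs <;> positivity
      have s2 : ∀ S, ∑ A, (if S ⊆ A then ν' A else 0) ≤ ∑ A, (if S ⊆ A then ν A else 0) +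
          ∑ a ∈ S, (if a ∈ C i then (ms p (C i))⁻¹ else 0) *
            (p a * ∑ A, if S.erase a ⊆ A then ν A else 0) := by
        intro S
        rw [ind ν', h2]
        refine (sum_le_sum fun P _ => mul_le_mul_of_nonneg_left (Plant.g2 hp hΛ S P)
          (hν.nonneg P)).trans (le_of_eq ?_)
        simp only [ind ν, mul_add, sum_add_distrib, mul_sum]
        rw [sum_comm]
        congr 1
        exact sum_congr rfl fun a _ => sum_congr rfl fun P _ => by ring
      refine ⟨ν', h0, ?_, fun A hA j hj => ?_, fun A hA => ?_, fun S => ?_, fun S => ?_,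
        fun w hw => ?_⟩
      · have := h2 fun _ => 1
        simp only [mul_one, Plant.sum_div hΛ, ite_self] at this
        rw [this, hν.sum_one]
      · obtain ⟨P, c1, c2, -, c4⟩ := h1 A hA
        rcases mem_insert.1 hj with rfl | hj
        · exact c4
        · exact (hν.hit P c1 j hj).mono (inter_subset_inter_right c2)
      · obtain ⟨P, c1, -, c3, -⟩ := h1 A hA
        have := hν.card P c1
        rw [card_insert_of_notMem hi]
        omega
      · have hPi : 0 ≤ ∏ j ∈ I, (1 + (ms p (C j))⁻¹) := prod_nonneg fun j _ => by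
          have := hms (C j)
          positivity
        have c0 := hν.sp1 S
        have c1 := mul_nonneg (inv_pos.2 hΛ).le (mul_nonneg (hpp S) hPi)
        rw [prod_insert hi]
        by_cases c : ∃ a₀ ∈ S, a₀ ∈ C i
        · obtain ⟨a₀, c2, c3⟩ := c
          have c4 : ∑ A, (if S ⊆ A then ν' A else 0) ≤ ∑ A, (if S ⊆ A then ν A else 0) +
              (ms p (C i))⁻¹ * (p a₀ * ∑ A, if S.erase a₀ ⊆ A then ν A else 0) := by
            rw [ind ν', h2]
            refine (sum_le_sum fun P _ => mul_le_mul_of_nonneg_left (Plant.g1 hp hΛ S P c2 c3)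
              (hν.nonneg P)).trans (le_of_eq ?_)
            simp only [ind ν, mul_add, sum_add_distrib, mul_sum]
            congr 1
            exact sum_congr rfl fun P _ => by ring
          have c5 := mul_le_mul_of_nonneg_left
            (mul_le_mul_of_nonneg_left (hν.sp1 (S.erase a₀)) (hp a₀).le) (inv_pos.2 hΛ).le
          rw [← mul_assoc (p a₀), pp, mul_prod_erase _ _ c2, ← pp] at c5
          linarith
        · have c4 := s2 S
          rw [sum_eq_zero (s := S) fun a ha => by
            rw [if_neg fun c' => c ⟨a, ha, c'⟩, zero_mul]] at c4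
          linarith
      · simp only [sum_insert hi]
        have c1 := mul_le_mul_of_nonneg_left (Plant.prod_add_ge S _ _ hx hy) (hpp S)
        simp only [add_comm (if _ ∈ C i then _ else _)]
        refine (s2 S).trans (le_trans ?_ c1)
        rw [mul_add, mul_sum]
        refine add_le_add (hν.sp2 S) (sum_le_sum fun a ha => ?_)
        have c5 := mul_le_mul_of_nonneg_left
          (mul_le_mul_of_nonneg_left (hν.sp2 (S.erase a)) (hp a).le) (hy a)
        rw [← mul_assoc (p a), pp, mul_prod_erase _ _ ha, ← pp] at c5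
        linarith
      · rw [h2, prod_insert hi]
        have c0 : 0 ≤ (∑ a ∈ C i, p a * w a) / ms p (C i) :=
          div_nonneg (sum_nonneg fun a _ => mul_nonneg (hp a).le (hw a)) hΛ.le
        refine le_trans ?_ (mul_le_mul_of_nonneg_left (hν.prd w hw) (by linarith))
        rw [mul_sum]
        refine sum_le_sum fun P _ => ?_
        rw [mul_left_comm]
        refine mul_le_mul_of_nonneg_left ?_ (hν.nonneg P)
        have c1 : 0 ≤ ∏ a ∈ P, (1 + w a) := prod_nonneg fun a _ => by linarith [hw a]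
        split_ifs with c
        · nlinarith [mul_nonneg c0 c1]
        · refine le_of_eq ?_
          rw [sum_congr rfl (g := fun a => (p a / ms p (C i) + p a * w a / ms p (C i)) *
            ∏ a ∈ P, (1 + w a)) fun a ha => by
              rw [prod_insert fun c' => c ⟨a, mem_inter.2 ⟨c', ha⟩⟩]
              ring, ← sum_mul, sum_add_distrib, Plant.sum_div hΛ, ← Finset.sum_div]

end
end Crest.Agent.R225B
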