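import Crest.Agent.R225B.Janson
import Crest.Agent.R225B.Plant

/-! Row 225 (S0348): second moment bounds and the probability that no test point is killed. -/

set_option autoImplicit false
open Finset MeasureTheory
open scoped Classical

namespace Crest.Agent.R225B
noncomputable section

variable {Ω : Type} [Fintype Ω] [DecidableEq Ω] {p : Ω → ℝ}

omit [Fintype Ω] [DecidableEq Ω] in
theorem Kill_pp_pos (hp : ∀ a, 0 < p a) (A : Finset Ω) : 0 < pp p A := prod_pos fun a _ => hp a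

omit [Fintype Ω] [DecidableEq Ω] in
theorem Kill_ms_nonneg (hp : ∀ a, 0 < p a) (A : Finset Ω) : 0 ≤ ms p A :=
  sum_nonneg fun a _ => (hp a).le

/-- `1[A ∩ A' ≠ ∅] / pp (A ∩ A') ≤ ∑ S ∈ A.powerset.erase ∅, 1[S ⊆ A'] / pp S`. -/
theorem dl_le (hp : ∀ a, 0 < p a) {ν ν' : Finset Ω → ℝ} (hν : ∀ A, 0 ≤ ν A) (hν' : ∀ A, 0 ≤ ν' A) :
    Dl p ν ν' ≤ ∑ A, ν A * ∑ S ∈ A.powerset.erase ∅,
      (∑ A', if S ⊆ A' then ν' A' else 0) / pp p S := by
  refine sum_le_sum fun A _ => ?_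
  simp only [sum_div]
  rw [sum_comm, mul_sum]
  refine sum_le_sum fun A' _ => ?_
  have h0 : ∀ S ∈ A.powerset.erase ∅, 0 ≤ (if S ⊆ A' then ν' A' else 0) / pp p S := fun S _ =>
    div_nonneg (by split_ifs; exacts [hν' A', le_rfl]) (Kill_pp_pos hp S).le
  split_ifs with h
  · rw [mul_div_assoc]
    refine mul_le_mul_of_nonneg_left (le_trans (le_of_eq ?_) (single_le_sum h0
      (mem_erase.2 ⟨h.ne_empty, mem_powerset.2 inter_subset_left⟩))) (hν A)
    rw [if_pos inter_subset_right]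
  · exact mul_nonneg (hν A) (sum_nonneg h0)

/-- `dl_le`, `sp1` of `ν'`, `card` and `sum_one` of `ν`. -/
theorem dl_diag (hp : ∀ a, 0 < p a) {κ : Type} {I I' : Finset κ} {C C' : κ → Finset Ω}
    {ν ν' : Finset Ω → ℝ} (h : Pl p I C ν) (h' : Pl p I' C' ν') :
    Dl p ν ν' ≤ 2 ^ I.card * ∏ i ∈ I', (1 + (ms p (C' i))⁻¹) := by
  have M0 : 0 ≤ ∏ i ∈ I', (1 + (ms p (C' i))⁻¹) := prod_nonneg fun i _ =>
    add_nonneg zero_le_one (inv_nonneg.2 (Kill_ms_nonneg hp _))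
  refine (dl_le hp h.nonneg h'.nonneg).trans ?_
  refine le_trans (sum_le_sum (g := fun A => ν A * (2 ^ I.card * ∏ i ∈ I', (1 + (ms p (C' i))⁻¹)))
    fun A _ => ?_) (by rw [← sum_mul, h.sum_one, one_mul])
  rcases (h.nonneg A).eq_or_lt with h0 | h0
  · rw [← h0, zero_mul, zero_mul]
  refine mul_le_mul_of_nonneg_left ((sum_le_card_nsmul _ _ (∏ i ∈ I', (1 + (ms p (C' i))⁻¹))
    fun S _ => ?_).trans ?_) h0.le
  · rw [div_le_iff₀' (Kill_pp_pos hp S)]
    exact h'.sp1 S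
  · rw [nsmul_eq_mul]
    refine mul_le_mul_of_nonneg_right ?_ M0
    have : (A.powerset.erase ∅).card ≤ 2 ^ I.card :=
      card_erase_le.trans ((card_powerset A).le.trans
        (Nat.pow_le_pow_right (by norm_num) (h.card A h0)))
    exact_mod_cast this

/-- `dl_le`, `sp2` of `ν'` with `w a = ∑ j ∈ I', 1[a ∈ C' j] / ms (C' j)`,
`∑ S ⊆ A, ∏ a ∈ S, w a = ∏ a ∈ A, (1 + w a)` (`Finset.prod_one_add`), `prd` of `ν`, `1 + x ≤ exp x`. -/
theorem dl_off (hp : ∀ a, 0 < p a) {κ : Type} {I I' : Finset κ} {C C' : κ → Finset Ω}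
    {ν ν' : Finset Ω → ℝ} (h : Pl p I C ν) (h' : Pl p I' C' ν') :
    Dl p ν ν' ≤
      Real.exp (∑ i ∈ I, ∑ j ∈ I', ms p (C i ∩ C' j) / (ms p (C i) * ms p (C' j))) - 1 := by
  have w0 : ∀ a, 0 ≤ ∑ j ∈ I', if a ∈ C' j then (ms p (C' j))⁻¹ else 0 := fun a =>
    sum_nonneg fun j _ => by
      split_ifs; exacts [inv_nonneg.2 (Kill_ms_nonneg hp _), le_rfl]
  have h1 := h.prd _ w0
  refine (dl_le hp h.nonneg h'.nonneg).trans (le_sub_iff_add_le.2 (le_trans ?_ (h1.trans ?_)))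
  · conv_lhs => rw [← h.sum_one, ← sum_add_distrib]
    refine sum_le_sum fun A _ => ?_
    rw [← mul_add_one, prod_one_add, ← sum_erase_add _ _ (empty_mem_powerset A), prod_empty]
    refine mul_le_mul_of_nonneg_left (add_le_add_left (sum_le_sum fun S _ => ?_) _) (h.nonneg A)
    rw [div_le_iff₀' (Kill_pp_pos hp S)]
    exact h'.sp2 S
  · rw [Real.exp_sum]
    refine prod_le_prod (fun i _ => add_nonneg zero_le_one (div_nonneg
      (sum_nonneg fun a _ => mul_nonneg (hp a).le (w0 a)) (Kill_ms_nonneg hp _))) fun i _ => ?_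
    rw [add_comm]
    refine le_trans (le_of_eq ?_) (Real.add_one_le_exp _)
    congr 1
    simp only [mul_sum]
    rw [sum_comm, sum_div]
    refine sum_congr rfl fun j _ => ?_
    rw [mul_comm (ms p (C i)), ← div_div]
    congr 1
    simp only [mul_ite, mul_zero]
    rw [sum_ite_mem, ← sum_mul, div_eq_mul_inv]
    rfl

/-- `exists_pl` for each `t`, then `janson` with index `(t, A)`, sets `A`, weights `ν t A / pp p A`;
`μ = T`, the double sum is `∑ t, ∑ t', Dl p (ν t) (ν t')` (`Finset.prod_union_inter`);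
`exp x - 1 ≤ 2 x` for `0 ≤ x ≤ 1`. -/
theorem kill (hp : ∀ a, 0 < p a) (h1 : ∀ a, p a ≤ 1) {κ : Type} {T : ℕ} (I : Fin T → Finset κ)
    (C : Fin T → κ → Finset Ω) (hC : ∀ t, ∀ i ∈ I t, 0 < ms p (C t i)) {D Δ : ℝ}
    (R : Fin T → Fin T → ℝ)
    (hD : ∀ t, 2 ^ (I t).card * ∏ i ∈ I t, (1 + (ms p (C t i))⁻¹) ≤ D)
    (hR : ∀ t t', t ≠ t' →
      ∑ i ∈ I t, ∑ j ∈ I t', ms p (C t i ∩ C t' j) / (ms p (C t i) * ms p (C t' j)) ≤ R t t')
    (hR1 : ∀ t t', t ≠ t' → R t t' ≤ 1) (hΔ0 : 0 < Δ)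
    (hΔ : T * D + 2 * ∑ t, ∑ t', (if t = t' then 0 else R t t') ≤ Δ) :
    pr p (fun ω => ∀ t, ∃ i ∈ I t, Disjoint (C t i) ω) ≤ Real.exp (-((T : ℝ) ^ 2 / (2 * Δ))) := by
  choose ν hν using fun t => exists_pl hp (I t) (C t) (hC t)
  have h0 : ∀ a, 0 ≤ p a := fun a => (hp a).le
  refine (pr_mono h0 h1 fun ω hω x hx hs => ?_).trans
    (janson h0 h1 (fun x : Fin T × Finset Ω => x.2) (fun x => ν x.1 x.2 / pp p x.2)
      (fun x => div_nonneg ((hν x.1).nonneg _) (Kill_pp_pos hp _).le) (Nat.cast_nonneg T) hΔ0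
      (le_of_eq ?_) (le_trans ?_ hΔ))
  · obtain ⟨i, hi, hd⟩ := hω x.1
    obtain ⟨a, ha⟩ := (hν x.1).hit x.2 ((div_pos_iff_of_pos_right (Kill_pp_pos hp _)).1 hx) i hi
    exact disjoint_left.1 hd (mem_inter.1 ha).2 (hs (mem_inter.1 ha).1)
  · rw [Fintype.sum_prod_type]
    simp only [div_mul_cancel₀ _ (Kill_pp_pos hp _).ne', (hν _).sum_one]
    simp
  · have e : ∑ x : Fin T × Finset Ω, ∑ y : Fin T × Finset Ω, (if (x.2 ∩ y.2).Nonempty then
        ν x.1 x.2 / pp p x.2 * (ν y.1 y.2 / pp p y.2) * pp p (x.2 ∪ y.2) else 0) =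
        ∑ t, ∑ t', Dl p (ν t) (ν t') := by
      rw [Fintype.sum_prod_type]
      refine sum_congr rfl fun t _ => ?_
      simp only [Fintype.sum_prod_type]
      rw [sum_comm]
      refine sum_congr rfl fun t' _ => sum_congr rfl fun A _ => sum_congr rfl fun A' _ => ?_
      split_ifs
      · have e1 : pp p (A ∪ A') * pp p (A ∩ A') = pp p A * pp p A' := prod_union_inter
        have a1 := Kill_pp_pos hp A
        have a2 := Kill_pp_pos hp A'
        have a3 := Kill_pp_pos hp (A ∩ A')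
        rw [eq_div_of_mul_eq a3.ne' e1]
        field_simp
      · rfl
    rw [e]
    have e2 : (T : ℝ) * D = ∑ t : Fin T, ∑ t' : Fin T, if t = t' then D else 0 := by simp
    rw [e2, mul_sum, ← sum_add_distrib]
    refine sum_le_sum fun t _ => ?_
    rw [mul_sum, ← sum_add_distrib]
    refine sum_le_sum fun t' _ => ?_
    split_ifs with h
    · subst h
      rw [mul_zero, add_zero]
      exact (dl_diag hp (hν t) (hν t)).trans (hD t)
    · refine (dl_off hp (hν t) (hν t')).trans ?_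
      have a1 := hR t t' h
      have a2 := hR1 t t' h
      have a3 : 0 ≤ ∑ i ∈ I t, ∑ j ∈ I t',
          ms p (C t i ∩ C t' j) / (ms p (C t i) * ms p (C t' j)) :=
        sum_nonneg fun i _ => sum_nonneg fun j _ => div_nonneg (Kill_ms_nonneg hp _)
          (mul_nonneg (Kill_ms_nonneg hp _) (Kill_ms_nonneg hp _))
      have a4 := Real.abs_exp_sub_one_le (x := ∑ i ∈ I t, ∑ j ∈ I t',
          ms p (C t i ∩ C t' j) / (ms p (C t i) * ms p (C t' j)))
        (by rw [abs_of_nonneg a3]; linarith)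
      rw [abs_of_nonneg a3] at a4
      linarith [le_abs_self (Real.exp (∑ i ∈ I t, ∑ j ∈ I t',
          ms p (C t i ∩ C t' j) / (ms p (C t i) * ms p (C t' j))) - 1)]

end
end Crest.Agent.R225B
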