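import Crest.Agent.R225B.Mgf

/-! Row 225 (S0348): existence of the slab model. -/

set_option autoImplicit false
open Finset MeasureTheory
open scoped Classical

namespace Crest.Agent.R225B
noncomputable section

/-- geometric sum (induction on `L` for the bound `exp (min s (L + 1))`-type statement, or
`∑ l < m, exp l ≤ exp m`). -/
theorem lev_up (L : ℕ) (s : ℝ) :
    ∑ l : Fin L, (if ((l : ℕ) : ℝ) + 1 < s then Real.exp (l : ℕ) else 0) ≤ Real.exp s := by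
  rw [Fin.sum_univ_eq_sum_range (fun l : ℕ => if (l : ℝ) + 1 < s then Real.exp l else 0) L]
  have key : ∀ L : ℕ, ∑ l ∈ range L, (if (l : ℝ) + 1 < s then Real.exp l else 0)
      ≤ Real.exp (min s L) := by
    intro L
    induction L with
    | zero => simp [(Real.exp_pos _).le]
    | succ L ih =>
      rw [Finset.sum_range_succ]
      push_cast
      split_ifs with h
      · rw [min_eq_right (by linarith)] at ih
        rw [min_eq_right h.le, Real.exp_add]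
        have := Real.add_one_le_exp (1 : ℝ)
        have := Real.exp_pos (L : ℝ)
        nlinarith
      · rw [add_zero]
        exact ih.trans (Real.exp_le_exp.2 (min_le_min_left _ (by linarith)))
  exact (key L).trans (Real.exp_le_exp.2 (min_le_left _ _))

/-- for `s ≤ 2` the left side is `≤ 0`; otherwise take the term `l = ⌈s⌉ - 2`. -/
theorem lev_lo (L : ℕ) (s : ℝ) (hs : s ≤ L + 1) :
    Real.exp (s - 2) - 1 ≤
      ∑ l : Fin L, (if ((l : ℕ) : ℝ) + 1 < s then Real.exp (l : ℕ) else 0) := by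
  have hnn : ∀ l : Fin L, 0 ≤ (if ((l : ℕ) : ℝ) + 1 < s then Real.exp (l : ℕ) else 0) := fun l => by
    split_ifs
    · exact (Real.exp_pos _).le
    · exact le_rfl
  by_cases h2 : s ≤ 2
  · have : Real.exp (s - 2) ≤ 1 := Real.exp_le_one_iff.2 (by linarith)
    have := Finset.sum_nonneg fun l (_ : l ∈ univ) => hnn l
    linarith
  · push Not at h2
    have h3 : 2 < ⌈s⌉₊ := Nat.lt_ceil.2 (by exact_mod_cast h2)
    have h4 : ⌈s⌉₊ ≤ L + 1 := Nat.ceil_le.2 (by exact_mod_cast hs)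
    have h5 := Nat.le_ceil s
    have h6 := Nat.ceil_lt_add_one (by linarith : 0 ≤ s)
    have h7 : ((⌈s⌉₊ - 2 : ℕ) : ℝ) = ⌈s⌉₊ - 2 := by
      rw [Nat.cast_sub h3.le]; norm_num
    have h8 := Finset.single_le_sum (fun l (_ : l ∈ univ) => hnn l)
      (Finset.mem_univ (⟨⌈s⌉₊ - 2, by omega⟩ : Fin L))
    simp only [h7] at h8
    rw [if_pos (by linarith)] at h8
    have : Real.exp (s - 2) ≤ Real.exp (⌈s⌉₊ - 2) := Real.exp_le_exp.2 (by linarith)
    linarith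

namespace ModelX

abbrev Om (n r : ℕ) : Type := (Fin n × Fin (r ^ 3) → Bool) × Fin (n * r ^ 2 + 1)

def vm (n r : ℕ) (a : Om n r) : V n := vv n r a.1
def tm (n r : ℕ) (a : Om n r) : ℝ := ((a.2 : ℕ) : ℝ) + 1
def pm (n r : ℕ) (a : Om n r) : ℝ :=
  Real.exp (-(r : ℝ) / 2) / 4 * ((1 / 2 : ℝ) ^ (n * r ^ 3) * Real.exp (a.2 : ℕ))

theorem ms_eq (n r : ℕ) (z : V n) :
    ms (pm n r) (cap (vm n r) (tm n r) z) = Real.exp (-(r : ℝ) / 2) / 4 *
      ∑ σ : Fin n × Fin (r ^ 3) → Bool, (1 / 2 : ℝ) ^ (n * r ^ 3) *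
        ∑ l : Fin (n * r ^ 2 + 1),
          (if ((l : ℕ) : ℝ) + 1 < ip (vv n r σ) z then Real.exp (l : ℕ) else 0) := by
  unfold ms cap
  rw [Finset.sum_filter, Fintype.sum_prod_type, Finset.mul_sum]
  refine Finset.sum_congr rfl fun σ _ => ?_
  rw [Finset.mul_sum, Finset.mul_sum]
  refine Finset.sum_congr rfl fun l _ => ?_
  simp only [vm, tm, pm]
  split_ifs <;> simp

theorem ms_up {n r : ℕ} (hr : 0 < r) (z : V n) :
    ms (pm n r) (cap (vm n r) (tm n r) z) ≤ Real.exp (-(r * (1 - nr z ^ 2) / 2)) / 4 := by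
  rw [ms_eq]
  have h1 : ∑ σ : Fin n × Fin (r ^ 3) → Bool, (1 / 2 : ℝ) ^ (n * r ^ 3) *
        ∑ l : Fin (n * r ^ 2 + 1),
          (if ((l : ℕ) : ℝ) + 1 < ip (vv n r σ) z then Real.exp (l : ℕ) else 0)
      ≤ Real.exp (r * nr z ^ 2 / 2) :=
    (Finset.sum_le_sum fun σ _ => mul_le_mul_of_nonneg_left (lev_up _ _) (by positivity)).trans
      (mgf_up hr z)
  refine (mul_le_mul_of_nonneg_left h1 (by positivity)).trans (le_of_eq ?_)
  rw [div_mul_eq_mul_div, ← Real.exp_add]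
  congr 2; ring

theorem ms_lo {n r : ℕ} (hr : 0 < r) (z : V n) (hz : nr z ≤ 1) :
    Real.exp (-(r : ℝ) / 2) / 4 * (Real.exp (r * nr z ^ 2 / 2 - 3) - 1)
      ≤ ms (pm n r) (cap (vm n r) (tm n r) z) := by
  rw [ms_eq]
  refine mul_le_mul_of_nonneg_left ?_ (by positivity)
  have h1 : ∀ σ : Fin n × Fin (r ^ 3) → Bool,
      (1 / 2 : ℝ) ^ (n * r ^ 3) * (Real.exp (ip (vv n r σ) z - 2) - 1) ≤ (1 / 2 : ℝ) ^ (n * r ^ 3) *
        ∑ l : Fin (n * r ^ 2 + 1),
          (if ((l : ℕ) : ℝ) + 1 < ip (vv n r σ) z then Real.exp (l : ℕ) else 0) := by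
    intro σ
    refine mul_le_mul_of_nonneg_left (lev_lo _ _ ?_) (by positivity)
    have e1 := abs_ip_le (vv n r σ) (fun i => (abs_le_nr z i).trans hz)
    have e2 := vv_l1 (n := n) hr σ
    have e3 := le_abs_self (ip (vv n r σ) z)
    push_cast
    linarith
  refine le_trans ?_ (Finset.sum_le_sum fun σ _ => h1 σ)
  have h2 : ∑ σ : Fin n × Fin (r ^ 3) → Bool,
      (1 / 2 : ℝ) ^ (n * r ^ 3) * (Real.exp (ip (vv n r σ) z - 2) - 1)
      = Real.exp (-2) * (∑ σ : Fin n × Fin (r ^ 3) → Bool,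
        (1 / 2 : ℝ) ^ (n * r ^ 3) * Real.exp (ip (vv n r σ) z)) - 1 := by
    have h3 : ∑ _σ : Fin n × Fin (r ^ 3) → Bool, (1 / 2 : ℝ) ^ (n * r ^ 3) = 1 := by
      rw [Finset.sum_const, Finset.card_univ, nsmul_eq_mul]
      simp only [Fintype.card_fun, Fintype.card_bool, Fintype.card_prod, Fintype.card_fin]
      push_cast
      rw [← mul_pow]; norm_num
    simp only [mul_sub, mul_one]
    rw [Finset.sum_sub_distrib, h3, Finset.mul_sum]
    congr 1
    refine Finset.sum_congr rfl fun σ _ => ?_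
    rw [sub_eq_add_neg (ip _ _) 2, Real.exp_add]; ring
  rw [h2]
  have h4 := mul_le_mul_of_nonneg_left (mgf_lo hr z hz) (Real.exp_pos (-2)).le
  rw [← Real.exp_add, show -2 + (r * nr z ^ 2 / 2 - 1) = r * nr z ^ 2 / 2 - 3 by ring] at h4
  linarith

theorem par {n : ℕ} (z z' : V n) :
    nr ((1 / 2 : ℝ) • (z + z')) ^ 2 = (nr z ^ 2 + nr z' ^ 2) / 2 - nr (z - z') ^ 2 / 4 := by
  simp only [nr_sq]
  rw [← Finset.sum_add_distrib, Finset.sum_div, Finset.sum_div, ← Finset.sum_sub_distrib]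
  refine Finset.sum_congr rfl fun i _ => ?_
  simp only [Pi.smul_apply, Pi.add_apply, Pi.sub_apply, smul_eq_mul]
  ring

theorem pm_pos (n r : ℕ) (a : Om n r) : 0 < pm n r a := by unfold pm; positivity

end ModelX

open ModelX in
/-- `Ω = (Fin n × Fin (r^3) → Bool) × Fin (n r² + 1)`, `v (σ, l) = vv n r σ`, `τ (σ, l) = l + 1`,
`p (σ, l) = exp (-r/2) / 4 * (1/2)^(n r³) * exp l` (`≤ 1` since `e ≤ 2^r`).
`ms (cap z) = exp (-r/2)/4 * ∑ σ, (1/2)^(n r³) * ∑ l, 1[l + 1 < ip (vv σ) z] exp l`.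
`up`: `lev_up`, `mgf_up`.  `ov`: `cap z ∩ cap z' ⊆ cap ((1/2) • (z + z'))` and the parallelogram law
`nr ((z + z')/2)² ≤ 1 - nr (z - z')²/4`.  `lo`: `lev_lo` (`|ip| ≤ n r²`), `mgf_lo`, `∑ σ, (1/2)^.. = 1`:
`ms ≥ (exp (-3 - r (1 - s²)/2) - exp (-r/2)) / 4 ≥ exp (-3 - r (1 - s²)/2) / 8`, `s = nr z ≥ 1/2`. -/
theorem exists_md (n r : ℕ) (hr : 32 ≤ r) :
    ∃ (Ω : Type) (_ : Fintype Ω) (_ : DecidableEq Ω) (v : Ω → V n) (τ p : Ω → ℝ),
      Md (r : ℝ) v τ p := by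
  have hr0 : 0 < r := by omega
  have hr' : (32 : ℝ) ≤ r := by exact_mod_cast hr
  refine ⟨Om n r, inferInstance, inferInstance, vm n r, tm n r, pm n r, pm_pos n r, fun a => ?_,
    fun a => ?_, fun a => vv_l1 hr0 _, fun z hz => ?_, fun z hz1 hz => ?_, fun z z' hz hz' => ?_⟩
  · unfold pm
    have h1 : Real.exp (-(r : ℝ) / 2) ≤ 1 := Real.exp_le_one_iff.2 (by linarith)
    have h2 : Real.exp (a.2 : ℕ) ≤ 2 ^ (n * r ^ 3) := by
      have e1 : Real.exp 1 ≤ 2 ^ r := by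
        have := Real.exp_one_lt_d9
        have : (2 : ℝ) ^ 2 ≤ 2 ^ r := pow_le_pow_right₀ (by norm_num) (by omega)
        linarith
      have e2 : (a.2 : ℕ) ≤ n * r ^ 2 := Nat.lt_succ_iff.1 a.2.2
      calc Real.exp (a.2 : ℕ) = Real.exp 1 ^ (a.2 : ℕ) := by rw [← Real.exp_nat_mul, mul_one]
        _ ≤ (2 ^ r) ^ (a.2 : ℕ) := pow_le_pow_left₀ (Real.exp_pos _).le e1 _
        _ ≤ (2 ^ r) ^ (n * r ^ 2) := pow_le_pow_right₀ (one_le_pow₀ (by norm_num)) e2
        _ = 2 ^ (n * r ^ 3) := by rw [← pow_mul]; congr 1; ring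
    have h3 : (1 / 2 : ℝ) ^ (n * r ^ 3) * Real.exp (a.2 : ℕ) ≤ 1 := by
      refine (mul_le_mul_of_nonneg_left h2 (by positivity)).trans (le_of_eq ?_)
      rw [← mul_pow]; norm_num
    exact mul_le_one₀ (by linarith) (by positivity) h3
  · unfold tm
    have : (0 : ℝ) ≤ (a.2 : ℕ) := Nat.cast_nonneg _
    linarith
  · refine (ms_up hr0 z).trans ?_
    have h0 := nr_nonneg z
    have h1 : nr z ^ 2 ≤ 1 := pow_le_one₀ h0 hz
    have : Real.exp (-(r * (1 - nr z ^ 2) / 2)) ≤ 1 := Real.exp_le_one_iff.2 (by nlinarith)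
    linarith
  · refine le_trans ?_ (ms_lo hr0 z hz)
    have h1 : 1 / 4 ≤ nr z ^ 2 := by nlinarith
    have h2 : 2 ≤ Real.exp (r * nr z ^ 2 / 2 - 3) := by
      have := Real.add_one_le_exp (r * nr z ^ 2 / 2 - 3)
      nlinarith
    have h3 : Real.exp (-3) ≤ 1 / 8 := by
      have e1 : (2 : ℝ) ≤ Real.exp 1 := by linarith [Real.add_one_le_exp (1 : ℝ)]
      have e2 : (2 : ℝ) ^ 3 ≤ Real.exp 1 ^ 3 := pow_le_pow_left₀ (by norm_num) e1 3
      rw [← Real.exp_nat_mul] at e2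
      rw [Real.exp_neg, one_div]
      refine inv_anti₀ (by norm_num) ?_
      norm_num at e2 ⊢
      exact e2
    have h4 : Real.exp (-6 - r * (1 - nr z))
        ≤ Real.exp (-3) * (Real.exp (-(r : ℝ) / 2) * Real.exp (r * nr z ^ 2 / 2 - 3)) := by
      rw [← Real.exp_add, ← Real.exp_add]
      refine Real.exp_le_exp.2 ?_
      have : 0 ≤ (r : ℝ) * (1 - nr z) ^ 2 := by positivity
      nlinarith
    have h5 := Real.exp_pos (-(r : ℝ) / 2)
    have h6 : 0 < Real.exp (-(r : ℝ) / 2) * Real.exp (r * nr z ^ 2 / 2 - 3) := by positivity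
    nlinarith
  · have hsub : cap (vm n r) (tm n r) z ∩ cap (vm n r) (tm n r) z'
        ⊆ cap (vm n r) (tm n r) ((1 / 2 : ℝ) • (z + z')) := by
      intro a ha
      simp only [cap, Finset.mem_inter, Finset.mem_filter, Finset.mem_univ, true_and] at ha ⊢
      rw [ip_smul, ip_add]
      linarith [ha.1, ha.2]
    have h1 : ms (pm n r) (cap (vm n r) (tm n r) z ∩ cap (vm n r) (tm n r) z')
        ≤ ms (pm n r) (cap (vm n r) (tm n r) ((1 / 2 : ℝ) • (z + z'))) :=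
      Finset.sum_le_sum_of_subset_of_nonneg hsub fun a _ _ => (pm_pos n r a).le
    refine h1.trans ((ms_up hr0 _).trans ?_)
    rw [par]
    have e1 : nr z ^ 2 ≤ 1 := pow_le_one₀ (nr_nonneg z) hz
    have e2 : nr z' ^ 2 ≤ 1 := pow_le_one₀ (nr_nonneg z') hz'
    have e3 : Real.exp (-(r * (1 - ((nr z ^ 2 + nr z' ^ 2) / 2 - nr (z - z') ^ 2 / 4)) / 2))
        ≤ Real.exp (-(r * nr (z - z') ^ 2 / 8)) := Real.exp_le_exp.2 (by nlinarith)
    have e4 := Real.exp_pos (-(r * nr (z - z') ^ 2 / 8))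
    linarith

end
end Crest.Agent.R225B
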