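import Crest.Agent.R225B.Defs

/-! Row 225 (S0348): asymptotic inequalities between the parameters. -/

set_option autoImplicit false
open Finset MeasureTheory
open scoped Classical

namespace Crest.Agent.R225B
noncomputable section

open Filter

theorem cc_pos : 0 < cc := by unfold cc; rw [aa_eq]; norm_num

theorem Num_poly (k : ℕ) (C : ℝ) {r ε : ℝ} (hr : |r| < 1) (hε : 0 < ε) :
    ∀ᶠ n : ℕ in atTop, C * ((n : ℝ) ^ k * r ^ n) ≤ ε := by
  have h := (tendsto_pow_const_mul_const_pow_of_abs_lt_one k hr).const_mul C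
  rw [mul_zero] at h
  exact h.eventually (eventually_le_nhds hε)

theorem Num_log (M : ℝ) : ∀ᶠ n : ℕ in atTop, M ≤ Real.log n :=
  (Real.tendsto_log_atTop.comp tendsto_natCast_atTop_atTop).eventually (eventually_ge_atTop M)

theorem Num_sqrt {C : ℝ} (hC : 0 ≤ C) : ∀ᶠ n : ℕ in atTop, C * (Real.log n + 1) ≤ √n := by
  have ht : Tendsto (fun n : ℕ => √(√(n : ℝ))) atTop atTop :=
    Real.tendsto_sqrt_atTop.comp (Real.tendsto_sqrt_atTop.comp tendsto_natCast_atTop_atTop)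
  filter_upwards [ht.eventually (eventually_ge_atTop (5 * C + 1))] with n hn
  set u := √(√(n : ℝ)) with hu
  have hu1 : 1 ≤ u := by linarith
  have h2 : u ^ 2 = √(n : ℝ) := Real.sq_sqrt (Real.sqrt_nonneg _)
  have h4 : (n : ℝ) = u ^ 4 := by
    rw [show u ^ 4 = (u ^ 2) ^ 2 by ring, h2, Real.sq_sqrt (Nat.cast_nonneg n)]
  have hl : Real.log n ≤ 4 * u := by
    rw [h4, Real.log_pow]
    have := Real.log_le_self (show 0 ≤ u by linarith)
    push_cast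
    linarith
  rw [← h2]
  calc C * (Real.log n + 1) ≤ C * (5 * u) := mul_le_mul_of_nonneg_left (by linarith) hC
    _ = (5 * C) * u := by ring
    _ ≤ u * u := mul_le_mul_of_nonneg_right (by linarith) (by linarith)
    _ = u ^ 2 := by ring

theorem Num_sqrt_le {n : ℕ} (hn : 1 ≤ n) : √(n : ℝ) ≤ n := by
  have h : (1 : ℝ) ≤ n := by exact_mod_cast hn
  rw [Real.sqrt_le_left (by linarith)]
  nlinarith

theorem Num_pow_le {a x : ℝ} (ha : 0 ≤ a) (h : a ≤ Real.exp x) (n : ℕ) :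
    a ^ n ≤ Real.exp (n * x) := by
  rw [Real.exp_nat_mul]
  exact pow_le_pow_left₀ ha h n

theorem Num_th_nonneg (n : ℕ) : 0 ≤ th n :=
  mul_nonneg (mul_nonneg cc_pos.le (Nat.cast_nonneg n)) (Real.log_natCast_nonneg n)

theorem th_pos {n : ℕ} (hn : 2 ≤ n) : 0 < th n := by
  have h : (2 : ℝ) ≤ n := by exact_mod_cast hn
  exact mul_pos (mul_pos cc_pos (by linarith)) (Real.log_pos (by linarith))

/-- `cc ≤ 10⁻¹²` and `log n ≤ n` -/
theorem th_le (n : ℕ) : 896 * th n ≤ (n : ℝ) ^ 2 := by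
  have h1 : 896 * cc ≤ 1 := by unfold cc; rw [aa_eq]; norm_num
  have h2 : Real.log n ≤ n := Real.log_le_self (Nat.cast_nonneg n)
  have h3 : 0 ≤ Real.log n := Real.log_natCast_nonneg n
  have h4 : (0 : ℝ) ≤ n := Nat.cast_nonneg n
  unfold th
  calc 896 * (cc * n * Real.log n) = (896 * cc) * (n * Real.log n) := by ring
    _ ≤ 1 * (n * Real.log n) := mul_le_mul_of_nonneg_right h1 (mul_nonneg h4 h3)
    _ ≤ (n : ℝ) ^ 2 := by nlinarith

theorem k0_le (n : ℕ) (hn : 1 ≤ n) : (k0 n : ℝ) ≤ 3 * Real.log n + 1 := by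
  have _ := hn
  exact (Nat.ceil_lt_add_one (mul_nonneg (by norm_num) (Real.log_natCast_nonneg n))).le

theorem Num_th_sq {n : ℕ} (hn : 1 ≤ n) : (896 * th n) ^ 2 ≤ Real.exp (4 * Real.log n) := by
  have h : (0 : ℝ) < n := by exact_mod_cast hn
  have h1 : Real.exp (4 * Real.log n) = ((n : ℝ) ^ 2) ^ 2 := by
    rw [show (4 : ℝ) = ((4 : ℕ) : ℝ) by norm_num, Real.exp_nat_mul, Real.exp_log h]
    ring
  rw [h1]
  exact pow_le_pow_left₀ (mul_nonneg (by norm_num) (Num_th_nonneg n)) (th_le n) 2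

theorem Num_k0 {n : ℕ} (hn : 1 ≤ n) :
    2 * ((aa : ℝ) * n) * ((k0 n : ℝ) / n) ≤ 2 * aa * (3 * Real.log n + 1) := by
  have h : (0 : ℝ) < n := by exact_mod_cast hn
  have h1 : 2 * ((aa : ℝ) * n) * ((k0 n : ℝ) / n) = 2 * aa * k0 n := by field_simp
  rw [h1]
  exact mul_le_mul_of_nonneg_left (k0_le n hn) (by positivity)

theorem ev_a : ∀ᶠ n : ℕ in atTop, 14 * (16 * th n) * 3 ^ n ≤ 4 ^ n := by
  filter_upwards [Num_poly 2 1 (r := 3 / 4) (ε := 1) (by rw [abs_of_pos] <;> norm_num) one_pos]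
    with n hn
  have h1 := th_le n
  have h2 := Num_th_nonneg n
  have h3 : (3 : ℝ) ^ n = (3 / 4) ^ n * 4 ^ n := by rw [← mul_pow]; norm_num
  have h4 : (0 : ℝ) < 4 ^ n := by positivity
  calc 14 * (16 * th n) * 3 ^ n ≤ (n : ℝ) ^ 2 * 3 ^ n :=
        mul_le_mul_of_nonneg_right (by linarith) (by positivity)
    _ = (1 * ((n : ℝ) ^ 2 * (3 / 4) ^ n)) * 4 ^ n := by rw [h3]; ring
    _ ≤ 1 * 4 ^ n := mul_le_mul_of_nonneg_right hn h4.le
    _ = 4 ^ n := one_mul _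

/-- `exp (-k0) ≤ n⁻³` -/
theorem ev_b : ∀ᶠ n : ℕ in atTop, 14 * (16 * th n) * Real.exp (1 - k0 n) ≤ 1 / 8 := by
  filter_upwards [eventually_ge_atTop 6] with n hn
  have h : (6 : ℝ) ≤ n := by exact_mod_cast hn
  have hn0 : (0 : ℝ) < n := by linarith
  have h1 := th_le n
  have h2 := Num_th_nonneg n
  have h3 : 3 * Real.log n ≤ k0 n := Nat.le_ceil _
  have h4 : Real.exp (3 * Real.log n) = (n : ℝ) ^ 3 := by
    rw [show (3 : ℝ) = ((3 : ℕ) : ℝ) by norm_num, Real.exp_nat_mul, Real.exp_log hn0]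
  have h5 : Real.exp (1 - k0 n) ≤ 3 / (n : ℝ) ^ 3 := by
    calc Real.exp (1 - k0 n) ≤ Real.exp (1 - 3 * Real.log n) := Real.exp_le_exp.2 (by linarith)
      _ = Real.exp 1 / (n : ℝ) ^ 3 := by rw [Real.exp_sub, h4]
      _ ≤ 3 / (n : ℝ) ^ 3 :=
        div_le_div_of_nonneg_right (Real.exp_one_lt_d9.le.trans (by norm_num)) (by positivity)
  calc 14 * (16 * th n) * Real.exp (1 - k0 n) ≤ ((n : ℝ) ^ 2 / 4) * (3 / (n : ℝ) ^ 3) :=
        mul_le_mul (by linarith) h5 (Real.exp_pos _).le (by positivity)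
    _ = 3 / (4 * n) := by field_simp
    _ ≤ 1 / 8 := by
        rw [div_le_div_iff₀ (by positivity) (by norm_num)]
        linarith

theorem ev_c : ∀ᶠ n : ℕ in atTop, 2 * k0 n ≤ n := by
  filter_upwards [Num_sqrt (C := 6) (by norm_num), eventually_ge_atTop 1] with n h1 hn
  have h2 := k0_le n hn
  have h3 := Num_sqrt_le hn
  have h4 : (2 : ℝ) * k0 n ≤ n := by linarith
  exact_mod_cast h4

theorem ev_d : ∀ᶠ n : ℕ in atTop, dl n ≤ 1 / 1000 := by
  filter_upwards [Num_log 4000] with n h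
  unfold dl
  rw [Real.exp_neg, one_div]
  refine inv_anti₀ (by norm_num) ?_
  have := Real.add_one_le_exp (Real.log n / 4)
  linarith

theorem Num_TT_le (n : ℕ) : (TT n : ℝ) ≤ 2 * Real.exp (n * Real.log n / 8) := by
  have h1 : (TT n : ℝ) < Real.exp (n * Real.log n / 8) + 1 :=
    Nat.ceil_lt_add_one (Real.exp_pos _).le
  have h2 : 1 ≤ Real.exp (n * Real.log n / 8) :=
    Real.one_le_exp (div_nonneg (mul_nonneg (Nat.cast_nonneg n) (Real.log_natCast_nonneg n))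
      (by norm_num))
  linarith

/-- `TT n ≤ 2 exp (n log n / 8)`, `dl n ^ n = exp (-n log n / 4)` -/
theorem ev_e : ∀ᶠ n : ℕ in atTop, (TT n : ℝ) * (4 ^ n) ^ 2 * dl n ^ n ≤ 1 / 4 := by
  filter_upwards [Num_log 104, eventually_ge_atTop 1] with n h hn
  have hn1 : (1 : ℝ) ≤ n := by exact_mod_cast hn
  have h1 := Num_TT_le n
  have h2 : (4 : ℝ) ^ n ≤ Real.exp (n * 3) :=
    Num_pow_le (by norm_num) (by have := Real.add_one_le_exp 3; linarith) n
  have h3 : dl n ^ n = Real.exp (n * -(Real.log n / 4)) := by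
    unfold dl; rw [Real.exp_nat_mul]
  have h4 : ((4 : ℝ) ^ n) ^ 2 ≤ Real.exp (n * 3) ^ 2 := pow_le_pow_left₀ (by positivity) h2 2
  have h5 : Real.exp (-7) ≤ 1 / 8 := by
    rw [Real.exp_neg, one_div]
    refine inv_anti₀ (by norm_num) ?_
    have := Real.add_one_le_exp 7
    linarith
  calc (TT n : ℝ) * (4 ^ n) ^ 2 * dl n ^ n
      ≤ (2 * Real.exp (n * Real.log n / 8)) * Real.exp (n * 3) ^ 2 *
          Real.exp (n * -(Real.log n / 4)) := by
        rw [h3]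
        exact mul_le_mul_of_nonneg_right (mul_le_mul h1 h4 (by positivity) (by positivity))
          (Real.exp_pos _).le
    _ = 2 * Real.exp (n * Real.log n / 8 + (n * 3 + n * 3) + n * -(Real.log n / 4)) := by
        rw [Real.exp_add, Real.exp_add, Real.exp_add]; ring
    _ ≤ 2 * Real.exp (-7) := by
        refine mul_le_mul_of_nonneg_left (Real.exp_le_exp.2 ?_) (by norm_num)
        have := mul_le_mul_of_nonneg_left h (show (0 : ℝ) ≤ n by linarith)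
        linarith
    _ ≤ 1 / 4 := by linarith

theorem Num_dl_sq {n : ℕ} (hn : 1 ≤ n) : (n : ℝ) * dl n ^ 2 = √n := by
  have h : (0 : ℝ) < n := by exact_mod_cast hn
  have h1 : (n : ℝ) * dl n ^ 2 = Real.exp (Real.log n / 2) := by
    unfold dl
    conv_lhs => rw [← Real.exp_log h]
    rw [Real.log_exp, sq, ← Real.exp_add, ← Real.exp_add]
    congr 1
    ring
  rw [h1, eq_comm, Real.sqrt_eq_iff_mul_self_eq h.le (Real.exp_pos _).le, ← Real.exp_add,
    add_halves, Real.exp_log h]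

/-- `n * dl n ^ 2 = √n` beats `log n` -/
theorem ev_f : ∀ᶠ n : ℕ in atTop, (896 * th n) ^ 2 *
    Real.exp (12 + 2 * ((aa : ℝ) * n) * ((k0 n : ℝ) / n) - (aa : ℝ) * n * dl n ^ 2 / 8) ≤ 1 := by
  filter_upwards [Num_sqrt (C := 56) (by norm_num), eventually_ge_atTop 1] with n h hn
  have h1 := Num_th_sq hn
  have h2 := Num_k0 hn
  have h3 : (aa : ℝ) * n * dl n ^ 2 = aa * √n := by rw [mul_assoc, Num_dl_sq hn]
  have h4 := Real.log_natCast_nonneg n
  have ha : (aa : ℝ) = 40000000 := by rw [aa_eq]; norm_num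
  refine (mul_le_mul_of_nonneg_right h1 (Real.exp_pos _).le).trans ?_
  rw [← Real.exp_add, Real.exp_le_one_iff, h3]
  rw [ha] at h2 ⊢
  linarith

/-- Each of the three terms is at most `T² / (3 · 20^n)`: `(8 + aa) 896 cc ≤ 1/16` and
`T ≥ exp (n log n / 8)`; `16 · 16^n / 1000^n`; `aa / (8 · 10⁶) = 5` and `e⁵ > 100`. -/
theorem ev_g : ∀ᶠ n : ℕ in atTop,
    (TT n : ℝ) * Real.exp ((8 + (aa : ℝ)) * (896 * th n)) +
      2 * (8 * (TT n : ℝ) ^ 2 * (4 ^ n) ^ 2 * (1 / 1000) ^ n) +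
      2 * (TT n : ℝ) ^ 2 * ((896 * th n) ^ 2 * Real.exp
        (12 + 2 * ((aa : ℝ) * n) * ((k0 n : ℝ) / n) - (aa : ℝ) * n * (1 / 1000) ^ 2 / 8)) ≤
      (TT n : ℝ) ^ 2 / 20 ^ n := by
  filter_upwards [Num_log 336, eventually_ge_atTop 1,
    Num_poly 0 48 (r := 320 / 1000) (ε := 1) (by rw [abs_of_pos] <;> norm_num) one_pos,
    Num_sqrt (C := 280000000) (by norm_num)] with n hl hn hp hs
  have hn1 : (1 : ℝ) ≤ n := by exact_mod_cast hn
  have ha : (aa : ℝ) = 40000000 := by rw [aa_eq]; norm_num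
  have h20 : (0 : ℝ) < 20 ^ n := by positivity
  have hT0 : (0 : ℝ) ≤ TT n := Nat.cast_nonneg _
  have hlog := Real.log_natCast_nonneg n
  have he4 : (20 : ℝ) ≤ Real.exp 4 := by
    have h1 : Real.exp 4 = Real.exp 1 ^ 4 := by
      rw [← Real.exp_nat_mul]; norm_num
    have h2 : (2.7 : ℝ) ^ 4 ≤ Real.exp 1 ^ 4 :=
      pow_le_pow_left₀ (by norm_num) (Real.exp_one_gt_d9.le.trans' (by norm_num)) 4
    rw [h1]
    exact le_trans (by norm_num) h2
  have h204 : (20 : ℝ) ^ n ≤ Real.exp (n * 4) := Num_pow_le (by norm_num) he4 n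
  -- first term
  have t1 : 3 * 20 ^ n * Real.exp ((8 + (aa : ℝ)) * (896 * th n)) ≤ TT n := by
    have h1 : (8 + (aa : ℝ)) * (896 * cc) ≤ 1 / 16 := by unfold cc; rw [ha]; norm_num
    have h2 : (8 + (aa : ℝ)) * (896 * th n) ≤ n * Real.log n / 16 := by
      unfold th
      calc (8 + (aa : ℝ)) * (896 * (cc * n * Real.log n))
          = ((8 + (aa : ℝ)) * (896 * cc)) * (n * Real.log n) := by ring
        _ ≤ 1 / 16 * (n * Real.log n) := mul_le_mul_of_nonneg_right h1 (by positivity)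
        _ = _ := by ring
    have h3 : (3 : ℝ) ≤ Real.exp 2 := by have := Real.add_one_le_exp 2; linarith
    calc 3 * 20 ^ n * Real.exp ((8 + (aa : ℝ)) * (896 * th n))
        ≤ Real.exp 2 * Real.exp (n * 4) * Real.exp (n * Real.log n / 16) :=
          mul_le_mul (mul_le_mul h3 h204 h20.le (Real.exp_pos _).le) (Real.exp_le_exp.2 h2)
            (Real.exp_pos _).le (by positivity)
      _ ≤ Real.exp (n * Real.log n / 8) := by
          rw [← Real.exp_add, ← Real.exp_add, Real.exp_le_exp]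
          have := mul_le_mul_of_nonneg_left hl (show (0 : ℝ) ≤ n by linarith)
          linarith
      _ ≤ TT n := Nat.le_ceil _
  -- second term
  have t2 : 3 * 20 ^ n * (16 * ((4 : ℝ) ^ n) ^ 2 * (1 / 1000) ^ n) ≤ 1 := by
    have h1 : ((320 : ℝ) / 1000) ^ n = 20 ^ n * (4 ^ n * 4 ^ n) * (1 / 1000) ^ n := by
      rw [← mul_pow, ← mul_pow, ← mul_pow]; norm_num
    rw [h1] at hp
    calc _ = 48 * ((n : ℝ) ^ 0 * (20 ^ n * (4 ^ n * 4 ^ n) * (1 / 1000) ^ n)) := by ring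
      _ ≤ 1 := hp
  -- third term
  have t3 : 3 * 20 ^ n * (2 * ((896 * th n) ^ 2 * Real.exp
      (12 + 2 * ((aa : ℝ) * n) * ((k0 n : ℝ) / n) - (aa : ℝ) * n * (1 / 1000) ^ 2 / 8))) ≤ 1 := by
    have h1 := Num_th_sq hn
    have h2 := Num_k0 hn
    have h3 : (6 : ℝ) ≤ Real.exp 5 := by have := Real.add_one_le_exp 5; linarith
    have h4 := Num_sqrt_le hn
    calc _ = 6 * 20 ^ n * (896 * th n) ^ 2 * Real.exp
          (12 + 2 * ((aa : ℝ) * n) * ((k0 n : ℝ) / n) - (aa : ℝ) * n * (1 / 1000) ^ 2 / 8) := by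
          ring
      _ ≤ Real.exp 5 * Real.exp (n * 4) * Real.exp (4 * Real.log n) * Real.exp
          (12 + 2 * ((aa : ℝ) * n) * ((k0 n : ℝ) / n) - (aa : ℝ) * n * (1 / 1000) ^ 2 / 8) :=
          mul_le_mul_of_nonneg_right (mul_le_mul (mul_le_mul h3 h204 h20.le (Real.exp_pos _).le)
            h1 (sq_nonneg _) (by positivity)) (Real.exp_pos _).le
      _ ≤ 1 := by
          rw [← Real.exp_add, ← Real.exp_add, ← Real.exp_add, Real.exp_le_one_iff]
          rw [ha] at h2 ⊢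
          linarith
  rw [le_div_iff₀ h20]
  have u1 := mul_le_mul_of_nonneg_left t1 hT0
  have u2 := mul_le_mul_of_nonneg_left t2 (sq_nonneg (TT n : ℝ))
  have u3 := mul_le_mul_of_nonneg_left t3 (sq_nonneg (TT n : ℝ))
  generalize Real.exp ((8 + (aa : ℝ)) * (896 * th n)) = E1 at u1 ⊢
  generalize (896 * th n) ^ 2 * Real.exp
      (12 + 2 * ((aa : ℝ) * n) * ((k0 n : ℝ) / n) - (aa : ℝ) * n * (1 / 1000) ^ 2 / 8) = E3
    at u3 ⊢
  generalize ((4 : ℝ) ^ n) ^ 2 = A at u2 ⊢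
  generalize ((1 : ℝ) / 1000) ^ n = B at u2 ⊢
  generalize (20 : ℝ) ^ n = D at u1 u2 u3 ⊢
  generalize (TT n : ℝ) = T at u1 u2 u3 ⊢
  nlinarith

/-- `x ≤ exp x`-type bounds: `(8 J + 1)^n + 1 ≤ exp (n (8 J + 2))`, and `4^n n (8 J + 2) + 2 ≤ 20^n / 2`. -/
theorem ev_h : ∀ᶠ n : ℕ in atTop,
    ((((8 * JJ n + 1) ^ n + 1) ^ 4 ^ n : ℕ) : ℝ) * Real.exp (-(20 ^ n / 2)) < 1 / 3 := by
  filter_upwards [eventually_ge_atTop 1,
    Num_poly 5 (8 * (aa : ℝ) ^ 2 + 3) (r := 1 / 5) (ε := 1 / 2)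
      (by rw [abs_of_pos] <;> norm_num) (by norm_num)] with n hn hp
  have hn1 : (1 : ℝ) ≤ n := by exact_mod_cast hn
  have hJ : (JJ n : ℝ) = (aa : ℝ) ^ 2 * (n : ℝ) ^ 4 := by unfold JJ; push_cast; ring
  have hJ0 : (0 : ℝ) ≤ JJ n := Nat.cast_nonneg _
  have h1 : (8 * (JJ n : ℝ) + 1) ^ n ≤ Real.exp (n * (8 * JJ n)) :=
    Num_pow_le (by positivity) (Real.add_one_le_exp _) n
  have h2 : (8 * (JJ n : ℝ) + 1) ^ n + 1 ≤ Real.exp (n * (8 * JJ n) + 1) := by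
    have a1 : 1 ≤ Real.exp (n * (8 * (JJ n : ℝ))) := Real.one_le_exp (by positivity)
    have a2 : 2 ≤ Real.exp 1 := by have := Real.add_one_le_exp 1; linarith
    rw [Real.exp_add]
    nlinarith
  have h3 : ((8 * (JJ n : ℝ) + 1) ^ n + 1) ^ 4 ^ n ≤
      Real.exp (((4 ^ n : ℕ) : ℝ) * (n * (8 * JJ n) + 1)) := Num_pow_le (by positivity) h2 _
  have h4 : ((4 ^ n : ℕ) : ℝ) * (n * (8 * JJ n) + 1) + 2 ≤ 20 ^ n / 2 := by
    have a1 : (1 : ℝ) ≤ (n : ℝ) ^ 5 := one_le_pow₀ hn1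
    have a2 : (1 : ℝ) ≤ 4 ^ n := one_le_pow₀ (by norm_num)
    have a3 : (4 : ℝ) ^ n = (1 / 5) ^ n * 20 ^ n := by rw [← mul_pow]; norm_num
    have a4 : (1 : ℝ) ≤ 4 ^ n * (n : ℝ) ^ 5 := one_le_mul_of_one_le_of_one_le a2 a1
    have a5 : (4 : ℝ) ^ n ≤ 4 ^ n * (n : ℝ) ^ 5 := le_mul_of_one_le_right (by positivity) a1
    calc ((4 ^ n : ℕ) : ℝ) * (n * (8 * JJ n) + 1) + 2
        = 8 * (aa : ℝ) ^ 2 * (4 ^ n * (n : ℝ) ^ 5) + 4 ^ n + 2 := by rw [hJ]; push_cast; ring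
      _ ≤ (8 * (aa : ℝ) ^ 2 + 3) * (4 ^ n * (n : ℝ) ^ 5) := by linarith
      _ = (8 * (aa : ℝ) ^ 2 + 3) * ((n : ℝ) ^ 5 * (1 / 5) ^ n) * 20 ^ n := by rw [a3]; ring
      _ ≤ 1 / 2 * 20 ^ n := mul_le_mul_of_nonneg_right hp (by positivity)
      _ = 20 ^ n / 2 := by ring
  have h5 : Real.exp (-2) < 1 / 3 := by
    rw [Real.exp_neg, one_div]
    refine inv_strictAnti₀ (by norm_num) ?_
    have := Real.add_one_lt_exp (show (2 : ℝ) ≠ 0 by norm_num)
    linarith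
  push_cast at h3 h4 ⊢
  refine lt_of_le_of_lt (mul_le_mul_of_nonneg_right h3 (Real.exp_pos _).le) ?_
  rw [← Real.exp_add]
  exact lt_of_le_of_lt (Real.exp_le_exp.2 (by linarith)) h5

end
end Crest.Agent.R225B
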