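import Crest.Agent.R225B.Defs

/-! Row 225 (S0348): asymptotic inequalities between the parameters, second part. -/

set_option autoImplicit false
open Finset MeasureTheory
open scoped Classical

namespace Crest.Agent.R225B
noncomputable section

open Filter

theorem numB_log_ev (C : ℝ) : ∀ᶠ n : ℕ in atTop, C ≤ Real.log n :=
  (Real.tendsto_log_atTop.comp tendsto_natCast_atTop_atTop).eventually_ge_atTop C

/-- `C (log n + 1) ≤ √n` eventually -/
theorem numB_sqrt_ev {C : ℝ} (hC : 0 < C) : ∀ᶠ n : ℕ in atTop, C * Real.log n ≤ √n := by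
  have h := (isLittleO_log_rpow_atTop (r := 1 / 2) (by norm_num)).bound (c := 1 / C) (by positivity)
  filter_upwards [tendsto_natCast_atTop_atTop.eventually h] with n hn
  rw [← Real.sqrt_eq_rpow, Real.norm_eq_abs, Real.norm_eq_abs, abs_of_nonneg (Real.sqrt_nonneg _)] at hn
  have := le_abs_self (Real.log n)
  calc C * Real.log n ≤ C * (1 / C * √n) := by gcongr; exact this.trans hn
    _ = √n := by field_simp

theorem numB_k0 {n : ℕ} (hn : 1 ≤ Real.log n) : (k0 n : ℝ) ≤ 4 * Real.log n := by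
  have := Nat.ceil_lt_add_one (a := 3 * Real.log n) (by linarith)
  unfold k0; linarith

theorem numB_th {n : ℕ} (hn : 1 ≤ Real.log n) :
    0 ≤ 896 * th n ∧ 896 * th n ≤ Real.exp (2 * Real.log n) := by
  have hn0 : (0 : ℝ) < n := by
    rcases Nat.eq_zero_or_pos n with rfl | h
    · norm_num at hn
    · exact_mod_cast h
  have h1 : Real.log n ≤ n := (Real.log_le_sub_one_of_pos hn0).trans (by linarith)
  have e : Real.exp (2 * Real.log n) = (n : ℝ) * n := by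
    rw [two_mul, Real.exp_add, Real.exp_log hn0]
  have hc : 0 ≤ cc ∧ 896 * cc ≤ 1 := by unfold cc; rw [aa_eq]; norm_num
  rw [e]; unfold th
  refine ⟨by have := hc.1; positivity, ?_⟩
  have h2 : (n : ℝ) * Real.log n ≤ n * n := by gcongr
  have h3 : 0 ≤ (n : ℝ) * Real.log n := by positivity
  nlinarith [hc.1, hc.2]

theorem numB_TT_le (n : ℕ) : (TT n : ℝ) ≤ 2 * Real.exp (n * Real.log n / 8) := by
  have h1 := Nat.ceil_lt_add_one (a := Real.exp (n * Real.log n / 8)) (Real.exp_pos _).le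
  have h2 : 1 ≤ Real.exp (n * Real.log n / 8) :=
    Real.one_le_exp (by have := Real.log_natCast_nonneg n; positivity)
  unfold TT; linarith

theorem numB_le_TT (n : ℕ) : Real.exp (n * Real.log n / 8) ≤ TT n := Nat.le_ceil _

theorem numB_pow_le {b t : ℝ} (hb : 0 ≤ b) (h : b ≤ Real.exp t) (n : ℕ) :
    b ^ n ≤ Real.exp (n * t) := by
  rw [Real.exp_nat_mul]; gcongr

theorem numB_e3 : (20 : ℝ) ≤ Real.exp 3 := by
  have h := Real.exp_one_gt_d9
  have : Real.exp 3 = Real.exp 1 ^ 3 := by rw [← Real.exp_nat_mul]; norm_num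
  rw [this]
  calc (20 : ℝ) ≤ 2.7182818283 ^ 3 := by norm_num
    _ ≤ _ := by gcongr

theorem evB_e : ∀ᶠ n : ℕ in atTop, (TT n : ℝ) * (4 ^ n) ^ 2 * dl n ^ n ≤ 1 / 4 := by
  filter_upwards [numB_log_ev 48, eventually_ge_atTop 1] with n hl hn
  have hn1 : (1 : ℝ) ≤ n := by exact_mod_cast hn
  have h1 := numB_TT_le n
  have h2 : ((4 : ℝ) ^ n) ^ 2 ≤ Real.exp (n * 3) := by
    rw [← pow_mul, mul_comm n 2, pow_mul]
    exact numB_pow_le (by norm_num) (by linarith [numB_e3]) n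
  have h3 : dl n ^ n = Real.exp (n * -(Real.log n / 4)) := by rw [dl, Real.exp_nat_mul]
  have h4 : Real.exp (-3) * 20 ≤ 1 := by
    calc Real.exp (-3) * 20 ≤ Real.exp (-3) * Real.exp 3 := by gcongr; exact numB_e3
      _ = 1 := by rw [← Real.exp_add]; simp
  calc (TT n : ℝ) * (4 ^ n) ^ 2 * dl n ^ n ≤ 2 * Real.exp (n * Real.log n / 8) * Real.exp (n * 3) *
        Real.exp (n * -(Real.log n / 4)) := by rw [h3]; gcongr
    _ = 2 * Real.exp (n * Real.log n / 8 + n * 3 + n * -(Real.log n / 4)) := by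
        rw [Real.exp_add, Real.exp_add]; ring
    _ ≤ 2 * Real.exp (-3) := by
        gcongr
        nlinarith
    _ ≤ 1 / 4 := by linarith

theorem evB_f : ∀ᶠ n : ℕ in atTop, (896 * th n) ^ 2 *
    Real.exp (12 + 2 * ((aa : ℝ) * n) * ((k0 n : ℝ) / n) - (aa : ℝ) * n * dl n ^ 2 / 8) ≤ 1 := by
  filter_upwards [numB_log_ev 1, numB_sqrt_ev (C := 200) (by norm_num), eventually_ge_atTop 1] with
    n hl hs hn
  have hn0 : (0 : ℝ) < n := by exact_mod_cast hn
  have ha : (1 : ℝ) ≤ aa := by rw [aa_eq]; norm_num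
  obtain ⟨t0, t1⟩ := numB_th hl
  have hk := numB_k0 hl
  have e1 : 2 * ((aa : ℝ) * n) * ((k0 n : ℝ) / n) = 2 * aa * k0 n := by field_simp
  have e2 : (n : ℝ) * dl n ^ 2 = √n := by
    have : dl n ^ 2 = (√n)⁻¹ := by
      rw [dl, ← Real.exp_nat_mul, Real.sqrt_eq_rpow, Real.rpow_def_of_pos hn0, ← Real.exp_neg]
      congr 1; push_cast; ring
    rw [this]
    have h0 : 0 < √(n : ℝ) := Real.sqrt_pos.2 hn0
    field_simp
    rw [Real.sq_sqrt hn0.le]
  rw [e1, mul_assoc (aa : ℝ), e2]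
  calc _ ≤ Real.exp (2 * Real.log n) ^ 2 * Real.exp (12 + 2 * aa * k0 n - aa * √n / 8) := by gcongr
    _ = Real.exp (2 * (2 * Real.log n) + (12 + 2 * aa * k0 n - aa * √n / 8)) := by
        rw [Real.exp_add, ← Real.exp_nat_mul]; norm_num
    _ ≤ 1 := by
        rw [Real.exp_le_one_iff]
        have h1 : (aa : ℝ) * k0 n ≤ aa * (4 * Real.log n) := by gcongr
        have h2 : (aa : ℝ) * (200 * Real.log n) ≤ aa * √n := by gcongr
        have h3 : Real.log n ≤ aa * Real.log n := le_mul_of_one_le_left (by linarith) ha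
        nlinarith

theorem evB_g : ∀ᶠ n : ℕ in atTop,
    (TT n : ℝ) * Real.exp ((8 + (aa : ℝ)) * (896 * th n)) +
      2 * (8 * (TT n : ℝ) ^ 2 * (4 ^ n) ^ 2 * (1 / 1000) ^ n) +
      2 * (TT n : ℝ) ^ 2 * ((896 * th n) ^ 2 * Real.exp
        (12 + 2 * ((aa : ℝ) * n) * ((k0 n : ℝ) / n) - (aa : ℝ) * n * (1 / 1000) ^ 2 / 8)) ≤
      (TT n : ℝ) ^ 2 / 20 ^ n := by
  filter_upwards [numB_log_ev 96, numB_sqrt_ev (C := 400000000) (by norm_num),
    eventually_ge_atTop 10] with n hl hs hn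
  have hn10 : (10 : ℝ) ≤ n := by exact_mod_cast hn
  have hn0 : (0 : ℝ) < n := by linarith
  obtain ⟨t0, t1⟩ := numB_th (n := n) (by linarith)
  have hk := numB_k0 (n := n) (by linarith)
  have hT := numB_le_TT n
  have hT0 : (0 : ℝ) < TT n := (Real.exp_pos _).trans_le hT
  have h20 : (20 : ℝ) ^ n ≤ Real.exp (n * 3) := numB_pow_le (by norm_num) numB_e3 n
  have h4 : Real.exp (-3) * 20 ≤ 1 := by
    calc Real.exp (-3) * 20 ≤ Real.exp (-3) * Real.exp 3 := by gcongr; exact numB_e3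
      _ = 1 := by rw [← Real.exp_add]; simp
  have hsq : √(n : ℝ) ≤ n := by
    rw [Real.sqrt_le_left hn0.le]; nlinarith
  rw [le_div_iff₀ (by positivity), add_mul, add_mul]
  have b1 : (TT n : ℝ) * Real.exp ((8 + (aa : ℝ)) * (896 * th n)) * 20 ^ n ≤ (TT n : ℝ) ^ 2 / 3 := by
    have hnl : 0 ≤ (n : ℝ) * Real.log n := by positivity
    have e : (8 + (aa : ℝ)) * (896 * th n) ≤ n * Real.log n / 16 := by
      unfold th cc; rw [aa_eq]; push_cast; nlinarith
    have : Real.exp ((8 + (aa : ℝ)) * (896 * th n)) * 20 ^ n ≤ TT n / 3 := by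
      calc _ ≤ Real.exp (n * Real.log n / 16) * Real.exp (n * 3) := by gcongr
        _ = Real.exp (n * Real.log n / 16 + n * 3) := (Real.exp_add _ _).symm
        _ ≤ Real.exp (-3 + n * Real.log n / 8) := Real.exp_le_exp.2 (by nlinarith)
        _ = Real.exp (-3) * Real.exp (n * Real.log n / 8) := Real.exp_add _ _
        _ ≤ (1 / 3) * TT n := by gcongr; linarith
        _ = _ := by ring
    calc _ = (TT n : ℝ) * (Real.exp ((8 + (aa : ℝ)) * (896 * th n)) * 20 ^ n) := by ring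
      _ ≤ TT n * (TT n / 3) := by gcongr
      _ = _ := by ring
  have b2 : 2 * (8 * (TT n : ℝ) ^ 2 * (4 ^ n) ^ 2 * (1 / 1000) ^ n) * 20 ^ n ≤ (TT n : ℝ) ^ 2 / 3 := by
    have e : ((4 : ℝ) ^ n) ^ 2 * (1 / 1000) ^ n * 20 ^ n = (8 / 25) ^ n := by
      rw [← pow_mul, mul_comm n 2, pow_mul, ← mul_pow, ← mul_pow]; norm_num
    have h : (8 / 25 : ℝ) ^ n ≤ (8 / 25) ^ 10 := pow_le_pow_of_le_one (by norm_num) (by norm_num) hn
    calc _ = 16 * (TT n : ℝ) ^ 2 * (((4 : ℝ) ^ n) ^ 2 * (1 / 1000) ^ n * 20 ^ n) := by ring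
      _ ≤ 16 * (TT n : ℝ) ^ 2 * (8 / 25) ^ 10 := by rw [e]; gcongr
      _ ≤ _ := by have : 0 ≤ (TT n : ℝ) ^ 2 := by positivity
                  norm_num; linarith
  have b3 : 2 * (TT n : ℝ) ^ 2 * ((896 * th n) ^ 2 * Real.exp
        (12 + 2 * ((aa : ℝ) * n) * ((k0 n : ℝ) / n) - (aa : ℝ) * n * (1 / 1000) ^ 2 / 8)) * 20 ^ n ≤
      (TT n : ℝ) ^ 2 / 3 := by
    have e1 : 2 * ((aa : ℝ) * n) * ((k0 n : ℝ) / n) = 2 * aa * k0 n := by field_simp
    have : (896 * th n) ^ 2 * Real.exp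
        (12 + 2 * ((aa : ℝ) * n) * ((k0 n : ℝ) / n) - (aa : ℝ) * n * (1 / 1000) ^ 2 / 8) * 20 ^ n ≤
        Real.exp (-3) := by
      rw [e1, aa_eq]
      calc _ ≤ Real.exp (2 * Real.log n) ^ 2 * Real.exp (12 + 2 * (40000000 : ℕ) * k0 n -
            (40000000 : ℕ) * n * (1 / 1000) ^ 2 / 8) * Real.exp (n * 3) := by gcongr
        _ = Real.exp (2 * (2 * Real.log n) + (12 + 2 * (40000000 : ℕ) * k0 n -
            (40000000 : ℕ) * n * (1 / 1000) ^ 2 / 8) + n * 3) := by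
            rw [Real.exp_add, Real.exp_add, ← Real.exp_nat_mul]; norm_num
        _ ≤ _ := by
            gcongr
            push_cast
            nlinarith
    calc _ = 2 * (TT n : ℝ) ^ 2 * ((896 * th n) ^ 2 * Real.exp
        (12 + 2 * ((aa : ℝ) * n) * ((k0 n : ℝ) / n) - (aa : ℝ) * n * (1 / 1000) ^ 2 / 8) * 20 ^ n) := by
          ring
      _ ≤ 2 * (TT n : ℝ) ^ 2 * (1 / 20) := by gcongr; linarith
      _ ≤ _ := by have : 0 ≤ (TT n : ℝ) ^ 2 := by positivity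
                  linarith
  linarith

theorem evB_h : ∀ᶠ n : ℕ in atTop,
    ((((8 * JJ n + 1) ^ n + 1) ^ 4 ^ n : ℕ) : ℝ) * Real.exp (-(20 ^ n / 2)) < 1 / 3 := by
  have h5 := (isLittleO_pow_const_const_pow_of_one_lt (R := ℝ) 5 (r := 5) (by norm_num)).bound
    (c := 1 / (40 * (aa : ℝ) ^ 2)) (by rw [aa_eq]; norm_num)
  filter_upwards [h5, eventually_ge_atTop 1] with n hn h1
  have hn1 : (1 : ℝ) ≤ n := by exact_mod_cast h1
  have ha : (1 : ℝ) ≤ aa := by rw [aa_eq]; norm_num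
  rw [Real.norm_eq_abs, Real.norm_eq_abs, abs_of_nonneg (by positivity),
    abs_of_nonneg (by positivity)] at hn
  have hJ : (JJ n : ℝ) = (aa : ℝ) ^ 2 * (n : ℝ) ^ 4 := by unfold JJ; push_cast; ring
  have hJ1 : (1 : ℝ) ≤ JJ n := by
    rw [hJ]; exact one_le_mul_of_one_le_of_one_le (one_le_pow₀ ha) (one_le_pow₀ hn1)
  have hx : ((8 * JJ n + 1 : ℝ)) ^ n + 1 ≤ Real.exp (n * (10 * JJ n)) := by
    have a1 : ((8 * JJ n + 1 : ℝ)) ^ n + 1 ≤ (8 * JJ n + 1 + 1) ^ n := by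
      have := pow_add_pow_le (x := (8 * JJ n + 1 : ℝ)) (y := 1) (by positivity) zero_le_one
        (n := n) (by omega)
      rwa [one_pow] at this
    refine a1.trans (numB_pow_le (by positivity) ?_ n)
    have := Real.add_one_le_exp (10 * JJ n : ℝ)
    linarith
  have h20 : (20 : ℝ) ^ n = 4 ^ n * 5 ^ n := by rw [← mul_pow]; norm_num
  have h20' : (20 : ℝ) ≤ 20 ^ n := le_self_pow₀ (by norm_num) (by omega)
  have hb : (4 : ℝ) ^ n * (n * (10 * JJ n)) ≤ 20 ^ n / 4 := by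
    have : (n : ℝ) * (10 * JJ n) ≤ 5 ^ n / 4 := by
      rw [hJ]
      calc (n : ℝ) * (10 * ((aa : ℝ) ^ 2 * (n : ℝ) ^ 4)) = 10 * (aa : ℝ) ^ 2 * (n : ℝ) ^ 5 := by ring
        _ ≤ 10 * (aa : ℝ) ^ 2 * (1 / (40 * (aa : ℝ) ^ 2) * 5 ^ n) := by gcongr
        _ = _ := by field_simp; norm_num
    calc _ ≤ (4 : ℝ) ^ n * (5 ^ n / 4) := by gcongr
      _ = _ := by rw [h20]; ring
  have h4 : Real.exp (-3) * 20 ≤ 1 := by
    calc Real.exp (-3) * 20 ≤ Real.exp (-3) * Real.exp 3 := by gcongr; exact numB_e3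
      _ = 1 := by rw [← Real.exp_add]; simp
  push_cast
  calc _ ≤ Real.exp ((4 ^ n : ℕ) * (n * (10 * JJ n))) * Real.exp (-(20 ^ n / 2)) := by
        gcongr
        exact numB_pow_le (by positivity) hx _
    _ = Real.exp ((4 ^ n : ℕ) * (n * (10 * JJ n)) + -(20 ^ n / 2)) := (Real.exp_add _ _).symm
    _ ≤ Real.exp (-3) := by
        gcongr
        push_cast
        linarith
    _ < 1 / 3 := by linarith

end
end Crest.Agent.R225B
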