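import Crest.Agent.R225B.Win

/-! Row 225 (S0348): rounding, counting, and the admissible window. -/

set_option autoImplicit false
open Finset MeasureTheory
open scoped Classical

namespace Crest.Agent.R225B
noncomputable section

open Filter
open scoped ENNReal

variable {n : ℕ}

theorem RoundX.geo (m : ℕ) : ∑ k ∈ range m, Real.exp (1 - k) + 5 * Real.exp (-(m : ℝ)) ≤ 5 := by
  induction m with
  | zero => simp
  | succ m ih =>
    rw [Finset.sum_range_succ]
    have e1 : Real.exp (1 - (m : ℝ)) = Real.exp 1 * Real.exp (-(m : ℝ)) := by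
      rw [← Real.exp_add]; congr 1
    have e2 : Real.exp (-((m + 1 : ℕ) : ℝ)) = Real.exp (-1) * Real.exp (-(m : ℝ)) := by
      rw [← Real.exp_add]; congr 1; push_cast; ring
    have b1 := Real.exp_one_lt_d9
    have b2 := Real.exp_neg_one_lt_d9
    have p := Real.exp_pos (-(m : ℝ))
    rw [e1, e2]
    nlinarith


theorem abs_sub_rd {J : ℕ} (hJ : 0 < J) (z : V n) (i : Fin n) : |z i - rd J z i| ≤ 1 / J := by
  have hJ' : (0 : ℝ) < J := by exact_mod_cast hJ
  have h1 := Int.floor_le ((J : ℝ) * z i)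
  have h2 := Int.lt_floor_add_one ((J : ℝ) * z i)
  have e : z i - rd J z i = ((J : ℝ) * z i - ⌊(J : ℝ) * z i⌋) / J := by
    unfold rd
    field_simp
  rw [e, abs_div, abs_of_pos hJ']
  refine div_le_div_of_nonneg_right ?_ hJ'.le
  rw [abs_le]
  constructor <;> linarith

theorem rd_mem {J : ℕ} (hJ : 0 < J) {z : V n} (hz : nr z ≤ 3) : rd J z ∈ Gd n J := by
  have hJ' : (1 : ℝ) ≤ J := by exact_mod_cast hJ
  refine Finset.mem_image.2 ⟨fun i => ⌊(J : ℝ) * z i⌋, ?_, rfl⟩
  rw [Fintype.mem_piFinset]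
  intro i
  have h := abs_le.1 ((abs_le_nr z i).trans hz)
  rw [Finset.mem_Icc]
  constructor
  · rw [Int.le_floor]
    push_cast
    nlinarith
  · have h1 := Int.floor_le ((J : ℝ) * z i)
    have : (⌊(J : ℝ) * z i⌋ : ℝ) ≤ ((4 * J : ℤ) : ℝ) := by
      push_cast
      nlinarith
    exact_mod_cast this

theorem card_Gd (n J : ℕ) : (Gd n J).card ≤ (8 * J + 1) ^ n := by
  refine Finset.card_image_le.trans (le_of_eq ?_)
  rw [Fintype.card_piFinset, Finset.prod_const, Finset.card_univ, Fintype.card_fin, Int.card_Icc]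
  congr 1
  omega

/-- `∑ j ≤ M, C(Q, j) ≤ ∑ j ≤ M, C(M, j) Q^j`. -/
theorem card_small {α : Type} (G : Finset α) (M : ℕ) :
    (G.powerset.filter fun Z => Z.card ≤ M).card ≤ (G.card + 1) ^ M := by
  induction M with
  | zero =>
    rw [pow_zero, Finset.card_le_one]
    intro a ha b hb
    simp only [Finset.mem_filter, Nat.le_zero, Finset.card_eq_zero] at ha hb
    rw [ha.2, hb.2]
  | succ M ih =>
    have hsub : (G.powerset.filter fun Z => Z.card ≤ M + 1) ⊆
        (G.powerset.filter fun Z => Z.card ≤ M) ∪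
          G.biUnion fun a => (G.powerset.filter fun Z => Z.card ≤ M).image (insert a) := by
      intro Z hZ
      simp only [Finset.mem_filter, Finset.mem_powerset, Finset.mem_union, Finset.mem_biUnion,
        Finset.mem_image] at hZ ⊢
      by_cases h : Z.card ≤ M
      · exact Or.inl ⟨hZ.1, h⟩
      · obtain ⟨a, ha⟩ : Z.Nonempty := Finset.card_pos.1 (by omega)
        refine Or.inr ⟨a, hZ.1 ha, Z.erase a, ⟨(Finset.erase_subset _ _).trans hZ.1, ?_⟩,
          Finset.insert_erase ha⟩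
        rw [Finset.card_erase_of_mem ha]
        omega
    refine (Finset.card_le_card hsub).trans ((Finset.card_union_le _ _).trans ?_)
    have h2 : (G.biUnion fun a => (G.powerset.filter fun Z => Z.card ≤ M).image (insert a)).card ≤
        G.card * (G.card + 1) ^ M :=
      Finset.card_biUnion_le_card_mul _ _ _ fun a _ => Finset.card_image_le.trans ih
    rw [pow_succ]
    nlinarith

/-- `exists_win` with `K = range (k0 + 1)`, `a k = if k < k0 then 1 else exp (k0 - 1)`,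
`ρ k = 1 - k / n + 1 / n`, so `ρ k ^ n ≤ exp (1 - k)` and the right side is `≤ 2 D (1 + 5 + 1)`.
Take the image of the window under `rd J`: `nr (rd J z - z) ≤ √n / J ≤ 1 / n`, `fr_mono`,
`Finset.sum_image_le_of_nonneg`. -/
theorem adm_of_density (hn : 0 < n) (X : Set (V n))
    (hX : ∀ R : ℝ, (X ∩ {x | ∀ i, |x i| ≤ R}).Finite) {D : ℝ} (hD : 0 < D)
    (h : ENNReal.ofReal (vB n) * limsup (fun R : ℝ => ((X ∩ {x | ∀ i, |x i| ≤ R}).ncard : ℝ≥0∞) /
      ENNReal.ofReal ((2 * R) ^ n)) atTop < ENNReal.ofReal D)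
    (k0 J : ℕ) (hk : k0 ≤ n) (hJ : n ^ 2 ≤ J) (h1 : 14 * D * 3 ^ n ≤ 4 ^ n)
    (h2 : 14 * D * Real.exp (1 - k0) ≤ 1 / 8) :
    ∃ (c : V n) (Z : Finset (V n)), Z ⊆ Gd n J ∧ Adm k0 (14 * D) Z ∧
      ∀ x ∈ X, nr (x - c) ≤ 3 → rd J (x - c) ∈ Z := by
  have hn' : (0 : ℝ) < n := by exact_mod_cast hn
  have hJ0 : 0 < J := lt_of_lt_of_le (pow_pos hn 2) hJ
  have hJ' : (n : ℝ) ^ 2 ≤ J := by exact_mod_cast hJ
  set a : ℕ → ℝ := fun k => if k < k0 then 1 else Real.exp (k0 - 1) with ha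
  set ρ : ℕ → ℝ := fun k => 1 - (k : ℝ) / n + 1 / n with hρ
  have hρ0 : ∀ k ∈ range (k0 + 1), 0 ≤ ρ k := by
    intro k hk'
    have : (k : ℝ) ≤ n := by exact_mod_cast (by have := Finset.mem_range.1 hk'; omega : k ≤ n)
    have h3 : (k : ℝ) / n ≤ 1 := (div_le_one hn').2 this
    have h4 : (0 : ℝ) ≤ 1 / n := by positivity
    simp only [hρ]
    linarith
  have ha0 : ∀ k, 0 ≤ a k := fun k => by
    simp only [ha]
    split_ifs
    · exact zero_le_one
    · exact (Real.exp_pos _).le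
  have hρn : ∀ k ∈ range (k0 + 1), ρ k ^ n ≤ Real.exp (1 - k) := by
    intro k hk'
    have h3 : ρ k ≤ Real.exp ((1 - k) / n) := by
      have := Real.add_one_le_exp ((1 - (k : ℝ)) / n)
      simp only [hρ]
      rw [sub_div] at this ⊢
      linarith
    refine (pow_le_pow_left₀ (hρ0 k hk') h3 n).trans (le_of_eq ?_)
    rw [← Real.exp_nat_mul]
    congr 1
    field_simp
  obtain ⟨c, Z, hc, hZ3, hZ⟩ := exists_win hn X hX hD h (range (k0 + 1)) a ρ ha0 hρ0
  have hsum : ∑ k ∈ range (k0 + 1), a k * ρ k ^ n ≤ 6 := by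
    rw [Finset.sum_range_succ]
    have s1 : ∑ k ∈ range k0, a k * ρ k ^ n ≤ ∑ k ∈ range k0, Real.exp (1 - k) := by
      refine Finset.sum_le_sum fun k hk' => ?_
      have := Finset.mem_range.1 hk'
      simp only [ha, if_pos this, one_mul]
      exact hρn k (Finset.mem_range.2 (by omega))
    have s2 : a k0 * ρ k0 ^ n ≤ 1 := by
      simp only [ha, lt_irrefl, if_false]
      refine (mul_le_mul_of_nonneg_left (hρn k0 (Finset.self_mem_range_succ k0))
        (Real.exp_pos _).le).trans (le_of_eq ?_)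
      rw [← Real.exp_add]
      simp
    have s3 := RoundX.geo k0
    have s4 := Real.exp_pos (-(k0 : ℝ))
    linarith
  have hR : 2 * D * (1 + ∑ k ∈ range (k0 + 1), a k * ρ k ^ n) ≤ 14 * D := by nlinarith
  have hZ' := hZ.trans hR
  simp only [Finset.sum_range_succ, Finset.sum_add_distrib] at hZ'
  have e1 : ∑ z ∈ Z, ∑ k ∈ range k0, a k * fr z (ρ k) = ∑ z ∈ Z, ∑ k ∈ range k0, fr z (ρ k) :=
    Finset.sum_congr rfl fun z _ => Finset.sum_congr rfl fun k hk' => by
      simp only [ha, if_pos (Finset.mem_range.1 hk'), one_mul]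
  have e2 : ∑ z ∈ Z, a k0 * fr z (ρ k0) = Real.exp (k0 - 1) * ∑ z ∈ Z, fr z (ρ k0) := by
    rw [Finset.mul_sum]
    simp only [ha, lt_irrefl, if_false]
  rw [e1, e2] at hZ'
  have p1 : (0 : ℝ) ≤ (Z.card : ℝ) / 3 ^ n := by positivity
  have p2 : 0 ≤ ∑ z ∈ Z, ∑ k ∈ range k0, fr z (ρ k) :=
    Finset.sum_nonneg fun z _ => Finset.sum_nonneg fun k _ => fr_nonneg _ _
  have p3 : 0 ≤ ∑ z ∈ Z, fr z (ρ k0) := Finset.sum_nonneg fun z _ => fr_nonneg _ _
  have p4 : 0 ≤ Real.exp (k0 - 1) * ∑ z ∈ Z, fr z (ρ k0) := mul_nonneg (Real.exp_pos _).le p3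
  have hrd : ∀ (z : V n) (k : ℕ), fr (rd J z) (1 - (k : ℝ) / n) ≤ fr z (ρ k) := by
    intro z k
    apply fr_mono
    have t1 : nr (z - rd J z) ≤ √n * (1 / J) :=
      nr_le_of_abs (by positivity) fun i => abs_sub_rd hJ0 z i
    have t2 : √(n : ℝ) ≤ n := by
      rw [Real.sqrt_le_left hn'.le]
      have : (1 : ℝ) ≤ n := by exact_mod_cast hn
      nlinarith
    have t3 : (1 : ℝ) / J ≤ 1 / n ^ 2 := one_div_le_one_div_of_le (by positivity) hJ'
    have t4 : √(n : ℝ) * (1 / J) ≤ n * (1 / n ^ 2) :=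
      mul_le_mul t2 t3 (by positivity) hn'.le
    have t5 : (n : ℝ) * (1 / n ^ 2) = 1 / n := by field_simp
    rw [nr_sub_comm]
    simp only [hρ]
    linarith
  refine ⟨c, Z.image (rd J), ?_, ⟨?_, ?_, ?_⟩, fun x hx hx3 =>
    Finset.mem_image_of_mem _ (hc x hx hx3)⟩
  · intro w hw
    obtain ⟨z, hz, rfl⟩ := Finset.mem_image.1 hw
    exact rd_mem hJ0 (hZ3 z hz)
  · refine Finset.card_image_le.trans ?_
    have t1 : (Z.card : ℝ) / 3 ^ n ≤ 14 * D := by linarith
    rw [div_le_iff₀ (by positivity)] at t1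
    exact_mod_cast t1.trans h1
  · refine (Finset.sum_image_le_of_nonneg fun w _ =>
      Finset.sum_nonneg fun k _ => fr_nonneg _ _).trans ?_
    refine le_trans (Finset.sum_le_sum fun z _ => Finset.sum_le_sum fun k _ => hrd z k) ?_
    linarith
  · refine (Finset.sum_image_le_of_nonneg fun w _ => fr_nonneg _ _).trans ?_
    refine le_trans (Finset.sum_le_sum fun z _ => hrd z k0) ?_
    have t1 : Real.exp (k0 - 1) * ∑ z ∈ Z, fr z (ρ k0) ≤ 14 * D := by linarith
    have t2 := mul_le_mul_of_nonneg_right t1 (Real.exp_pos (1 - k0)).le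
    have t3 : Real.exp (k0 - 1) * Real.exp (1 - k0) = 1 := by
      rw [← Real.exp_add]
      simp
    have t4 : Real.exp (k0 - 1) * (∑ z ∈ Z, fr z (ρ k0)) * Real.exp (1 - k0) =
        ∑ z ∈ Z, fr z (ρ k0) := by
      rw [mul_right_comm, t3, one_mul]
    linarith

end
end Crest.Agent.R225B
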