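import Crest.Agent.R225B.Vol

/-! Row 225 (S0348): greedy choice of the test points. -/

set_option autoImplicit false
open Finset MeasureTheory
open scoped Classical

namespace Crest.Agent.R225B
noncomputable section

variable {n : ℕ}

/-- `exists_le_avg` for the sum of four families of balls (use it on a sum type, or add an analogous
lemma): centres `z ∈ Z`, radii `1 - k / n`, weight `1 / (4 G)`; centres `z`, radius `1 - k0 / n`,
weight `1`; centres `w s - z' + z` (`s < t`, `z, z' ∈ Z`), radius `δ`, weight `1`; the same centres,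
radius `β`, weight `1 / (4 T M² βⁿ)`.  The average is `≤ 1/4 + 1/8 + 1/4 + 1/4 < 1` (`fr_le`). -/
theorem test_step (hn : 0 < n) (Z : Finset (V n)) (k0 T : ℕ) {M G δ β : ℝ} (hM0 : 0 < M)
    (hM : (Z.card : ℝ) ≤ M) (hG0 : 0 < G)
    (hG : ∑ z ∈ Z, ∑ k ∈ range k0, fr z (1 - (k : ℝ) / n) ≤ G)
    (hL : ∑ z ∈ Z, fr z (1 - (k0 : ℝ) / n) ≤ 1 / 8) (hδ : 0 ≤ δ) (hβ : 0 < β)
    (hT : T * M ^ 2 * δ ^ n ≤ 1 / 4) (w : ℕ → V n) (t : ℕ) (ht : t < T) :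
    ∃ y : V n, nr y ≤ 1 ∧ ∑ k ∈ range k0, (Nk Z y (1 - (k : ℝ) / n) : ℝ) ≤ 4 * G ∧
      (∀ z ∈ Z, 1 - (k0 : ℝ) / n < nr (y - z)) ∧
      (∀ s < t, ∀ z ∈ Z, ∀ z' ∈ Z, δ < nr (y - z - (w s - z'))) ∧
      ((((range t).filter fun s => ∃ z ∈ Z, ∃ z' ∈ Z, nr (y - z - (w s - z')) ≤ β).card : ℕ) : ℝ) ≤
        4 * T * M ^ 2 * β ^ n := by
  have hT0 : (0 : ℝ) < T := by exact_mod_cast (show 0 < T by omega)
  have htT : (t : ℝ) ≤ T := by exact_mod_cast ht.le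
  obtain ⟨c, hc⟩ : ∃ c : ℝ, c = 4 * T * M ^ 2 * β ^ n := ⟨_, rfl⟩
  have hc0 : 0 < c := by rw [hc]; positivity
  obtain ⟨P, hP⟩ : ∃ P : Finset (ℕ × V n × V n), P = range t ×ˢ Z ×ˢ Z := ⟨_, rfl⟩
  have hPc : (P.card : ℝ) ≤ T * M ^ 2 := by
    rw [hP, card_product, card_product, card_range]
    push_cast
    rw [sq]
    exact mul_le_mul htT (mul_le_mul hM hM (Nat.cast_nonneg _) hM0.le) (by positivity) hT0.le
  obtain ⟨y, hy, h⟩ := exists_le_avg (n := n)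
    (ι := (V n × ℕ) ⊕ V n ⊕ (ℕ × V n × V n) ⊕ (ℕ × V n × V n))
    ((Z ×ˢ range k0).disjSum (Z.disjSum (P.disjSum P)))
    (Sum.elim (fun _ => (4 * G)⁻¹) (Sum.elim (fun _ => 1) (Sum.elim (fun _ => 1) fun _ => c⁻¹)))
    (Sum.elim (fun x => x.1) (Sum.elim id (Sum.elim (fun x => w x.1 - x.2.2 + x.2.1)
      fun x => w x.1 - x.2.2 + x.2.1)))
    (Sum.elim (fun x => 1 - (x.2 : ℝ) / n) (Sum.elim (fun _ => 1 - (k0 : ℝ) / n)
      (Sum.elim (fun _ => δ) fun _ => β)))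
  have e : ∀ x : ℕ × V n × V n, y - (w x.1 - x.2.2 + x.2.1) = y - x.2.1 - (w x.1 - x.2.2) :=
    fun x => by abel
  simp only [sum_disjSum, Sum.elim_inl, Sum.elim_inr, id, one_mul, e] at h
  have r1 : ∑ x ∈ Z ×ˢ range k0, (4 * G)⁻¹ * fr x.1 (1 - (x.2 : ℝ) / n) ≤ 1 / 4 := by
    rw [← mul_sum, sum_product]
    calc _ ≤ (4 * G)⁻¹ * G := mul_le_mul_of_nonneg_left hG (by positivity)
      _ = 1 / 4 := by field_simp
  have r3 : ∀ ρ : ℝ, 0 ≤ ρ → ∑ x ∈ P, fr (w x.1 - x.2.2 + x.2.1) ρ ≤ T * M ^ 2 * ρ ^ n := by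
    intro ρ hρ
    refine (sum_le_card_nsmul _ _ (ρ ^ n) fun x _ => fr_le hn _ hρ).trans ?_
    rw [nsmul_eq_mul]
    exact mul_le_mul_of_nonneg_right hPc (by positivity)
  have r4 : ∑ x ∈ P, c⁻¹ * fr (w x.1 - x.2.2 + x.2.1) β ≤ 1 / 4 := by
    rw [← mul_sum]
    calc _ ≤ c⁻¹ * (T * M ^ 2 * β ^ n) :=
          mul_le_mul_of_nonneg_left (r3 β hβ.le) (by positivity)
      _ = 1 / 4 := by rw [hc]; field_simp
  have r2 := r3 δ hδ
  have n1 : 0 ≤ ∑ x ∈ Z ×ˢ range k0,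
      (if nr (y - x.1) ≤ 1 - (x.2 : ℝ) / n then (4 * G)⁻¹ else 0) :=
    sum_nonneg fun _ _ => by split_ifs <;> positivity
  have n2 : ∀ x ∈ Z, 0 ≤ (if nr (y - x) ≤ 1 - (k0 : ℝ) / n then (1 : ℝ) else 0) :=
    fun _ _ => by split_ifs <;> positivity
  have n3 : ∀ x ∈ P, 0 ≤ (if nr (y - x.2.1 - (w x.1 - x.2.2)) ≤ δ then (1 : ℝ) else 0) :=
    fun _ _ => by split_ifs <;> positivity
  have n4 : 0 ≤ ∑ x ∈ P, (if nr (y - x.2.1 - (w x.1 - x.2.2)) ≤ β then c⁻¹ else 0) :=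
    sum_nonneg fun _ _ => by split_ifs <;> positivity
  have n2' := sum_nonneg n2
  have n3' := sum_nonneg n3
  refine ⟨y, hy, ?_, fun z hz => ?_, fun s hs z hz z' hz' => ?_, ?_⟩
  · have a : ∑ x ∈ Z ×ˢ range k0, (if nr (y - x.1) ≤ 1 - (x.2 : ℝ) / n then (4 * G)⁻¹ else 0) =
        (4 * G)⁻¹ * ∑ k ∈ range k0, (Nk Z y (1 - (k : ℝ) / n) : ℝ) := by
      rw [sum_product_right, mul_sum]
      refine sum_congr rfl fun k _ => ?_
      rw [← sum_filter, sum_const, nsmul_eq_mul, mul_comm]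
      rfl
    have b : (4 * G)⁻¹ * ∑ k ∈ range k0, (Nk Z y (1 - (k : ℝ) / n) : ℝ) ≤ 1 := by linarith
    rwa [inv_mul_le_iff₀ (by positivity), mul_one] at b
  · by_contra hn'
    have a := single_le_sum n2 hz
    rw [if_pos (not_lt.1 hn')] at a
    linarith
  · by_contra hn'
    have a := single_le_sum n3 (a := (s, z, z'))
      (by rw [hP]; exact mem_product.2 ⟨mem_range.2 hs, mem_product.2 ⟨hz, hz'⟩⟩)
    rw [if_pos (not_lt.1 hn')] at a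
    linarith
  · have a : ∑ x ∈ P, (if nr (y - x.2.1 - (w x.1 - x.2.2)) ≤ β then c⁻¹ else 0) =
        c⁻¹ * (P.filter fun x => nr (y - x.2.1 - (w x.1 - x.2.2)) ≤ β).card := by
      rw [← sum_filter, sum_const, nsmul_eq_mul, mul_comm]
    have b : c⁻¹ * (P.filter fun x => nr (y - x.2.1 - (w x.1 - x.2.2)) ≤ β).card ≤ 1 := by
      linarith
    rw [inv_mul_le_iff₀ hc0, mul_one, hc] at b
    refine le_trans ?_ b
    refine Nat.cast_le.2 (card_le_card_of_surjOn Prod.fst fun s hs => ?_)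
    obtain ⟨h1, z, hz, z', hz', h2⟩ := mem_filter.1 (mem_coe.1 hs)
    exact ⟨(s, z, z'), mem_coe.2 (mem_filter.2
      ⟨by rw [hP]; exact mem_product.2 ⟨h1, mem_product.2 ⟨hz, hz'⟩⟩, h2⟩), rfl⟩

/-- Build `w : ℕ → V n` by induction on `t ≤ T` with `test_step` (`Function.update`); an ordered near
pair has `q.2 < q.1` or `q.1 < q.2` (`nr_sub_comm`), each class has at most `T * 4 T M² βⁿ` members. -/
theorem exists_test (hn : 0 < n) (Z : Finset (V n)) (k0 T : ℕ) {M G δ β : ℝ} (hM0 : 0 < M)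
    (hM : (Z.card : ℝ) ≤ M) (hG0 : 0 < G)
    (hG : ∑ z ∈ Z, ∑ k ∈ range k0, fr z (1 - (k : ℝ) / n) ≤ G)
    (hL : ∑ z ∈ Z, fr z (1 - (k0 : ℝ) / n) ≤ 1 / 8) (hδ : 0 ≤ δ) (hβ : 0 < β)
    (hT : T * M ^ 2 * δ ^ n ≤ 1 / 4) :
    ∃ y : Fin T → V n, (∀ t, nr (y t) ≤ 1) ∧
      (∀ t, ∑ k ∈ range k0, (Nk Z (y t) (1 - (k : ℝ) / n) : ℝ) ≤ 4 * G) ∧
      (∀ t, ∀ z ∈ Z, 1 - (k0 : ℝ) / n < nr (y t - z)) ∧
      (∀ t t', t ≠ t' → ∀ z ∈ Z, ∀ z' ∈ Z, δ < nr (y t - z - (y t' - z'))) ∧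
      ((((univ : Finset (Fin T × Fin T)).filter fun q => q.1 ≠ q.2 ∧
        ∃ z ∈ Z, ∃ z' ∈ Z, nr (y q.1 - z - (y q.2 - z')) ≤ β).card : ℕ) : ℝ) ≤
        8 * (T : ℝ) ^ 2 * M ^ 2 * β ^ n := by
  have main : ∀ m ≤ T, ∃ w : ℕ → V n, ∀ t < m, nr (w t) ≤ 1 ∧
      ∑ k ∈ range k0, (Nk Z (w t) (1 - (k : ℝ) / n) : ℝ) ≤ 4 * G ∧
      (∀ z ∈ Z, 1 - (k0 : ℝ) / n < nr (w t - z)) ∧
      (∀ s < t, ∀ z ∈ Z, ∀ z' ∈ Z, δ < nr (w t - z - (w s - z'))) ∧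
      ((((range t).filter fun s => ∃ z ∈ Z, ∃ z' ∈ Z,
        nr (w t - z - (w s - z')) ≤ β).card : ℕ) : ℝ) ≤ 4 * T * M ^ 2 * β ^ n := by
    intro m
    induction m with
    | zero => exact fun _ => ⟨fun _ => 0, fun t ht => absurd ht (Nat.not_lt_zero t)⟩
    | succ m ih =>
      intro hm
      obtain ⟨w, hw⟩ := ih (by omega)
      obtain ⟨y, hy⟩ := test_step hn Z k0 T hM0 hM hG0 hG hL hδ hβ hT w m hm
      refine ⟨fun t => if t < m then w t else y, fun t ht => ?_⟩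
      have key : ∀ v : V n, (nr v ≤ 1 ∧
          ∑ k ∈ range k0, (Nk Z v (1 - (k : ℝ) / n) : ℝ) ≤ 4 * G ∧
          (∀ z ∈ Z, 1 - (k0 : ℝ) / n < nr (v - z)) ∧
          (∀ s < t, ∀ z ∈ Z, ∀ z' ∈ Z, δ < nr (v - z - (w s - z'))) ∧
          ((((range t).filter fun s => ∃ z ∈ Z, ∃ z' ∈ Z,
            nr (v - z - (w s - z')) ≤ β).card : ℕ) : ℝ) ≤ 4 * T * M ^ 2 * β ^ n) → (nr v ≤ 1 ∧
          ∑ k ∈ range k0, (Nk Z v (1 - (k : ℝ) / n) : ℝ) ≤ 4 * G ∧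
          (∀ z ∈ Z, 1 - (k0 : ℝ) / n < nr (v - z)) ∧
          (∀ s < t, ∀ z ∈ Z, ∀ z' ∈ Z, δ < nr (v - z - ((if s < m then w s else y) - z'))) ∧
          ((((range t).filter fun s => ∃ z ∈ Z, ∃ z' ∈ Z,
            nr (v - z - ((if s < m then w s else y) - z')) ≤ β).card : ℕ) : ℝ) ≤
            4 * T * M ^ 2 * β ^ n) := by
        rintro v ⟨a1, a2, a3, a4, a5⟩
        refine ⟨a1, a2, a3, fun s hs => ?_, le_trans (le_of_eq ?_) a5⟩
        · rw [if_pos (by omega)]; exact a4 s hs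
        · congr 2
          refine filter_congr fun s hs => ?_
          rw [if_pos (by have := mem_range.1 hs; omega)]
      by_cases htm : t < m
      · simp only [if_pos htm]
        exact key _ (hw t htm)
      · obtain rfl : t = m := by omega
        simp only [if_neg htm]
        exact key _ hy
  obtain ⟨w, hw⟩ := main T le_rfl
  refine ⟨fun t => w t, fun t => (hw t t.2).1, fun t => (hw t t.2).2.1,
    fun t => (hw t t.2).2.2.1, fun t t' htt z hz z' hz' => ?_, ?_⟩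
  · rcases lt_or_gt_of_ne (Fin.val_ne_of_ne htt) with h | h
    · rw [nr_sub_comm]
      exact (hw t' t'.2).2.2.2.1 t h z' hz' z hz
    · exact (hw t t.2).2.2.2.1 t' h z hz z' hz'
  · obtain ⟨A, hA⟩ : ∃ A : Finset (Fin T × Fin T), A = univ.filter fun q => q.2 < q.1 ∧
        ∃ z ∈ Z, ∃ z' ∈ Z, nr (w q.1 - z - (w q.2 - z')) ≤ β := ⟨_, rfl⟩
    have hA1 : (A.card : ℝ) ≤ T * (4 * T * M ^ 2 * β ^ n) := by
      rw [card_eq_sum_card_fiberwise (f := Prod.fst) (t := univ) (fun _ _ => mem_univ _)]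
      push_cast
      refine (sum_le_card_nsmul _ _ (4 * T * M ^ 2 * β ^ n) fun t _ => ?_).trans
        (by rw [card_univ, Fintype.card_fin, nsmul_eq_mul])
      refine le_trans (Nat.cast_le.2 ?_) (hw t t.2).2.2.2.2
      refine card_le_card_of_injOn (fun q => (q.2 : ℕ)) (fun q hq => ?_) fun q hq q' hq' h => ?_
      · obtain ⟨h1, rfl⟩ := mem_filter.1 (mem_coe.1 hq)
        rw [hA] at h1
        obtain ⟨h2, h3⟩ := (mem_filter.1 h1).2
        exact mem_coe.2 (mem_filter.2 ⟨mem_range.2 h2, h3⟩)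
      · exact Prod.ext ((mem_filter.1 (mem_coe.1 hq)).2.trans
          (mem_filter.1 (mem_coe.1 hq')).2.symm) (Fin.ext h)
    have hsub : ((univ : Finset (Fin T × Fin T)).filter fun q => q.1 ≠ q.2 ∧
        ∃ z ∈ Z, ∃ z' ∈ Z, nr (w q.1 - z - (w q.2 - z')) ≤ β) ⊆ A ∪ A.image Prod.swap := by
      intro q hq
      obtain ⟨h1, z, hz, z', hz', h2⟩ := (mem_filter.1 hq).2
      rcases lt_or_gt_of_ne h1 with h | h
      · refine mem_union_right _ (mem_image.2 ⟨q.swap, ?_, Prod.swap_swap q⟩)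
        rw [hA]
        exact mem_filter.2 ⟨mem_univ _, h, z', hz', z, hz, by rw [nr_sub_comm]; exact h2⟩
      · refine mem_union_left _ ?_
        rw [hA]
        exact mem_filter.2 ⟨mem_univ _, h, z, hz, z', hz', h2⟩
    have hc := (card_le_card hsub).trans ((card_union_le _ _).trans
      (Nat.add_le_add_left card_image_le _))
    calc _ ≤ ((A.card + A.card : ℕ) : ℝ) := Nat.cast_le.2 hc
      _ ≤ _ := by push_cast; linarith

end
end Crest.Agent.R225B
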