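import Crest.Agent.R225B.Cfg
import Crest.Agent.R225B.Test
import Crest.Agent.R225B.Round
import Crest.Agent.R225B.Body
import Crest.Agent.R225B.Model
import Crest.Agent.R225B.Num
import Crest.Agent.R225B.NumB

/-! Row 225 (S0348): assembly. -/

set_option autoImplicit false
open Finset MeasureTheory
open scoped Classical

namespace Crest.Agent.R225B
noncomputable section

open Filter
open scoped ENNReal

/-- the parameter inequalities -/
structure Good (n : ℕ) : Prop where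
  four : 4 ≤ n
  a : 14 * (16 * th n) * 3 ^ n ≤ 4 ^ n
  b : 14 * (16 * th n) * Real.exp (1 - k0 n) ≤ 1 / 8
  c : 2 * k0 n ≤ n
  d : dl n ≤ 1 / 1000
  e : (TT n : ℝ) * (4 ^ n) ^ 2 * dl n ^ n ≤ 1 / 4
  f : (896 * th n) ^ 2 *
    Real.exp (12 + 2 * ((aa : ℝ) * n) * ((k0 n : ℝ) / n) - (aa : ℝ) * n * dl n ^ 2 / 8) ≤ 1
  g : (TT n : ℝ) * Real.exp ((8 + (aa : ℝ)) * (896 * th n)) +
      2 * (8 * (TT n : ℝ) ^ 2 * (4 ^ n) ^ 2 * (1 / 1000) ^ n) +
      2 * (TT n : ℝ) ^ 2 * ((896 * th n) ^ 2 * Real.exp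
        (12 + 2 * ((aa : ℝ) * n) * ((k0 n : ℝ) / n) - (aa : ℝ) * n * (1 / 1000) ^ 2 / 8)) ≤
      (TT n : ℝ) ^ 2 / 20 ^ n
  h : ((((8 * JJ n + 1) ^ n + 1) ^ 4 ^ n : ℕ) : ℝ) * Real.exp (-(20 ^ n / 2)) < 1 / 3

theorem ev_good : ∀ᶠ n : ℕ in atTop, Good n := by
  filter_upwards [eventually_ge_atTop 4, ev_a, ev_b, ev_c, ev_d, evB_e, evB_f, evB_g, evB_h] with
    n h4 ha hb hc hd he hf hg hh
  exact ⟨h4, ha, hb, hc, hd, he, hf, hg, hh⟩

variable {n : ℕ} {Ω : Type} [Fintype Ω] [DecidableEq Ω] {v : Ω → V n} {τ p : Ω → ℝ}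

theorem TT_pos (n : ℕ) : 0 < TT n := Nat.ceil_pos.2 (Real.exp_pos _)

theorem adm_bound (hg : Good n) (hM : Md ((aa : ℝ) * n) v τ p) {Z : Finset (V n)}
    (hZ : Adm (k0 n) (14 * (16 * th n)) Z) :
    pr p (fun ω => ∀ y : V n, nr y ≤ 1 → ∃ z ∈ Z, y - z ∈ body v τ ω) ≤
      Real.exp (-(20 ^ n / 2)) := by
  have hn : 0 < n := by have := hg.four; omega
  have hnR : (0 : ℝ) < n := by exact_mod_cast hn
  have hth : 0 < th n := th_pos (by have := hg.four; omega)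
  have hT : (0 : ℝ) < TT n := by exact_mod_cast TT_pos n
  have hdl : 0 ≤ dl n := (Real.exp_pos _).le
  obtain ⟨y, hy1, hy2, hy3, hy4, hy5⟩ := exists_test hn Z (k0 n) (TT n) (M := 4 ^ n)
    (G := 14 * (16 * th n)) (δ := dl n) (β := 1 / 1000) (by positivity)
    (by exact_mod_cast hZ.1) (by positivity) hZ.2.1 hZ.2.2 hdl (by norm_num) hg.e
  have haa : (0 : ℝ) ≤ aa := Nat.cast_nonneg _
  have hη : (k0 n : ℝ) / n ≤ 1 / 2 := by
    rw [div_le_iff₀ hnR]
    have : ((2 * k0 n : ℕ) : ℝ) ≤ n := by exact_mod_cast hg.c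
    push_cast at this
    linarith
  have key := cfg_bound (by positivity) hM Z y (N := 896 * th n)
    (E := (8 + (aa : ℝ)) * (896 * th n)) (η := (k0 n : ℝ) / n) (δ := dl n) (β := 1 / 1000)
    (Pn := 8 * (TT n : ℝ) ^ 2 * (4 ^ n) ^ 2 * (1 / 1000) ^ n) (Δ := (TT n : ℝ) ^ 2 / 20 ^ n)
    hη hdl hg.d
    (fun t => by
      have := (energy_le hn Z (y t) (k0 n) haa (hy3 t)).1
      have := hy2 t
      linarith)
    (fun t => by
      have h1 := (energy_le hn Z (y t) (k0 n) haa (hy3 t)).2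
      have h2 := hy2 t
      refine h1.trans (mul_le_mul_of_nonneg_left (by linarith) (by positivity)))
    hy3 hy4 hy5 hg.f (by positivity) hg.g
  have e : (TT n : ℝ) ^ 2 / (2 * ((TT n : ℝ) ^ 2 / 20 ^ n)) = 20 ^ n / 2 := by
    field_simp
  rw [e] at key
  exact (pr_mono (fun a => (hM.pos a).le) hM.le fun ω h t => h (y t) (hy1 t)).trans key

theorem exists_body (hg : Good n) (hM : Md ((aa : ℝ) * n) v τ p) :
    ∃ ω : Finset Ω, vB n ≤ 4 * (volume (body v τ ω)).toReal ∧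
      ∀ Z : Finset (V n), Z ⊆ Gd n (JJ n) → Adm (k0 n) (14 * (16 * th n)) Z →
        ¬ ∀ y : V n, nr y ≤ 1 → ∃ z ∈ Z, y - z ∈ body v τ ω := by
  set I := ((Gd n (JJ n)).powerset.filter fun Z => Z.card ≤ 4 ^ n).filter
    (Adm (k0 n) (14 * (16 * th n))) with hI
  have hcard : I.card ≤ ((8 * JJ n + 1) ^ n + 1) ^ 4 ^ n :=
    (card_filter_le _ _).trans ((card_small _ _).trans
      (Nat.pow_le_pow_left (Nat.succ_le_succ (card_Gd n (JJ n))) _))
  obtain ⟨ω, h0, h1⟩ := exists_avoid (fun a => (hM.pos a).le) hM.le I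
    (fun ω => 4 * (volume (body v τ ω)).toReal < vB n)
    (fun Z ω => ∀ y : V n, nr y ≤ 1 → ∃ z ∈ Z, y - z ∈ body v τ ω) (by
      have b1 := body_vol hM
      have b2 : ∑ Z ∈ I, pr p (fun ω => ∀ y : V n, nr y ≤ 1 → ∃ z ∈ Z, y - z ∈ body v τ ω) ≤
          I.card * Real.exp (-(20 ^ n / 2)) := by
        rw [← nsmul_eq_mul]
        exact sum_le_card_nsmul _ _ _ fun Z hZ => adm_bound hg hM (mem_filter.1 hZ).2
      have b3 : (I.card : ℝ) * Real.exp (-(20 ^ n / 2)) ≤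
          ((((8 * JJ n + 1) ^ n + 1) ^ 4 ^ n : ℕ) : ℝ) * Real.exp (-(20 ^ n / 2)) :=
        mul_le_mul_of_nonneg_right (by exact_mod_cast hcard) (Real.exp_pos _).le
      have := hg.h
      linarith)
  refine ⟨ω, not_lt.1 h0, fun Z hZ hA => h1 Z ?_⟩
  simp only [hI, mem_filter, mem_powerset]
  exact ⟨⟨hZ, hA.1⟩, hA⟩

theorem main (hg : Good n) :
    ∃ K : Set (V n), IsCompact K ∧ Convex ℝ K ∧ (interior K).Nonempty ∧ (∀ x ∈ K, -x ∈ K) ∧
      ∀ X : Set (V n), (∀ R : ℝ, (X ∩ {x | ∀ i, |x i| ≤ R}).Finite) →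
        (∀ y : V n, ∃ x ∈ X, y - x ∈ K) →
        ENNReal.ofReal (th n) ≤
          volume K * limsup (fun R : ℝ => ((X ∩ {x | ∀ i, |x i| ≤ R}).ncard : ℝ≥0∞) /
            ENNReal.ofReal ((2 * R) ^ n)) atTop := by
  have h4 := hg.four
  have hn : 0 < n := by omega
  have hnR : (0 : ℝ) < n := by exact_mod_cast hn
  have hth : 0 < th n := th_pos (by omega)
  have haa : 32 ≤ aa := by rw [aa_eq]; norm_num
  obtain ⟨Ω, _, _, v, τ, p, hM⟩ := exists_md n (aa * n) (haa.trans (Nat.le_mul_of_pos_right _ hn))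
  rw [Nat.cast_mul] at hM
  have hr : (1 : ℝ) ≤ (aa : ℝ) * n := by
    have : 1 ≤ aa * n := Nat.one_le_iff_ne_zero.2 (Nat.mul_ne_zero (by omega) (by omega))
    exact_mod_cast this
  obtain ⟨ω, hvol, hω⟩ := exists_body hg hM
  obtain ⟨K, k1, k2, k3, k4, k5, k6, k7⟩ := shrink h4 hr hM ω
  refine ⟨K, k1, k2, k3, k4, fun X hX hcov => ?_⟩
  by_contra hlt
  rw [not_le] at hlt
  set L := limsup (fun R : ℝ => ((X ∩ {x | ∀ i, |x i| ≤ R}).ncard : ℝ≥0∞) /
            ENNReal.ofReal ((2 * R) ^ n)) atTop with hL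
  have hb : ENNReal.ofReal (vB n) ≤ 16 * volume K := by
    calc ENNReal.ofReal (vB n) ≤ ENNReal.ofReal (4 * (volume (body v τ ω)).toReal) :=
          ENNReal.ofReal_le_ofReal hvol
      _ = 4 * volume (body v τ ω) := by
          rw [ENNReal.ofReal_mul (by norm_num),
            ENNReal.ofReal_toReal (body_compact v τ ω).measure_lt_top.ne]
          norm_num
      _ ≤ 4 * (4 * volume K) := by gcongr
      _ = 16 * volume K := by rw [← mul_assoc]; norm_num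
  have hD : ENNReal.ofReal (vB n) * L < ENNReal.ofReal (16 * th n) := by
    calc ENNReal.ofReal (vB n) * L ≤ 16 * volume K * L := by gcongr
      _ = 16 * (volume K * L) := mul_assoc _ _ _
      _ < 16 * ENNReal.ofReal (th n) :=
          (ENNReal.mul_lt_mul_iff_right (by norm_num) (by norm_num)).2 hlt
      _ = ENNReal.ofReal (16 * th n) := by
          rw [ENNReal.ofReal_mul (by norm_num)]; norm_num
  have hJ : n ^ 2 ≤ JJ n := by
    unfold JJ
    calc n ^ 2 ≤ n ^ 4 := Nat.pow_le_pow_right hn (by norm_num)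
      _ ≤ aa ^ 2 * n ^ 4 := Nat.le_mul_of_pos_left _ (by positivity)
  have hJ0 : 0 < JJ n := lt_of_lt_of_le (by positivity) hJ
  obtain ⟨c, Z, hZ1, hZ2, hZ3⟩ := adm_of_density hn X hX (by positivity) hD (k0 n) (JJ n)
    (by have := hg.c; omega) hJ hg.a hg.b
  refine hω Z hZ1 hZ2 fun y hy => ?_
  obtain ⟨x, hx, hxK⟩ := hcov (y + c)
  have hxc : nr (x - c) ≤ 3 := by
    have e : x - c = y + -(y + c - x) := by abel
    have := nr_add_le y (-(y + c - x))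
    rw [← e, nr_neg] at this
    have := k5 _ hxK
    linarith
  refine ⟨rd (JJ n) (x - c), hZ3 x hx hxc, ?_⟩
  have e : y - rd (JJ n) (x - c) = (y + c - x) + ((x - c) - rd (JJ n) (x - c)) := by abel
  rw [e]
  refine k7 _ hxK _ fun i => ?_
  have := abs_sub_rd hJ0 (x - c) i
  have e2 : ((JJ n : ℕ) : ℝ) = (n : ℝ) ^ 2 * ((aa : ℝ) * n) ^ 2 := by
    unfold JJ; push_cast; ring
  rw [e2] at this
  simpa using this

end
end Crest.Agent.R225B
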