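import Crest.Agent.R225B.Geo

/-! Row 225 (S0348): moment generating function of the normal vectors. -/

set_option autoImplicit false
open Finset MeasureTheory
open scoped Classical

namespace Crest.Agent.R225B
noncomputable section

variable {n r : ℕ}

theorem vv_l1 (hr : 0 < r) (σ : Fin n × Fin (r ^ 3) → Bool) :
    ∑ i, |vv n r σ i| ≤ n * (r : ℝ) ^ 2 := by
  have hr' : (0 : ℝ) < r := by exact_mod_cast hr
  have h : ∀ i, |vv n r σ i| ≤ (r : ℝ) ^ 2 := by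
    intro i
    unfold vv
    rw [abs_div, abs_of_pos hr', div_le_iff₀ hr']
    refine (abs_sum_le_sum_abs _ _).trans ?_
    calc ∑ k : Fin (r ^ 3), |(if σ (i, k) then (1 : ℝ) else -1)|
        ≤ ∑ _k : Fin (r ^ 3), (1 : ℝ) := sum_le_sum fun k _ => by split_ifs <;> simp
      _ = (r : ℝ) ^ 2 * r := by simp; ring
  calc ∑ i, |vv n r σ i| ≤ ∑ _i : Fin n, (r : ℝ) ^ 2 := sum_le_sum fun i _ => h i
    _ = n * (r : ℝ) ^ 2 := by simp

/-- `exp (ip (vv σ) z) = ∏ (i, k), exp (± z i / r)`; `Finset.prod_univ_sum` (`Fintype.piFinset_univ`). -/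
theorem mgf_eq (z : V n) :
    ∑ σ : Fin n × Fin (r ^ 3) → Bool, (1 / 2 : ℝ) ^ (n * r ^ 3) * Real.exp (ip (vv n r σ) z) =
      ∏ i, Real.cosh (z i / r) ^ (r ^ 3) := by
  have h1 : ∀ σ : Fin n × Fin (r ^ 3) → Bool,
      (1 / 2 : ℝ) ^ (n * r ^ 3) * Real.exp (ip (vv n r σ) z) =
        ∏ x : Fin n × Fin (r ^ 3),
          (1 / 2 : ℝ) * Real.exp ((if σ x then (1 : ℝ) else -1) * (z x.1 / r)) := by
    intro σ
    rw [prod_mul_distrib, ← Real.exp_sum]
    congr 1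
    · simp
    · congr 1
      unfold ip vv
      rw [Fintype.sum_prod_type]
      refine sum_congr rfl fun i _ => ?_
      simp only
      rw [← sum_mul]
      ring
  simp_rw [h1]
  have h2 := Finset.prod_univ_sum (fun _ : Fin n × Fin (r ^ 3) => (univ : Finset Bool))
    (fun x b => (1 / 2 : ℝ) * Real.exp ((if b then (1 : ℝ) else -1) * (z x.1 / r)))
  rw [Fintype.piFinset_univ] at h2
  rw [← h2, Fintype.prod_prod_type]
  refine prod_congr rfl fun i _ => ?_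
  have h3 : (∑ b : Bool, (1 / 2 : ℝ) * Real.exp ((if b then (1 : ℝ) else -1) * (z i / r))) =
      Real.cosh (z i / r) := by
    rw [Real.cosh_eq]
    simp
    ring
  simp only [h3]
  simp

/-- `Real.cosh_le_exp_half_sq` -/
theorem mgf_up (hr : 0 < r) (z : V n) :
    ∑ σ : Fin n × Fin (r ^ 3) → Bool, (1 / 2 : ℝ) ^ (n * r ^ 3) * Real.exp (ip (vv n r σ) z) ≤
      Real.exp (r * nr z ^ 2 / 2) := by
  have hr' : (0 : ℝ) < r := by exact_mod_cast hr
  rw [mgf_eq, nr_sq, mul_sum, sum_div, Real.exp_sum]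
  refine prod_le_prod (fun i _ => pow_nonneg (Real.cosh_pos _).le _) fun i _ => ?_
  calc Real.cosh (z i / r) ^ (r ^ 3) ≤ Real.exp ((z i / r) ^ 2 / 2) ^ (r ^ 3) :=
        pow_le_pow_left₀ (Real.cosh_pos _).le (Real.cosh_le_exp_half_sq _) _
    _ = Real.exp (r * z i ^ 2 / 2) := by
        rw [← Real.exp_nat_mul]
        congr 1
        push_cast
        field_simp

theorem Mgf_cosh_ge (x : ℝ) : 1 + x ^ 2 / 2 ≤ Real.cosh x := by
  have h1 : Real.cosh x = 1 + 2 * Real.sinh (x / 2) ^ 2 := by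
    have := Real.cosh_two_mul (x / 2)
    rw [show 2 * (x / 2) = x by ring] at this
    rw [this, Real.cosh_sq]
    ring
  have h2 : (x / 2) ^ 2 ≤ Real.sinh (x / 2) ^ 2 := by
    rw [← sq_abs (x / 2), ← sq_abs (Real.sinh _), Real.abs_sinh]
    exact pow_le_pow_left₀ (abs_nonneg _) (Real.self_le_sinh_iff.2 (abs_nonneg _)) 2
  rw [h1]
  nlinarith

theorem Mgf_exp_le {t : ℝ} (ht : 0 ≤ t) : Real.exp (t - t ^ 2) ≤ 1 + t := by
  have h1 : 1 - t + t ^ 2 ≤ Real.exp (-(t - t ^ 2)) := by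
    have := Real.add_one_le_exp (-(t - t ^ 2))
    linarith
  have h2 : 0 < 1 - t + t ^ 2 := by nlinarith [sq_nonneg (t - 1 / 2)]
  have h3 : Real.exp (t - t ^ 2) * Real.exp (-(t - t ^ 2)) = 1 := by
    rw [← Real.exp_add]; simp
  have h4 := Real.exp_pos (t - t ^ 2)
  have h5 : Real.exp (t - t ^ 2) * (1 - t + t ^ 2) ≤ 1 :=
    (mul_le_mul_of_nonneg_left h1 h4.le).trans h3.le
  have h6 : 1 ≤ (1 + t) * (1 - t + t ^ 2) := by
    have : (1 + t) * (1 - t + t ^ 2) = 1 + t ^ 3 := by ring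
    rw [this]
    have := pow_nonneg ht 3
    linarith
  exact le_of_mul_le_mul_right (h5.trans h6) h2

/-- `cosh x = 1 + 2 sinh (x/2)² ≥ 1 + t`, `t = x²/2`, and `exp (t - t²) ≤ 1 / (1 - t + t²) ≤ 1 + t`;
`∑ z i ^ 4 ≤ ∑ z i ^ 2 ≤ 1`. -/
theorem mgf_lo (hr : 0 < r) (z : V n) (hz : nr z ≤ 1) :
    Real.exp (r * nr z ^ 2 / 2 - 1) ≤
      ∑ σ : Fin n × Fin (r ^ 3) → Bool, (1 / 2 : ℝ) ^ (n * r ^ 3) * Real.exp (ip (vv n r σ) z) := by
  have hr' : (0 : ℝ) < r := by exact_mod_cast hr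
  have hr1 : (1 : ℝ) ≤ r := by exact_mod_cast hr
  have hs : ∑ i, z i ^ 2 ≤ 1 := by
    rw [← nr_sq]
    exact pow_le_one₀ (nr_nonneg z) hz
  rw [mgf_eq]
  calc Real.exp (r * nr z ^ 2 / 2 - 1) ≤ Real.exp (∑ i, (r * z i ^ 2 / 2 - z i ^ 2)) := by
        rw [Real.exp_le_exp, sum_sub_distrib, nr_sq, mul_sum, sum_div]
        linarith
    _ = ∏ i, Real.exp (r * z i ^ 2 / 2 - z i ^ 2) := Real.exp_sum _ _
    _ ≤ ∏ i, Real.cosh (z i / r) ^ (r ^ 3) := by
        refine prod_le_prod (fun i _ => (Real.exp_pos _).le) fun i _ => ?_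
        have hi : z i ^ 2 ≤ 1 := by
          rw [← sq_abs]
          exact pow_le_one₀ (abs_nonneg _) ((abs_le_nr z i).trans hz)
        have ht : 0 ≤ (z i / r) ^ 2 / 2 := by positivity
        have h1 : Real.exp ((z i / r) ^ 2 / 2 - ((z i / r) ^ 2 / 2) ^ 2) ≤ Real.cosh (z i / r) :=
          (Mgf_exp_le ht).trans (Mgf_cosh_ge _)
        refine le_trans ?_ (pow_le_pow_left₀ (Real.exp_pos _).le h1 _)
        rw [← Real.exp_nat_mul, Real.exp_le_exp]
        have h2 : ((r ^ 3 : ℕ) : ℝ) * ((z i / r) ^ 2 / 2 - ((z i / r) ^ 2 / 2) ^ 2) =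
            r * z i ^ 2 / 2 - z i ^ 2 * (z i ^ 2 / (4 * r)) := by
          push_cast
          field_simp
          ring
        have h3 : z i ^ 2 / (4 * r) ≤ 1 := by
          rw [div_le_one (by positivity)]
          linarith
        rw [h2]
        have := mul_le_mul_of_nonneg_left h3 (sq_nonneg (z i))
        linarith

end
end Crest.Agent.R225B
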