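import Crest.Agent.R225B.Geo

/-! Row 225 (S0348): volumes of balls and the averaging lemma. -/

set_option autoImplicit false
open Finset MeasureTheory
open scoped Classical

namespace Crest.Agent.R225B
noncomputable section

variable {n : ℕ}

open scoped Pointwise in
theorem Vol_Bl_eq (w : V n) {ρ : ℝ} (hρ : 0 ≤ ρ) :
    Bl w ρ = (fun y => y + -w) ⁻¹' (ρ • Bl (0 : V n) 1) := by
  ext y
  rw [Set.mem_preimage, mem_Bl, ← sub_eq_add_neg, Set.mem_smul_set]
  constructor
  · intro h
    rcases hρ.eq_or_lt with h0 | h0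
    · refine ⟨0, mem_B.2 (by rw [nr_zero]; exact zero_le_one), ?_⟩
      funext i
      have h1 := abs_le_nr (y - w) i
      have h2 : |(y - w) i| ≤ 0 := by linarith
      rw [smul_zero, abs_nonpos_iff.1 h2]
      rfl
    · refine ⟨ρ⁻¹ • (y - w), mem_B.2 ?_, by rw [smul_smul, mul_inv_cancel₀ h0.ne', one_smul]⟩
      rw [nr_smul, abs_of_pos (inv_pos.2 h0), inv_mul_le_iff₀ h0, mul_one]
      exact h
  · rintro ⟨u, hu, he⟩
    rw [← he, nr_smul, abs_of_nonneg hρ]
    exact mul_le_of_le_one_right hρ (mem_B.1 hu)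

/-- `Bl w ρ = w + ρ • Bl 0 1` for `ρ > 0` (`Measure.addHaar_smul_of_nonneg`, `measure_preimage_add`);
`Bl w 0 = {w}` (which is null for `n > 0`). -/
theorem vol_Bl (hn : 0 < n) (w : V n) {ρ : ℝ} (hρ : 0 ≤ ρ) :
    volume (Bl w ρ) = ENNReal.ofReal (ρ ^ n * vB n) := by
  have _ := hn
  rw [Vol_Bl_eq w hρ, measure_preimage_add_right, Measure.addHaar_smul_of_nonneg _ hρ, vol_B_eq,
    ENNReal.ofReal_mul (pow_nonneg hρ _)]
  simp

theorem Vol_ne_top (w : V n) (ρ : ℝ) : volume (Bl (0 : V n) 1 ∩ Bl w ρ) ≠ ⊤ :=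
  ne_top_of_le_ne_top vol_B_ne_top (measure_mono Set.inter_subset_left)

theorem fr_le (hn : 0 < n) (w : V n) {ρ : ℝ} (hρ : 0 ≤ ρ) : fr w ρ ≤ ρ ^ n := by
  rw [fr, div_le_iff₀ (vB_pos n)]
  refine ENNReal.toReal_le_of_le_ofReal (mul_nonneg (pow_nonneg hρ _) (vB_pos n).le) ?_
  rw [← vol_Bl hn w hρ]
  exact measure_mono Set.inter_subset_right

theorem fr_mono {w w' : V n} {ρ ρ' : ℝ} (h : nr (w - w') + ρ ≤ ρ') : fr w ρ ≤ fr w' ρ' := by
  refine div_le_div_of_nonneg_right (ENNReal.toReal_mono (Vol_ne_top _ _) (measure_mono ?_))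
    (vB_pos n).le
  refine Set.inter_subset_inter_right _ fun y hy => ?_
  rw [mem_Bl] at hy ⊢
  have h1 := nr_add_le (y - w) (w - w')
  rw [sub_add_sub_cancel] at h1
  linarith

/-- `exists_le_setAverage` on the unit ball; the integral of an indicator is a volume. -/
theorem exists_le_avg {ι : Type} (I : Finset ι) (a : ι → ℝ) (w : ι → V n) (ρ : ι → ℝ) :
    ∃ y : V n, nr y ≤ 1 ∧
      ∑ i ∈ I, (if nr (y - w i) ≤ ρ i then a i else 0) ≤ ∑ i ∈ I, a i * fr (w i) (ρ i) := by
  have hind : ∀ i, (fun y : V n => if nr (y - w i) ≤ ρ i then a i else 0) =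
      (Bl (w i) (ρ i)).indicator fun _ => a i := by
    intro i
    funext y
    by_cases h : nr (y - w i) ≤ ρ i
    · rw [if_pos h, Set.indicator_of_mem (mem_Bl.2 h)]
    · rw [if_neg h, Set.indicator_of_notMem (fun h' => h (mem_Bl.1 h'))]
  have hint : ∀ i, IntegrableOn (fun y : V n => if nr (y - w i) ≤ ρ i then a i else 0)
      (Bl (0 : V n) 1) := by
    intro i
    rw [hind i]
    exact (integrableOn_const vol_B_ne_top).indicator (measurableSet_Bl _ _)
  obtain ⟨y, hy, hle⟩ := exists_le_setAverage (μ := volume) (s := Bl (0 : V n) 1)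
    (f := fun y : V n => ∑ i ∈ I, (if nr (y - w i) ≤ ρ i then a i else 0)) vol_B_pos.ne'
    vol_B_ne_top (integrable_finset_sum I fun i _ => hint i)
  refine ⟨y, mem_B.1 hy, hle.trans_eq ?_⟩
  rw [setAverage_eq, integral_finset_sum I fun i _ => hint i, smul_eq_mul, mul_sum]
  refine sum_congr rfl fun i _ => ?_
  rw [hind i, setIntegral_indicator (measurableSet_Bl _ _), setIntegral_const, smul_eq_mul, fr]
  simp only [Measure.real, vB]
  ring

/-- Fubini: `∫ vol (B ∩ Bl (x - c) ρ) dc = ∫_{y ∈ B} vol {c | nr (y - x + c) ≤ ρ} dy`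
(`measurable_measure_prodMk_left`, `lintegral_lintegral_swap`). -/
theorem integral_fr (hn : 0 < n) (x : V n) {ρ : ℝ} (hρ : 0 ≤ ρ) :
    Integrable (fun c : V n => fr (x - c) ρ) ∧ ∫ c : V n, fr (x - c) ρ = ρ ^ n * vB n := by
  set S : Set (V n × V n) := {p | nr p.2 ≤ 1} ∩ {p | nr (p.2 - (x - p.1)) ≤ ρ} with hS
  have hSm : MeasurableSet S :=
    ((isClosed_le (continuous_nr.comp continuous_snd) continuous_const).inter
      (isClosed_le (continuous_nr.comp (by fun_prop)) continuous_const)).measurableSet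
  have h1 : ∀ c : V n, Prod.mk c ⁻¹' S = Bl (0 : V n) 1 ∩ Bl (x - c) ρ := by
    intro c
    ext y
    simp only [hS, Set.mem_preimage, Set.mem_inter_iff, Set.mem_setOf_eq, mem_B, mem_Bl, sub_zero]
  have h2 : ∀ y : V n, volume ((fun c : V n => (c, y)) ⁻¹' S) =
      (Bl (0 : V n) 1).indicator (fun _ => ENNReal.ofReal (ρ ^ n * vB n)) y := by
    intro y
    by_cases hy : y ∈ Bl (0 : V n) 1
    · rw [Set.indicator_of_mem hy, ← vol_Bl hn (x - y) hρ]
      congr 1
      ext c
      have he : y - (x - c) = c - (x - y) := by abel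
      simp only [hS, Set.mem_preimage, Set.mem_inter_iff, Set.mem_setOf_eq, mem_Bl, he]
      exact and_iff_right (mem_B.1 hy)
    · rw [Set.indicator_of_notMem hy]
      have : (fun c : V n => (c, y)) ⁻¹' S = ∅ := by
        ext c
        simp only [hS, Set.mem_preimage, Set.mem_inter_iff, Set.mem_setOf_eq, Set.mem_empty_iff_false,
          iff_false, not_and]
        exact fun h => absurd (mem_B.2 h) hy
      rw [this, measure_empty]
  have hm : Measurable fun c : V n => volume (Bl (0 : V n) 1 ∩ Bl (x - c) ρ) := by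
    have := measurable_measure_prodMk_left (ν := (volume : Measure (V n))) hSm
    simpa only [h1] using this
  have hl : ∫⁻ c : V n, volume (Bl (0 : V n) 1 ∩ Bl (x - c) ρ) =
      ENNReal.ofReal (ρ ^ n * vB n * vB n) := by
    have e1 := Measure.prod_apply (μ := (volume : Measure (V n))) (ν := (volume : Measure (V n))) hSm
    have e2 := Measure.prod_apply_symm (μ := (volume : Measure (V n)))
      (ν := (volume : Measure (V n))) hSm
    simp only [h1] at e1
    simp only [h2] at e2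
    rw [← e1, e2, lintegral_indicator_const (measurableSet_Bl _ _), vol_B_eq,
      ← ENNReal.ofReal_mul (mul_nonneg (pow_nonneg hρ _) (vB_pos n).le)]
  have hI : Integrable fun c : V n => (volume (Bl (0 : V n) 1 ∩ Bl (x - c) ρ)).toReal :=
    integrable_toReal_of_lintegral_ne_top hm.aemeasurable (by rw [hl]; exact ENNReal.ofReal_ne_top)
  refine ⟨hI.div_const (vB n), ?_⟩
  simp only [fr]
  rw [integral_div, integral_toReal hm.aemeasurable
    (Filter.Eventually.of_forall fun c => (Vol_ne_top _ _).lt_top), hl, ENNReal.toReal_ofReal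
    (mul_nonneg (mul_nonneg (pow_nonneg hρ _) (vB_pos n).le) (vB_pos n).le),
    mul_div_cancel_right₀ _ (vB_pos n).ne']

end
end Crest.Agent.R225B
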