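import Crest.Agent.R225B.Vol

/-! Row 225 (S0348): a set of small upper density has a window of small weight. -/

set_option autoImplicit false
open Finset MeasureTheory
open scoped Classical

namespace Crest.Agent.R225B
noncomputable section

open Filter
open scoped ENNReal

variable {n : ℕ}

/-- `Filter.eventually_lt_of_limsup_lt`, and `(R / (R - 3))^n → 1`. -/
theorem exists_cube (X : Set (V n)) {D : ℝ} (hD : 0 < D)
    (h : ENNReal.ofReal (vB n) * limsup (fun R : ℝ => ((X ∩ {x | ∀ i, |x i| ≤ R}).ncard : ℝ≥0∞) /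
      ENNReal.ofReal ((2 * R) ^ n)) atTop < ENNReal.ofReal D) :
    ∃ R : ℝ, 3 < R ∧ ((X ∩ {x | ∀ i, |x i| ≤ R}).ncard : ℝ) * vB n ≤ 2 * D * (2 * (R - 3)) ^ n := by
  have hv := vB_pos n
  have h1 : limsup (fun R : ℝ => ((X ∩ {x | ∀ i, |x i| ≤ R}).ncard : ℝ≥0∞) /
      ENNReal.ofReal ((2 * R) ^ n)) atTop < ENNReal.ofReal (D / vB n) := by
    rw [ENNReal.ofReal_div_of_pos hv, ENNReal.lt_div_iff_mul_lt
      (Or.inl (ENNReal.ofReal_pos.2 hv).ne') (Or.inl ENNReal.ofReal_ne_top), mul_comm]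
    exact h
  obtain ⟨R, h2, h3⟩ := ((eventually_lt_of_limsup_lt h1).and
    (eventually_ge_atTop (6 * (n : ℝ) + 6))).exists
  have hn : (0 : ℝ) ≤ n := Nat.cast_nonneg n
  have hR : 0 < R := by linarith
  have hp : 0 < (2 * R) ^ n := by positivity
  rw [← ENNReal.ofReal_natCast, ← ENNReal.ofReal_div_of_pos hp,
    ENNReal.ofReal_lt_ofReal_iff (by positivity), div_lt_div_iff₀ hp hv] at h2
  refine ⟨R, by linarith, h2.le.trans ?_⟩
  have h4 : 3 / R ≤ 1 := by rw [div_le_one hR]; linarith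
  have h5 := one_add_mul_le_pow (a := -(3 / R)) (by linarith) n
  have h6 : (n : ℝ) * (3 / R) ≤ 1 / 2 := by
    rw [← mul_div_assoc, div_le_iff₀ hR]; linarith
  have h7 : (2 * (R - 3)) ^ n = (2 * R) ^ n * (1 + -(3 / R)) ^ n := by
    rw [← mul_pow]; congr 1; field_simp; ring
  have h8 := mul_le_mul_of_nonneg_left (show 1 / 2 ≤ (1 + -(3 / R)) ^ n by linarith)
    (mul_pos hD hp).le
  rw [h7]
  linarith

/-- With `R` from `exists_cube` and `F = X ∩ [-R, R]^n` average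
`Ψ c = ∑ x ∈ F, (1[nr (x - c) ≤ 3] / 3^n + ∑ k ∈ K, a k * fr (x - c) (ρ k))` over `c ∈ [-(R-3), R-3]^n`
(`exists_le_setAverage`, `setIntegral_le_integral`, `integral_fr`, `vol_Bl`, `Real.volume_pi_Icc` or
`Real.volume_pi_closedBall`); `Z` = image under `x ↦ x - c` of `{x ∈ F | nr (x - c) ≤ 3}`. -/
theorem exists_win (hn : 0 < n) (X : Set (V n)) (hX : ∀ R : ℝ, (X ∩ {x | ∀ i, |x i| ≤ R}).Finite)
    {D : ℝ} (hD : 0 < D)
    (h : ENNReal.ofReal (vB n) * limsup (fun R : ℝ => ((X ∩ {x | ∀ i, |x i| ≤ R}).ncard : ℝ≥0∞) /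
      ENNReal.ofReal ((2 * R) ^ n)) atTop < ENNReal.ofReal D)
    (K : Finset ℕ) (a ρ : ℕ → ℝ) (ha : ∀ k, 0 ≤ a k) (hρ : ∀ k ∈ K, 0 ≤ ρ k) :
    ∃ (c : V n) (Z : Finset (V n)), (∀ x ∈ X, nr (x - c) ≤ 3 → x - c ∈ Z) ∧ (∀ z ∈ Z, nr z ≤ 3) ∧
      (Z.card : ℝ) / 3 ^ n + ∑ z ∈ Z, ∑ k ∈ K, a k * fr z (ρ k) ≤
        2 * D * (1 + ∑ k ∈ K, a k * ρ k ^ n) := by
  obtain ⟨R, hR, hc⟩ := exists_cube X hD h
  rw [Set.ncard_eq_toFinset_card _ (hX R)] at hc
  have hF : ∀ x, x ∈ (hX R).toFinset ↔ x ∈ X ∧ ∀ i, |x i| ≤ R := fun x => by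
    rw [Set.Finite.mem_toFinset]; rfl
  generalize (hX R).toFinset = F at hc hF
  have hv := vB_pos n
  let φ : V n → V n → ℝ := fun x c =>
    (Bl x 3).indicator (fun _ => ((3 : ℝ) ^ n)⁻¹) c + ∑ k ∈ K, a k * fr (x - c) (ρ k)
  have i1 : ∀ x : V n, Integrable ((Bl x 3).indicator fun _ => ((3 : ℝ) ^ n)⁻¹) := fun x =>
    (integrable_indicator_iff (measurableSet_Bl x 3)).2
      (integrableOn_const (isCompact_Bl x 3).measure_lt_top.ne)
  have i2 : ∀ x : V n, ∀ k ∈ K, Integrable fun c : V n => a k * fr (x - c) (ρ k) :=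
    fun x k hk => (integral_fr hn x (hρ k hk)).1.const_mul _
  have i3 : ∀ x, Integrable (φ x) := fun x => (i1 x).add (integrable_finsetSum _ (i2 x))
  have i4 : ∀ x, ∫ c, φ x c = vB n * (1 + ∑ k ∈ K, a k * ρ k ^ n) := fun x => by
    simp only [φ]
    rw [integral_add (i1 x) (integrable_finsetSum _ (i2 x)), integral_finsetSum _ (i2 x),
      integral_indicator_const _ (measurableSet_Bl x 3), Measure.real, vol_Bl hn x (by norm_num),
      ENNReal.toReal_ofReal (by positivity), mul_add, mul_sum, smul_eq_mul]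
    congr 1
    · field_simp
    · refine sum_congr rfl fun k hk => ?_
      rw [integral_const_mul, (integral_fr hn x (hρ k hk)).2]
      ring
  have p1 : ∀ x c : V n, 0 ≤ ∑ k ∈ K, a k * fr (x - c) (ρ k) := fun x c =>
    sum_nonneg fun k _ => mul_nonneg (ha k) (fr_nonneg _ _)
  have p2 : ∀ x c, 0 ≤ φ x c := fun x c =>
    add_nonneg (Set.indicator_nonneg (fun _ _ => by positivity) _) (p1 x c)
  have i5 : Integrable fun c => ∑ x ∈ F, φ x c := integrable_finsetSum _ fun x _ => i3 x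
  have hp : 0 < (2 * (R - 3)) ^ n := pow_pos (by linarith) n
  have hQ : volume (Metric.closedBall (0 : V n) (R - 3)) = ENNReal.ofReal ((2 * (R - 3)) ^ n) := by
    rw [Real.volume_pi_closedBall _ (by linarith), Fintype.card_fin]
  obtain ⟨c, c1, c2⟩ := exists_le_setAverage (μ := volume) (s := Metric.closedBall (0 : V n) (R - 3))
    (by rw [hQ]; exact (ENNReal.ofReal_pos.2 hp).ne') (by rw [hQ]; exact ENNReal.ofReal_ne_top)
    i5.integrableOn
  have c3 : ∫ c in Metric.closedBall (0 : V n) (R - 3), ∑ x ∈ F, φ x c ≤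
      F.card * (vB n * (1 + ∑ k ∈ K, a k * ρ k ^ n)) := by
    refine (setIntegral_le_integral i5 (Eventually.of_forall fun c =>
      sum_nonneg fun x _ => p2 x c)).trans_eq ?_
    rw [integral_finsetSum _ fun x _ => i3 x, sum_congr rfl fun x _ => i4 x, sum_const,
      nsmul_eq_mul]
  rw [setAverage_eq, Measure.real, hQ, ENNReal.toReal_ofReal hp.le, smul_eq_mul,
    le_inv_mul_iff₀ hp] at c2
  have p3 : 0 ≤ 1 + ∑ k ∈ K, a k * ρ k ^ n :=
    add_nonneg zero_le_one (sum_nonneg fun k hk => mul_nonneg (ha k) (pow_nonneg (hρ k hk) _))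
  have c4 : ∑ x ∈ F, φ x c ≤ 2 * D * (1 + ∑ k ∈ K, a k * ρ k ^ n) := by
    refine le_of_mul_le_mul_left (c2.trans (c3.trans ?_)) hp
    have := mul_le_mul_of_nonneg_right hc p3
    linarith
  rw [mem_closedBall_zero_iff, pi_norm_le_iff_of_nonneg (by linarith)] at c1
  refine ⟨c, (F.filter fun x => nr (x - c) ≤ 3).image fun x => x - c, fun x hx h3 => ?_,
    fun z hz => ?_, le_trans ?_ c4⟩
  · refine mem_image_of_mem _ (mem_filter.2 ⟨(hF x).2 ⟨hx, fun i => ?_⟩, h3⟩)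
    have a1 := (abs_le_nr (x - c) i).trans h3
    have a2 : |c i| ≤ R - 3 := c1 i
    have a3 := abs_add_le (x i - c i) (c i)
    rw [Pi.sub_apply] at a1
    rw [sub_add_cancel] at a3
    linarith
  · obtain ⟨x, hx, rfl⟩ := mem_image.1 hz
    exact (mem_filter.1 hx).2
  · have hi : Function.Injective fun x : V n => x - c := sub_left_injective
    rw [card_image_of_injective _ hi, sum_image fun x _ y _ e => hi e, card_eq_sum_ones]
    push_cast
    rw [sum_div, ← sum_add_distrib]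
    refine le_trans (sum_le_sum fun x hx => ?_)
      (sum_le_sum_of_subset_of_nonneg (filter_subset (fun x => nr (x - c) ≤ 3) F)
        fun x _ _ => p2 x c)
    have : c ∈ Bl x 3 := by rw [mem_Bl, nr_sub_comm]; exact (mem_filter.1 hx).2
    simp only [φ, Set.indicator_of_mem this, one_div, le_refl]

end
end Crest.Agent.R225B
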